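import Vale.Agent.P264.Cert

/-! Gluing local pieces into a certificate.

Plan. `glue b L' L` is `L'` left of `b` and `L` from `b` on. `Good.step`: for `ξ ≠ b` the glued
functions agree with `L'` or `L` near `ξ` (`Filter.EventuallyEq`, `HasDerivAt.congr_of_eventuallyEq`);
at `ξ = b` use one lemma: if `F b = G b`, `HasDerivAt F v b`, `HasDerivAt G v b` then
`fun y => if y < b then F y else G y` has derivative `v` at `b` (and the same for `ContinuousAt`).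
Measurability: `Measurable.ite measurableSet_Iio`. The integral splits at `b`
(`intervalIntegral.integral_add_adjacent_intervals`; the integrand is continuous on `[lo, X]`
since `g1 . 0`, `g0 . 0`, `f i . 0`, `f i . 1` are). `Good.cert`: indices `i ≥ 6` of `q`, `i ≥ 3` of
`r`, `i ≥ 2` of `f` are replaced by the zero function; the integral over `[xt, X]` vanishes. -/

open Set MeasureTheory

namespace Vale.Agent.P264.B

structure Loc where
  W : ℝ → ℕ → ℝ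
  g1 : ℝ → ℕ → ℝ
  g0 : ℝ → ℕ → ℝ
  q : ℝ → ℕ → ℝ
  qd : ℝ → ℕ → ℝ
  r : ℕ → ℝ → ℕ → ℝ
  f : ℕ → ℝ → ℕ → ℝ

structure Cst where
  x1 : ℝ
  x2 : ℝ
  xt : ℝ
  ct : ℝ
  X : ℝ
  xs : ℝ

/-- The pointwise inequalities at `ξ`. -/
structure Pt (c : Cst) (L : Loc) (ξ : ℝ) : Prop where
  bW : ∀ k, k ≤ 4 → |L.W ξ k| * (1 + ξ) ^ (k + 1) ≤ 10 ^ 6
  bY : 1 / 20 ≤ 1 - ξ * L.W ξ 0 ∧ 1 - ξ * L.W ξ 0 ≤ 1
  bY1 : |L.W ξ 0 + ξ * L.W ξ 1| * (1 + ξ) ^ 3 ≤ 10 ^ 6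
  res : |-(1 - ξ * L.W ξ 0) ^ 2 * S2 (L.W ξ) ξ - (L.W ξ 0 + ξ * L.W ξ 1) / 2| * (1 + ξ) ^ 3
    ≤ 1 / 10 ^ 130
  bg1 : 1 ≤ L.g1 ξ 0 ∧ L.g1 ξ 0 ≤ 10 ^ 14 ∧ |ξ * L.g1 ξ 1| ≤ 10 ^ 14 ∧ |ξ ^ 2 * L.g1 ξ 2| ≤ 10 ^ 14
  bg0 : |L.g0 ξ 0| ≤ 10 ^ 14 * (ξ / (1 + ξ)) ∧ |ξ * L.g0 ξ 1| ≤ 10 ^ 14 * (ξ / (1 + ξ))
  bq : ∀ i, i ≤ 5 → |L.q ξ i| ≤ 10 ^ 14 ∧ |ξ * L.qd ξ i| ≤ 10 ^ 14
  bq0 : ∀ i, i ≤ 2 →
    |L.q ξ i| ≤ 10 ^ 14 * (ξ / (1 + ξ)) ∧ |ξ * L.qd ξ i| ≤ 10 ^ 14 * (ξ / (1 + ξ))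
  tail : c.xt ≤ ξ →
    L.g1 ξ 0 = c.ct ∧ L.g1 ξ 1 = 0 ∧ L.g1 ξ 2 = 0 ∧ L.g0 ξ 0 = -c.ct / 2 ∧ L.g0 ξ 1 = 0
  main : ∀ a : ℕ → ℝ,
    prod2 ξ (1 - ξ * L.W ξ 0) (-ξ * (L.W ξ 0 + ξ * L.W ξ 1)) (L.g1 ξ 0) (ξ * L.g1 ξ 1)
        (ξ ^ 2 * L.g1 ξ 2) (L.g0 ξ 0) (ξ * L.g0 ξ 1) a + ξ * flux (L.qd ξ) a + fluxD (L.q ξ) a
      ≤ -(ξ / (1 + ξ) * a 0 ^ 2 + a 1 ^ 2 + a 2 ^ 2 + a 3 ^ 2)
  br : ∀ i, i ≤ 2 → |L.r i ξ 0| ≤ 10 ^ 14 ∧ |ξ * L.r i ξ 1| ≤ 10 ^ 14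
  rtail : c.xt ≤ ξ → L.r 2 ξ 0 = c.ct ∧ L.r 2 ξ 1 = 0
  index : ∀ i, (i = 0 ∧ ξ < c.x1) ∨ (i = 1 ∧ c.x1 ≤ ξ ∧ ξ < c.x2) ∨ (i = 2 ∧ c.x2 ≤ ξ) →
    ∀ a0 a1 : ℝ, a0 ^ 2 + a1 ^ 2 ≤ L.g1 ξ 0 * a1 ^ 2 + L.g0 ξ 0 * a0 ^ 2
      + (ξ * L.r i ξ 1 + 2 * L.r i ξ 0) * a0 ^ 2 + 2 * L.r i ξ 0 * a0 * a1
  bf : ∀ i k, i ≤ 1 → k ≤ 2 → |L.f i ξ k| ≤ 1
  ftail : c.xt ≤ ξ → ∀ i k, i ≤ 1 → L.f i ξ k = 0
  bYs : ξ = c.xs → 1 - ξ * L.W ξ 0 ≤ 1 / 2

/-- Derivative relations that hold at every point, breakpoints included. -/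
structure DerAll (L : Loc) (ξ : ℝ) : Prop where
  dW : ∀ k, k ≤ 2 → HasDerivAt (fun y => L.W y k) (L.W ξ (k + 1)) ξ
  cW : ContinuousAt (fun y => L.W y 3) ξ
  dg1 : HasDerivAt (fun y => L.g1 y 0) (L.g1 ξ 1) ξ
  cg1 : ContinuousAt (fun y => L.g1 y 1) ξ
  cg0 : ContinuousAt (fun y => L.g0 y 0) ξ
  cq : ∀ i, i ≤ 5 → ContinuousAt (fun y => L.q y i) ξ
  cr : ∀ i, i ≤ 2 → ContinuousAt (fun y => L.r i y 0) ξ
  df : ∀ i k, i ≤ 1 → k ≤ 1 → HasDerivAt (fun y => L.f i y k) (L.f i ξ (k + 1)) ξ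
  cf : ∀ i, i ≤ 1 → ContinuousAt (fun y => L.f i y 2) ξ

/-- Derivative relations that hold off the breakpoints. -/
structure DerOff (L : Loc) (ξ : ℝ) : Prop where
  dW : HasDerivAt (fun y => L.W y 3) (L.W ξ 4) ξ
  dg1 : HasDerivAt (fun y => L.g1 y 1) (L.g1 ξ 2) ξ
  dg0 : HasDerivAt (fun y => L.g0 y 0) (L.g0 ξ 1) ξ
  dq : ∀ i, i ≤ 5 → HasDerivAt (fun y => L.q y i) (L.qd ξ i) ξ
  dr : ∀ i, i ≤ 2 → HasDerivAt (fun y => L.r i y 0) (L.r i ξ 1) ξ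

structure Meas (L : Loc) : Prop where
  mW : Measurable (fun y => L.W y 4)
  mg1 : Measurable (fun y => L.g1 y 2)
  mg0 : Measurable (fun y => L.g0 y 1)
  mq : ∀ i, i ≤ 5 → Measurable (fun y => L.qd y i)
  mr : ∀ i, i ≤ 2 → Measurable (fun y => L.r i y 1)

structure Match (L' L : Loc) (b : ℝ) : Prop where
  W : ∀ k, k ≤ 3 → L'.W b k = L.W b k
  g1 : ∀ k, k ≤ 1 → L'.g1 b k = L.g1 b k
  g0 : L'.g0 b 0 = L.g0 b 0
  q : ∀ i, i ≤ 5 → L'.q b i = L.q b i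
  r : ∀ i, i ≤ 2 → L'.r i b 0 = L.r i b 0
  f : ∀ i k, i ≤ 1 → k ≤ 2 → L'.f i b k = L.f i b k

noncomputable def negD (L : Loc) (θ0 θ1 ξ : ℝ) : ℝ :=
  ξ * (L.g1 ξ 0 * (ξ * (θ0 * L.f 0 ξ 1 + θ1 * L.f 1 ξ 1)) ^ 2
    + L.g0 ξ 0 * (θ0 * L.f 0 ξ 0 + θ1 * L.f 1 ξ 0) ^ 2)

/-- One piece `[lo, hi]`. The inequalities are only required on `[lo, hi)`. -/
structure Seg (c : Cst) (L : Loc) (lo hi : ℝ) (A : ℝ → ℝ → ℝ) : Prop where
  lt : lo < hi
  all : ∀ ξ ∈ Icc lo hi, DerAll L ξ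
  off : ∀ ξ ∈ Icc lo hi, DerOff L ξ
  meas : Meas L
  pt : ∀ ξ ∈ Ico lo hi, Pt c L ξ
  neg : ∀ θ0 θ1 : ℝ, ∫ ξ in lo..hi, negD L θ0 θ1 ξ ≤ A θ0 θ1

/-- Everything holds on `[lo, ∞)`. -/
structure Good (c : Cst) (L : Loc) (lo : ℝ) (Bk : Finset ℝ) (A : ℝ → ℝ → ℝ) : Prop where
  le : lo ≤ c.X
  all : ∀ ξ, lo ≤ ξ → DerAll L ξ
  off : ∀ ξ, lo ≤ ξ → ξ ∉ Bk → DerOff L ξ
  meas : Meas L
  pt : ∀ ξ, lo ≤ ξ → Pt c L ξ
  neg : ∀ θ0 θ1 : ℝ, ∫ ξ in lo..c.X, negD L θ0 θ1 ξ ≤ A θ0 θ1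

open Classical in
noncomputable def glue (b : ℝ) (L' L : Loc) : Loc where
  W ξ := if ξ < b then L'.W ξ else L.W ξ
  g1 ξ := if ξ < b then L'.g1 ξ else L.g1 ξ
  g0 ξ := if ξ < b then L'.g0 ξ else L.g0 ξ
  q ξ := if ξ < b then L'.q ξ else L.q ξ
  qd ξ := if ξ < b then L'.qd ξ else L.qd ξ
  r i ξ := if ξ < b then L'.r i ξ else L.r i ξ
  f i ξ := if ξ < b then L'.f i ξ else L.f i ξ

open Classical in
theorem glue_cont {F G : ℝ → ℝ} {b ξ : ℝ} (hF : ξ ≤ b → ContinuousAt F ξ)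
    (hG : b ≤ ξ → ContinuousAt G ξ) (e : F b = G b) :
    ContinuousAt (fun y => if y < b then F y else G y) ξ := by
  rcases lt_trichotomy ξ b with h | rfl | h
  · exact (hF h.le).congr (by filter_upwards [Iio_mem_nhds h] with y hy; rw [if_pos (mem_Iio.1 hy)])
  · have h1 : ContinuousWithinAt (fun y => if y < ξ then F y else G y) (Iic ξ) ξ :=
      (hF le_rfl).continuousWithinAt.congr (fun y hy => by
        rcases (show y ≤ ξ from hy).lt_or_eq with h | rfl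
        · rw [if_pos h]
        · rw [if_neg (lt_irrefl _), e]) (by rw [if_neg (lt_irrefl _), e])
    have h2 : ContinuousWithinAt (fun y => if y < ξ then F y else G y) (Ici ξ) ξ :=
      (hG le_rfl).continuousWithinAt.congr (fun y hy => by
        rw [if_neg (not_lt.2 hy)]) (by rw [if_neg (lt_irrefl _)])
    have h3 := h1.union h2
    rwa [Iic_union_Ici, continuousWithinAt_univ] at h3
  · exact (hG h.le).congr (by
      filter_upwards [Ioi_mem_nhds h] with y hy; rw [if_neg (not_lt.2 (le_of_lt hy))])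

open Classical in
theorem glue_der {F G : ℝ → ℝ} {b ξ u v : ℝ} (hF : ξ ≤ b → HasDerivAt F u ξ)
    (hG : b ≤ ξ → HasDerivAt G v ξ) (e : F b = G b) (e' : ξ = b → u = v) :
    HasDerivAt (fun y => if y < b then F y else G y) (if ξ < b then u else v) ξ := by
  rcases lt_trichotomy ξ b with h | rfl | h
  · rw [if_pos h]
    exact (hF h.le).congr_of_eventuallyEq
      (by filter_upwards [Iio_mem_nhds h] with y hy; rw [if_pos (mem_Iio.1 hy)])
  · rw [if_neg (lt_irrefl _)]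
    have h1 : HasDerivWithinAt (fun y => if y < ξ then F y else G y) v (Iic ξ) ξ :=
      (e' rfl ▸ hF le_rfl).hasDerivWithinAt.congr (fun y hy => by
        rcases (show y ≤ ξ from hy).lt_or_eq with h | rfl
        · rw [if_pos h]
        · rw [if_neg (lt_irrefl _), e]) (by rw [if_neg (lt_irrefl _), e])
    have h2 : HasDerivWithinAt (fun y => if y < ξ then F y else G y) v (Ici ξ) ξ :=
      (hG le_rfl).hasDerivWithinAt.congr (fun y hy => by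
        rw [if_neg (not_lt.2 hy)]) (by rw [if_neg (lt_irrefl _)])
    have h3 := h1.union h2
    rwa [Iic_union_Ici, hasDerivWithinAt_univ] at h3
  · rw [if_neg (not_lt.2 h.le)]
    exact (hG h.le).congr_of_eventuallyEq (by
      filter_upwards [Ioi_mem_nhds h] with y hy; rw [if_neg (not_lt.2 (le_of_lt hy))])

theorem glue_pt_left {c : Cst} {L' L : Loc} {b ξ : ℝ} (hξ : ξ < b) (h : Pt c L' ξ) :
    Pt c (glue b L' L) ξ := by
  cases h
  constructor <;> simp only [glue, if_pos hξ] <;> assumption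

theorem glue_pt_right {c : Cst} {L' L : Loc} {b ξ : ℝ} (hξ : ¬ ξ < b) (h : Pt c L ξ) :
    Pt c (glue b L' L) ξ := by
  cases h
  constructor <;> simp only [glue, if_neg hξ] <;> assumption

theorem glue_all {L' L : Loc} {b ξ : ℝ} (h' : ξ ≤ b → DerAll L' ξ) (h : b ≤ ξ → DerAll L ξ)
    (m : Match L' L b) : DerAll (glue b L' L) ξ := by
  constructor <;> simp only [glue, ite_apply]
  · exact fun k hk => glue_der (fun a => (h' a).dW k hk) (fun a => (h a).dW k hk)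
      (m.W k (by omega)) fun e => e ▸ m.W (k + 1) (by omega)
  · exact glue_cont (fun a => (h' a).cW) (fun a => (h a).cW) (m.W 3 le_rfl)
  · exact glue_der (fun a => (h' a).dg1) (fun a => (h a).dg1) (m.g1 0 (by omega))
      fun e => e ▸ m.g1 1 le_rfl
  · exact glue_cont (fun a => (h' a).cg1) (fun a => (h a).cg1) (m.g1 1 le_rfl)
  · exact glue_cont (fun a => (h' a).cg0) (fun a => (h a).cg0) m.g0
  · exact fun i hi => glue_cont (fun a => (h' a).cq i hi) (fun a => (h a).cq i hi) (m.q i hi)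
  · exact fun i hi => glue_cont (fun a => (h' a).cr i hi) (fun a => (h a).cr i hi) (m.r i hi)
  · exact fun i k hi hk => glue_der (fun a => (h' a).df i k hi hk) (fun a => (h a).df i k hi hk)
      (m.f i k hi (by omega)) fun e => e ▸ m.f i (k + 1) hi (by omega)
  · exact fun i hi => glue_cont (fun a => (h' a).cf i hi) (fun a => (h a).cf i hi)
      (m.f i 2 hi le_rfl)

theorem glue_off {L' L : Loc} {b ξ : ℝ} (hne : ξ ≠ b) (h' : ξ ≤ b → DerOff L' ξ)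
    (h : b ≤ ξ → DerOff L ξ) (m : Match L' L b) : DerOff (glue b L' L) ξ := by
  constructor <;> simp only [glue, ite_apply]
  · exact glue_der (fun a => (h' a).dW) (fun a => (h a).dW) (m.W 3 le_rfl) fun e => absurd e hne
  · exact glue_der (fun a => (h' a).dg1) (fun a => (h a).dg1) (m.g1 1 le_rfl)
      fun e => absurd e hne
  · exact glue_der (fun a => (h' a).dg0) (fun a => (h a).dg0) m.g0 fun e => absurd e hne
  · exact fun i hi => glue_der (fun a => (h' a).dq i hi) (fun a => (h a).dq i hi) (m.q i hi)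
      fun e => absurd e hne
  · exact fun i hi => glue_der (fun a => (h' a).dr i hi) (fun a => (h a).dr i hi) (m.r i hi)
      fun e => absurd e hne

theorem glue_meas {L' L : Loc} {b : ℝ} (h' : Meas L') (h : Meas L) : Meas (glue b L' L) := by
  constructor <;> simp only [glue, ite_apply]
  · exact Measurable.ite measurableSet_Iio h'.mW h.mW
  · exact Measurable.ite measurableSet_Iio h'.mg1 h.mg1
  · exact Measurable.ite measurableSet_Iio h'.mg0 h.mg0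
  · exact fun i hi => Measurable.ite measurableSet_Iio (h'.mq i hi) (h.mq i hi)
  · exact fun i hi => Measurable.ite measurableSet_Iio (h'.mr i hi) (h.mr i hi)

theorem glue_negD_cont {L : Loc} {ξ : ℝ} (h : DerAll L ξ) (θ0 θ1 : ℝ) :
    ContinuousAt (negD L θ0 θ1) ξ := by
  have a1 := h.dg1.continuousAt
  have a2 := h.cg0
  have a3 := (h.df 0 0 (by omega) (by omega)).continuousAt
  have a4 := (h.df 0 1 (by omega) (by omega)).continuousAt
  have a5 := (h.df 1 0 (by omega) (by omega)).continuousAt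
  have a6 := (h.df 1 1 (by omega) (by omega)).continuousAt
  exact continuousAt_id.mul ((a1.mul ((continuousAt_id.mul
    ((continuousAt_const.mul a4).add (continuousAt_const.mul a6))).pow 2)).add
    (a2.mul (((continuousAt_const.mul a3).add (continuousAt_const.mul a5)).pow 2)))

theorem glue_negD_int {L : Loc} {lo a b : ℝ} (h : ∀ ξ, lo ≤ ξ → DerAll L ξ) (θ0 θ1 : ℝ)
    (ha : lo ≤ a) (hab : a ≤ b) : IntervalIntegrable (negD L θ0 θ1) volume a b :=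
  ContinuousOn.intervalIntegrable_of_Icc hab fun ξ hξ =>
    (glue_negD_cont (h ξ (ha.trans hξ.1)) θ0 θ1).continuousWithinAt

theorem Good.step {c : Cst} {L' L : Loc} {lo b : ℝ} {A A' : ℝ → ℝ → ℝ} {Bk : Finset ℝ}
    (h' : Seg c L' lo b A') (h : Good c L b Bk A) (m : Match L' L b) :
    ∃ Bk', Good c (glue b L' L) lo Bk' (fun θ0 θ1 => A' θ0 θ1 + A θ0 θ1) := by
  classical
  have hall : ∀ ξ, lo ≤ ξ → DerAll (glue b L' L) ξ := fun ξ hξ =>
    glue_all (fun a => h'.all ξ ⟨hξ, a⟩) (h.all ξ) m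
  refine ⟨insert b Bk, h'.lt.le.trans h.le, hall, fun ξ hξ hB => ?_, glue_meas h'.meas h.meas,
    fun ξ hξ => ?_, fun θ0 θ1 => ?_⟩
  · rw [Finset.mem_insert, not_or] at hB
    exact glue_off hB.1 (fun a => h'.off ξ ⟨hξ, a⟩) (fun a => h.off ξ a hB.2) m
  · by_cases hb : ξ < b
    · exact glue_pt_left hb (h'.pt ξ ⟨hξ, hb⟩)
    · exact glue_pt_right hb (h.pt ξ (not_lt.1 hb))
  · rw [← intervalIntegral.integral_add_adjacent_intervals
      (glue_negD_int hall θ0 θ1 le_rfl h'.lt.le) (glue_negD_int hall θ0 θ1 h'.lt.le h.le)]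
    have e1 : ∫ ξ in lo..b, negD (glue b L' L) θ0 θ1 ξ = ∫ ξ in lo..b, negD L' θ0 θ1 ξ := by
      refine intervalIntegral.integral_congr fun ξ hξ => ?_
      rw [uIcc_of_le h'.lt.le] at hξ
      rcases hξ.2.lt_or_eq with hb | rfl
      · simp only [negD, glue, if_pos hb]
      · simp only [negD, glue, if_neg (lt_irrefl ξ), m.g1 0 (by omega), m.g0,
          m.f 0 0 (by omega) (by omega), m.f 0 1 (by omega) (by omega),
          m.f 1 0 (by omega) (by omega), m.f 1 1 (by omega) (by omega)]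
    have e2 : ∫ ξ in b..c.X, negD (glue b L' L) θ0 θ1 ξ = ∫ ξ in b..c.X, negD L θ0 θ1 ξ := by
      refine intervalIntegral.integral_congr fun ξ hξ => ?_
      rw [uIcc_of_le h.le] at hξ
      simp only [negD, glue, if_neg (not_lt.2 hξ.1)]
    rw [e1, e2]
    linarith [h'.neg θ0 θ1, h.neg θ0 θ1]

/-- Left of the first breakpoint the glued data are those of the first piece. -/
theorem Match.glue {L'' L' L : Loc} {a b : ℝ} (hab : a < b) (m : Match L'' L' a) :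
    Match L'' (glue b L' L) a := by
  cases m
  constructor <;> simp only [B.glue, if_pos hab] <;> assumption

theorem Good.cert {c : Cst} {L : Loc} {Bk : Finset ℝ} {A : ℝ → ℝ → ℝ} (h : Good c L 0 Bk A)
    (hA : ∀ θ0 θ1, A θ0 θ1 ≤ -(θ0 ^ 2 + θ1 ^ 2)) (hx1 : 1 ≤ c.x1) (hx12 : c.x1 < c.x2) (hx2t : c.x2 < c.xt)
    (hxt : 32 ≤ c.xt) (hxt' : c.xt ≤ 1000) (hX : c.xt ≤ c.X) (hct : 5 ≤ c.ct)
    (hxs : 0 < c.xs) : Nonempty Cert := by
  have z1 : ∀ ξ : ℝ, HasDerivAt (fun _ : ℝ => (0 : ℝ)) 0 ξ := fun ξ => hasDerivAt_const ξ 0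
  refine ⟨{
    W := L.W, g1 := L.g1, g0 := L.g0
    q := fun ξ i => if i ≤ 5 then L.q ξ i else 0
    qd := fun ξ i => if i ≤ 5 then L.qd ξ i else 0
    r := fun i ξ k => if i ≤ 2 then L.r i ξ k else 0
    f := fun i ξ k => if i ≤ 1 then L.f i ξ k else 0
    Bk := Bk, x1 := c.x1, x2 := c.x2, xt := c.xt, xs := c.xs, ct := c.ct
    hx1 := hx1, hx12 := hx12, hx2t := hx2t, hxt := hxt, hxt' := hxt', hxs := hxs, hct := hct
    dW := fun k ξ hk hξ => (h.all ξ hξ).dW k hk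
    dW3 := fun ξ hξ hB => (h.off ξ hξ.le hB).dW
    cW3 := fun ξ hξ => (h.all ξ hξ).cW.continuousWithinAt
    mW4 := h.meas.mW
    bW := fun k ξ hk hξ => (h.pt ξ hξ).bW k hk
    bY := fun ξ hξ => (h.pt ξ hξ).bY
    bY1 := fun ξ hξ => (h.pt ξ hξ).bY1
    bYs := (h.pt c.xs hxs.le).bYs rfl
    res := fun ξ hξ => (h.pt ξ hξ.le).res
    dg1 := fun ξ hξ => (h.all ξ hξ.le).dg1
    dg1' := fun ξ hξ hB => (h.off ξ hξ.le hB).dg1
    cg1 := fun ξ hξ => (h.all ξ (le_of_lt hξ)).cg1.continuousWithinAt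
    mg1 := h.meas.mg1
    dg0 := fun ξ hξ hB => (h.off ξ hξ.le hB).dg0
    cg0 := fun ξ hξ => (h.all ξ (le_of_lt hξ)).cg0.continuousWithinAt
    mg0 := h.meas.mg0
    dq := fun i ξ hξ hB => ?_
    cq := fun i => ?_
    mq := fun i => ?_
    bg1 := fun ξ hξ => (h.pt ξ hξ.le).bg1
    bg0 := fun ξ hξ => (h.pt ξ hξ.le).bg0
    bq := fun i ξ hξ => ?_
    bq0 := fun i ξ hi hξ => ?_
    tail := fun ξ hξ => (h.pt ξ (by linarith)).tail hξ
    main := fun ξ hξ a => ?_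
    dr := fun i ξ hξ hB => ?_
    cr := fun i => ?_
    mr := fun i => ?_
    br := fun i ξ hξ => ?_
    rtail := fun ξ hξ => ?_
    index := fun i ξ hξ hi => ?_
    df := fun i k ξ hk hξ => ?_
    cf := fun i => ?_
    bf := fun i k ξ hk hξ => ?_
    ftail := fun i k ξ hξ => ?_
    neg := fun θ0 θ1 => ?_ }⟩
  · split_ifs with hi
    exacts [(h.off ξ hξ.le hB).dq i hi, z1 ξ]
  · split_ifs with hi
    exacts [fun ξ hξ => ((h.all ξ (le_of_lt hξ)).cq i hi).continuousWithinAt, continuousOn_const]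
  · split_ifs with hi
    exacts [h.meas.mq i hi, measurable_const]
  · split_ifs with hi
    · exact (h.pt ξ hξ.le).bq i hi
    · simp
  · rw [if_pos (by omega), if_pos (by omega)]
    exact (h.pt ξ hξ.le).bq0 i hi
  · have := (h.pt ξ hξ.le).main a
    simp only [flux, fluxD] at this ⊢
    simpa only [Nat.reduceLeDiff, zero_le, Nat.one_le_ofNat, le_refl, if_true] using this
  · split_ifs with hi
    exacts [(h.off ξ hξ.le hB).dr i hi, z1 ξ]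
  · split_ifs with hi
    exacts [fun ξ hξ => ((h.all ξ (le_of_lt hξ)).cr i hi).continuousWithinAt, continuousOn_const]
  · split_ifs with hi
    exacts [h.meas.mr i hi, measurable_const]
  · split_ifs with hi
    · exact (h.pt ξ hξ.le).br i hi
    · simp
  · rw [if_pos le_rfl, if_pos le_rfl]
    exact (h.pt ξ (by linarith)).rtail hξ
  · have hi2 : i ≤ 2 := by omega
    simp only [if_pos hi2]
    exact (h.pt ξ hξ.le).index i hi
  · split_ifs with hi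
    exacts [(h.all ξ hξ).df i k hi hk, z1 ξ]
  · split_ifs with hi
    exacts [fun ξ hξ => ((h.all ξ hξ).cf i hi).continuousWithinAt, continuousOn_const]
  · split_ifs with hi
    · exact (h.pt ξ hξ).bf i k hi hk
    · simp
  · split_ifs with hi
    exacts [(h.pt ξ (by linarith)).ftail hξ i k hi, rfl]
  · have hx0 : (0 : ℝ) ≤ c.xt := by linarith
    have a1 := h.neg θ0 θ1
    rw [← intervalIntegral.integral_add_adjacent_intervals
      (glue_negD_int h.all θ0 θ1 le_rfl hx0) (glue_negD_int h.all θ0 θ1 hx0 hX)] at a1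
    have e2 : ∫ ξ in c.xt..c.X, negD L θ0 θ1 ξ = ∫ _ in c.xt..c.X, (0 : ℝ) := by
      refine intervalIntegral.integral_congr fun ξ hξ => ?_
      rw [uIcc_of_le hX] at hξ
      have := (h.pt ξ (hx0.trans hξ.1)).ftail hξ.1
      simp [negD, this 0 _ (by omega), this 1 _ (by omega)]
    rw [e2, intervalIntegral.integral_zero, add_zero] at a1
    simp only [zero_le, le_refl, if_true]
    exact le_trans a1 (hA θ0 θ1)

end Vale.Agent.P264.B
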