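import Vale.Agent.P264.B.PJet

/-! Soundness of `chkB`, `chkTail`, `chkI` on one piece.
Plan: `abs_ev_le`, `chkPos_spec`, `jet_zero`, `jet_D1`, `jet_D2`, `ev_zp`, `jet_hD`. For `bndz`:
if `first` then `z = 1 + u`, `ξ = h z`, `ξ/(1+ξ) ≥ z hn/(hd + 2 hn)`; otherwise `z = 1` and
`ξ/(1+ξ) ≥ lo/(1+lo)`. For `chkI1`: with `A = g0 + ξ r' + 2 r - 1`, `B = g1 - 1 > 0`,
`A B - r^2 > 0` the form `A a0^2 + 2 r a0 a1 + B a1^2` is nonnegative. -/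

open Set

namespace Vale.Agent.P264.B.PD

variable {d : PD}

theorem pb_SS : (0 : ℝ) < SS := by
  unfold SS
  positivity

theorem pb_BB : (BB : ℝ) = 10 ^ 14 := by
  unfold BB
  norm_num

theorem pb_bnd {p : List ℤ} (hb : bnd p = true) {u : ℝ} (hu : |u| ≤ 1) :
    |ev p u / SS| ≤ 10 ^ 14 := by
  have h1 : nrm p ≤ BB * SS := Nat.le_of_ble_eq_true hb
  have h2 : (nrm p : ℝ) ≤ BB * SS := by exact_mod_cast h1
  rw [abs_div, abs_of_pos pb_SS, div_le_iff₀ pb_SS, ← pb_BB]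
  exact (abs_ev_le p hu).trans h2

theorem pb_lo (h : d.chkBasic = true) : d.lo * d.hd = ((d.hn * (d.nu - 1) : ℕ) : ℝ) := by
  obtain ⟨h1, -, h3, -⟩ := basic h
  have h4 : (0 : ℝ) < d.hd := by exact_mod_cast h3
  rw [Nat.cast_mul, Nat.cast_sub h1, lo]
  field_simp
  simp

theorem pb_hi (h : d.chkBasic = true) : d.hi * d.hd = ((d.hn * (d.nu + 1) : ℕ) : ℝ) := by
  obtain ⟨-, -, h3, -⟩ := basic h
  have h4 : (0 : ℝ) < d.hd := by exact_mod_cast h3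
  rw [hi]
  push_cast
  field_simp

theorem pb_lo_ge (h : d.chkBasic = true) {a b : ℕ} (hab : a * d.hd ≤ b * (d.hn * (d.nu - 1))) :
    (a : ℝ) ≤ b * d.lo := by
  obtain ⟨-, -, h3, -⟩ := basic h
  have h4 : (0 : ℝ) < d.hd := by exact_mod_cast h3
  have h5 : (a : ℝ) * d.hd ≤ b * ((d.hn * (d.nu - 1) : ℕ) : ℝ) := by exact_mod_cast hab
  rw [← pb_lo h, ← mul_assoc] at h5
  exact le_of_mul_le_mul_right h5 h4

theorem pb_hi_le (h : d.chkBasic = true) {a b : ℕ} (hab : b * (d.hn * (d.nu + 1)) ≤ a * d.hd) :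
    (b : ℝ) * d.hi ≤ a := by
  obtain ⟨-, -, h3, -⟩ := basic h
  have h4 : (0 : ℝ) < d.hd := by exact_mod_cast h3
  have h5 : (b : ℝ) * ((d.hn * (d.nu + 1) : ℕ) : ℝ) ≤ a * d.hd := by exact_mod_cast hab
  rw [← pb_hi h, ← mul_assoc] at h5
  exact le_of_mul_le_mul_right h5 h4

theorem pb_bndz (h : d.chkBasic = true) {p : List ℤ} (hb : d.bndz p = true) {ξ : ℝ}
    (hξ : ξ ∈ Icc d.lo d.hi) :
    |ev (d.zp [1]) (d.uu ξ) * (ev p (d.uu ξ) / SS)| ≤ 10 ^ 14 * (ξ / (1 + ξ)) := by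
  obtain ⟨h1, h2, h3, h4, h5⟩ := basic h
  have hd0 : (0 : ℝ) < d.hd := by exact_mod_cast h3
  have hn0 : (0 : ℝ) < d.hn := by exact_mod_cast h2
  have hu := uu_abs h hξ
  have hx := xi_nonneg h hξ
  have hz := z_bounds h hξ
  have hp := abs_ev_le p hu
  have hS := pb_SS
  have hN : (0 : ℝ) ≤ nrm p := Nat.cast_nonneg _
  rw [abs_mul, abs_of_nonneg hz.1, abs_div, abs_of_pos hS, ← pb_BB]
  have hB : (0 : ℝ) ≤ BB := Nat.cast_nonneg _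
  refine (mul_le_mul_of_nonneg_left (div_le_div_of_nonneg_right hp hS.le) hz.1).trans ?_
  rw [← mul_div_assoc, ← mul_div_assoc, div_le_div_iff₀ hS (by linarith)]
  cases hf : d.first with
  | false =>
    have e1 : d.zp [1] = [1] := by simp [zp, hf]
    have e2 : nrm p * (d.hd + d.hn * (d.nu - 1)) ≤ BB * SS * (d.hn * (d.nu - 1)) := by
      have k := hb
      simp only [bndz, hf] at k
      exact Nat.le_of_ble_eq_true k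
    have e3 : (nrm p : ℝ) * (d.hd + ((d.hn * (d.nu - 1) : ℕ) : ℝ)) ≤
        BB * SS * ((d.hn * (d.nu - 1) : ℕ) : ℝ) := by exact_mod_cast e2
    rw [← pb_lo h] at e3
    have e4 : (nrm p : ℝ) * (1 + d.lo) ≤ BB * SS * d.lo := by
      refine le_of_mul_le_mul_right ?_ hd0
      linarith
    have e5 : 0 ≤ d.lo := by simpa using pb_lo_ge h (a := 0) (b := 1) (by simp)
    have e6 : (nrm p : ℝ) ≤ BB * SS := by
      by_contra k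
      have k1 := not_le.1 k
      nlinarith [mul_nonneg (sub_nonneg.2 k1.le) e5, mul_nonneg hB hS.le]
    have e7 : ev [1] (d.uu ξ) = 1 := by simp
    rw [e1, e7]
    nlinarith [mul_nonneg (sub_nonneg.2 e6) (sub_nonneg.2 hξ.1)]
  | true =>
    have e0 := h4 hf
    have e1 : ev (d.zp [1]) (d.uu ξ) = d.nu + d.uu ξ := by
      have k : d.zp [1] = d.mx [1] := by simp [zp, hf]
      rw [k, ev_mx]
      simp
    have e2 : nrm p * (d.hd + 2 * d.hn) ≤ BB * SS * d.hn := by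
      have k := hb
      simp only [bndz, hf] at k
      exact Nat.le_of_ble_eq_true k
    have e3 : (nrm p : ℝ) * (d.hd + 2 * d.hn) ≤ BB * SS * d.hn := by exact_mod_cast e2
    have e4 : ξ * d.hd = d.hn * ev (d.zp [1]) (d.uu ξ) := by
      rw [e1]
      conv_lhs => rw [xi_eq h ξ]
      field_simp
    generalize ev (d.zp [1]) (d.uu ξ) = z at hz e4 ⊢
    refine le_of_mul_le_mul_right ?_ hd0
    have e5 : z * (nrm p : ℝ) * (1 + ξ) * d.hd = z * (nrm p * (d.hd + d.hn * z)) := by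
      rw [← e4]
      ring
    have e6 : (BB : ℝ) * ξ * SS * d.hd = z * (BB * SS * d.hn) := by
      rw [show (BB : ℝ) * ξ * SS * d.hd = BB * SS * (ξ * d.hd) by ring, e4]
      ring
    rw [e5, e6]
    refine mul_le_mul_of_nonneg_left (le_trans (mul_le_mul_of_nonneg_left ?_ hN) e3) hz.1
    nlinarith [hz.2]

theorem pb_zp (h : d.chkBasic = true) {p : List ℤ} (h1 : d.bndz p = true)
    (h2 : d.bndz (d.hD p) = true) {ξ : ℝ} (hξ : ξ ∈ Icc d.lo d.hi) :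
    |d.jet (d.zp p) SS ξ 0| ≤ 10 ^ 14 * (ξ / (1 + ξ)) ∧
      |ξ * d.jet (d.zp p) SS ξ 1| ≤ 10 ^ 14 * (ξ / (1 + ξ)) := by
  constructor
  · rw [jet_zero, ev_zp, mul_div_assoc]
    exact pb_bndz h h1 hξ
  · rw [jet_hD h]
    exact pb_bndz h h2 hξ

theorem pb_pl (h : d.chkBasic = true) {p : List ℤ} (h1 : bnd p = true)
    (h2 : bnd (d.D1 p) = true) {ξ : ℝ} (hξ : ξ ∈ Icc d.lo d.hi) :
    |d.jet p SS ξ 0| ≤ 10 ^ 14 ∧ |ξ * d.jet p SS ξ 1| ≤ 10 ^ 14 := by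
  constructor
  · rw [jet_zero]
    exact pb_bnd h1 (uu_abs h hξ)
  · rw [jet_D1 h]
    exact pb_bnd h2 (uu_abs h hξ)

theorem pb_jet (h : d.chkBasic = true) {p : List ℤ} {k : ℕ}
    (hk : nrm (derN k p) * d.hd ^ k ≤ SS * d.hn ^ k) {ξ : ℝ} (hξ : ξ ∈ Icc d.lo d.hi) :
    |d.jet p SS ξ k| ≤ 1 := by
  obtain ⟨-, h2, h3, -⟩ := basic h
  have hd0 : (0 : ℝ) < d.hd := by exact_mod_cast h3
  have hn0 : (0 : ℝ) < d.hn := by exact_mod_cast h2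
  have hS := pb_SS
  have e1 : (nrm (derN k p) : ℝ) * d.hd ^ k ≤ SS * d.hn ^ k := by exact_mod_cast hk
  have e2 := abs_ev_le (derN k p) (uu_abs h hξ)
  rw [jet, abs_div, abs_of_pos hS, div_le_one hS, abs_mul, abs_of_pos (by positivity :
    (0 : ℝ) < ((d.hd : ℝ) / d.hn) ^ k), div_pow, ← mul_div_assoc, div_le_iff₀ (by positivity)]
  exact (mul_le_mul_of_nonneg_right e2 (by positivity)).trans e1

theorem pb_F (h : d.chkBasic = true) {p : List ℤ} (hF : d.chkF p = true) {ξ : ℝ}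
    (hξ : ξ ∈ Icc d.lo d.hi) {k : ℕ} (hk : k ≤ 2) : |d.jet p SS ξ k| ≤ 1 := by
  simp only [chkF, Bool.and_eq_true, Nat.ble_eq] at hF
  obtain ⟨⟨f0, f1⟩, f2⟩ := hF
  refine pb_jet h ?_ hξ
  interval_cases k
  · simpa [derN] using f0
  · simpa [derN] using f1
  · exact f2

theorem pb_derN_nil (k : ℕ) : derN k [] = [] := by
  induction k with
  | zero => rfl
  | succ k ih =>
    show der (derN k []) = []
    rw [ih]
    rfl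

theorem pb_jet_nil (d : PD) (sc : ℕ) (ξ : ℝ) (k : ℕ) : d.jet [] sc ξ k = 0 := by
  simp [jet, pb_derN_nil]

theorem pb_jet_cst (d : PD) (a : ℤ) (sc : ℕ) (ξ : ℝ) :
    d.jet [a] sc ξ 0 = a / sc ∧ d.jet [a] sc ξ 1 = 0 ∧ d.jet [a] sc ξ 2 = 0 := by
  have e1 : derN 1 [a] = [] := rfl
  have e2 : derN 2 [a] = [] := rfl
  refine ⟨by simp [jet_zero], by simp [jet, e1], by simp [jet, e2]⟩

theorem pb_I1 (h : d.chkBasic = true) {r : List ℤ} (hr : d.chkI1 r = true) {ξ : ℝ}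
    (hξ : ξ ∈ Icc d.lo d.hi) (hg : 1 < d.jet d.g1 SS ξ 0) (a0 a1 : ℝ) :
    a0 ^ 2 + a1 ^ 2 ≤ d.jet d.g1 SS ξ 0 * a1 ^ 2 + d.jet (d.zp d.g0) SS ξ 0 * a0 ^ 2
      + (ξ * d.jet r SS ξ 1 + 2 * d.jet r SS ξ 0) * a0 ^ 2 + 2 * d.jet r SS ξ 0 * a0 * a1 := by
  have hS := pb_SS
  have h1 := chkPos_spec _ _ _ hr (uu_abs h hξ)
  have c1 : ((Int.neg (Int.ofNat SS) : ℤ) : ℝ) = -(SS : ℝ) := by
    show ((-((SS : ℕ) : ℤ) : ℤ) : ℝ) = _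
    simp
  have c2 : ((Int.negSucc 0 : ℤ) : ℝ) = -1 := by simp [Int.negSucc_eq]
  simp only [ev_add, ev_lmul, ev_smul, ev_cons, ev_nil, c1, c2, mul_zero, add_zero,
    Nat.cast_zero, Int.cast_ofNat] at h1
  rw [jet_D1 h]
  simp only [jet_zero] at hg ⊢
  generalize ev (d.zp d.g0) (d.uu ξ) = G0 at h1 ⊢
  generalize ev (d.D1 r) (d.uu ξ) = R1 at h1 ⊢
  generalize ev r (d.uu ξ) = R at h1 ⊢
  generalize ev d.g1 (d.uu ξ) = G1 at h1 hg ⊢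
  generalize (SS : ℝ) = S at h1 hg hS ⊢
  have hB : 0 < G1 / S - 1 := by linarith
  have hD : 0 ≤ (G0 / S + R1 / S + 2 * (R / S) - 1) * (G1 / S - 1) - (R / S) ^ 2 := by
    have e : (G0 / S + R1 / S + 2 * (R / S) - 1) * (G1 / S - 1) - (R / S) ^ 2 =
        ((G0 + R1 + (2 * R + -S)) * (G1 + -S) + -1 * (R * R)) / S ^ 2 := by
      field_simp
      ring
    rw [e]
    exact div_nonneg h1.le (sq_nonneg _)
  have key : 0 ≤ (G1 / S - 1) * ((G0 / S + R1 / S + 2 * (R / S) - 1) * a0 ^ 2 +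
      2 * (R / S) * a0 * a1 + (G1 / S - 1) * a1 ^ 2) := by
    nlinarith [mul_nonneg hD (sq_nonneg a0), sq_nonneg ((G1 / S - 1) * a1 + R / S * a0)]
  have key2 := (mul_nonneg_iff_of_pos_left hB).1 key
  linarith

theorem chkB_spec (h : d.chkBasic = true) (hb : d.chkB = true) {ξ : ℝ} (hξ : ξ ∈ Icc d.lo d.hi) :
    (1 < d.loc.g1 ξ 0 ∧ d.loc.g1 ξ 0 ≤ 10 ^ 14 ∧ |ξ * d.loc.g1 ξ 1| ≤ 10 ^ 14 ∧
      |ξ ^ 2 * d.loc.g1 ξ 2| ≤ 10 ^ 14) ∧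
    (|d.loc.g0 ξ 0| ≤ 10 ^ 14 * (ξ / (1 + ξ)) ∧ |ξ * d.loc.g0 ξ 1| ≤ 10 ^ 14 * (ξ / (1 + ξ))) ∧
    (∀ i, i ≤ 5 → |d.loc.q ξ i| ≤ 10 ^ 14 ∧ |ξ * d.loc.qd ξ i| ≤ 10 ^ 14) ∧
    (∀ i, i ≤ 2 → |d.loc.q ξ i| ≤ 10 ^ 14 * (ξ / (1 + ξ)) ∧
      |ξ * d.loc.qd ξ i| ≤ 10 ^ 14 * (ξ / (1 + ξ))) ∧
    (∀ i, i ≤ 2 → |d.loc.r i ξ 0| ≤ 10 ^ 14 ∧ |ξ * d.loc.r i ξ 1| ≤ 10 ^ 14) ∧
    (∀ i k, i ≤ 1 → k ≤ 2 → |d.loc.f i ξ k| ≤ 1) := by
  simp only [chkB, Bool.and_eq_true] at hb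
  obtain ⟨⟨⟨⟨⟨⟨⟨⟨⟨⟨⟨⟨⟨⟨⟨⟨⟨⟨⟨⟨⟨⟨⟨⟨⟨a1, a2⟩, a3⟩, a4⟩, b1⟩, b2⟩, c1⟩, c2⟩, c3⟩, c4⟩, c5⟩, c6⟩,
    d1⟩, d2⟩, d3⟩, d4⟩, d5⟩, d6⟩, r1⟩, r2⟩, r3⟩, r4⟩, r5⟩, r6⟩, f1⟩, f2⟩ := hb
  have hu := uu_abs h hξ
  have hx := xi_nonneg h hξ
  have hS := pb_SS
  have hq : ∀ i, i ≤ 2 → |d.loc.q ξ i| ≤ 10 ^ 14 * (ξ / (1 + ξ)) ∧
      |ξ * d.loc.qd ξ i| ≤ 10 ^ 14 * (ξ / (1 + ξ)) := by
    intro i hi
    interval_cases i
    · exact pb_zp h c1 c2 hξ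
    · exact pb_zp h c3 c4 hξ
    · exact pb_zp h c5 c6 hξ
  have h1 : (10 : ℝ) ^ 14 * (ξ / (1 + ξ)) ≤ 10 ^ 14 :=
    mul_le_of_le_one_right (by positivity) ((div_le_one (by linarith)).2 (by linarith))
  refine ⟨⟨?_, (le_abs_self _).trans (pb_pl h a2 a3 hξ).1, (pb_pl h a2 a3 hξ).2, ?_⟩,
    pb_zp h b1 b2 hξ, fun i hi => ?_, hq, fun i hi => ?_, fun i k hi hk => ?_⟩
  · show 1 < d.jet d.g1 SS ξ 0
    rw [jet_zero, one_lt_div hS]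
    exact chkPos_spec _ _ _ a1 hu
  · show |ξ ^ 2 * d.jet d.g1 SS ξ 2| ≤ _
    rw [jet_D2 h]
    exact pb_bnd a4 hu
  · rcases le_or_gt i 2 with k | k
    · exact ⟨(hq i k).1.trans h1, (hq i k).2.trans h1⟩
    · interval_cases i
      · exact pb_pl h d1 d2 hξ
      · exact pb_pl h d3 d4 hξ
      · exact pb_pl h d5 d6 hξ
  · interval_cases i
    · exact pb_pl h r1 r2 hξ
    · exact pb_pl h r3 r4 hξ
    · exact pb_pl h r5 r6 hξ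
  · interval_cases i
    · exact pb_F h f1 hξ hk
    · exact pb_F h f2 hξ hk

theorem chkTail_spec (h : d.chkBasic = true) (ht : d.chkTail = true) {ξ : ℝ}
    (hξ : ξ ∈ Ico d.lo d.hi) (hx : cst.xt ≤ ξ) :
    (d.loc.g1 ξ 0 = cst.ct ∧ d.loc.g1 ξ 1 = 0 ∧ d.loc.g1 ξ 2 = 0 ∧ d.loc.g0 ξ 0 = -cst.ct / 2 ∧
      d.loc.g0 ξ 1 = 0) ∧ (d.loc.r 2 ξ 0 = cst.ct ∧ d.loc.r 2 ξ 1 = 0) ∧
    ∀ i k, i ≤ 1 → d.loc.f i ξ k = 0 := by
  have hS := pb_SS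
  simp only [chkTail, Bool.or_eq_true, Bool.and_eq_true, Nat.ble_eq, decide_eq_true_eq,
    Bool.not_eq_true'] at ht
  rcases ht with ht | ⟨⟨⟨⟨⟨t0, t1⟩, t2⟩, t3⟩, t4⟩, t5⟩
  · exfalso
    have e1 := pb_hi_le h (a := 256) (b := 1) (by simpa using ht)
    have e2 : (256 : ℝ) ≤ ξ := hx
    have e3 := hξ.2
    push_cast at e1
    linarith
  · have e0 : ∀ p, d.zp p = p := fun p => by simp [zp, t0]
    have c1 : ((Int.ofNat (CT * SS) : ℤ) : ℝ) / SS = cst.ct := by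
      show (((CT * SS : ℕ) : ℤ) : ℝ) / SS = (CT : ℝ)
      push_cast
      field_simp
    have c2 : ((Int.neg (Int.ofNat (5000 * SS)) : ℤ) : ℝ) / SS = -cst.ct / 2 := by
      show ((-((5000 * SS : ℕ) : ℤ) : ℤ) : ℝ) / SS = -(CT : ℝ) / 2
      unfold CT
      push_cast
      field_simp
      norm_num
    have j1 := pb_jet_cst d (Int.ofNat (CT * SS)) SS ξ
    have j2 := pb_jet_cst d (Int.neg (Int.ofNat (5000 * SS))) SS ξ
    rw [c1] at j1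
    rw [c2] at j2
    refine ⟨?_, ?_, fun i k hi => ?_⟩
    · simp only [loc, e0, t1, t2]
      exact ⟨j1.1, j1.2.1, j1.2.2, j2.1, j2.2.1⟩
    · simp only [loc, rr, t3]
      exact ⟨j1.1, j1.2.1⟩
    · interval_cases i
      · simp only [loc, ff, t4, pb_jet_nil]
      · simp only [loc, ff, t5, pb_jet_nil]

theorem chkI_spec (h : d.chkBasic = true) (hi : d.chkI = true) {ξ : ℝ}
    (hξ : ξ ∈ Ico d.lo d.hi) (hg : 1 < d.loc.g1 ξ 0) (i : ℕ)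
    (hc : (i = 0 ∧ ξ < cst.x1) ∨ (i = 1 ∧ cst.x1 ≤ ξ ∧ ξ < cst.x2) ∨ (i = 2 ∧ cst.x2 ≤ ξ))
    (a0 a1 : ℝ) : a0 ^ 2 + a1 ^ 2 ≤ d.loc.g1 ξ 0 * a1 ^ 2 + d.loc.g0 ξ 0 * a0 ^ 2
      + (ξ * d.loc.r i ξ 1 + 2 * d.loc.r i ξ 0) * a0 ^ 2 + 2 * d.loc.r i ξ 0 * a0 * a1 := by
  have hξ' : ξ ∈ Icc d.lo d.hi := ⟨hξ.1, hξ.2.le⟩
  have l1 := hξ.1
  have l2 := hξ.2
  simp only [chkI, Bool.or_eq_true, Bool.and_eq_true, Nat.ble_eq] at hi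
  obtain ⟨⟨i0, i1⟩, i2⟩ := hi
  rcases hc with ⟨rfl, c1⟩ | ⟨rfl, c1, c2⟩ | ⟨rfl, c1⟩
  · rcases i0 with k | k
    · exfalso
      have e1 := pb_lo_ge h k
      have e2 : ξ < 37 / 8 := c1
      push_cast at e1
      linarith
    · exact pb_I1 h k hξ' hg a0 a1
  · rcases i1 with (k | k) | k
    · exfalso
      have e1 := pb_lo_ge h (a := 6) (b := 1) (by simpa using k)
      have e2 : ξ < 6 := c2
      push_cast at e1
      linarith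
    · exfalso
      have e1 := pb_hi_le h k
      have e2 : 37 / 8 ≤ ξ := c1
      push_cast at e1
      linarith
    · exact pb_I1 h k hξ' hg a0 a1
  · rcases i2 with k | k
    · exfalso
      have e1 := pb_hi_le h (a := 6) (b := 1) (by simpa using k)
      have e2 : 6 ≤ ξ := c1
      push_cast at e1
      linarith
    · exact pb_I1 h k hξ' hg a0 a1

end Vale.Agent.P264.B.PD
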