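import Vale.Agent.P264.B.Piece

/-! Basic facts on one piece: jets, scaled jets, derivative relations, measurability.
Plan: `uu` is affine with slope `hd/hn`; `hasDerivAt_ev` and the chain rule;
`ξ = (hn/hd)(nu + uu ξ)`; on `[lo,hi]` one has `|uu ξ| ≤ 1`, `0 ≤ ξ`, `1 + ξ ≤ E/hd`. -/

open Set

namespace Vale.Agent.P264.B.PD

variable {d : PD}

theorem basic (h : d.chkBasic = true) :
    1 ≤ d.nu ∧ 1 ≤ d.hn ∧ 1 ≤ d.hd ∧ (d.first = true → d.nu = 1) ∧ (d.first = false → 2 ≤ d.nu) := by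
  unfold chkBasic at h
  simp only [Bool.and_eq_true, Nat.ble_eq] at h
  obtain ⟨⟨⟨h1, h2⟩, h3⟩, h4⟩ := h
  refine ⟨h1, h2, h3, fun hf => ?_, fun hf => ?_⟩
  · rw [hf] at h4
    exact Nat.eq_of_beq_eq_true h4
  · rw [hf] at h4
    exact Nat.le_of_ble_eq_true h4

theorem jet_deriv (d : PD) (p : List ℤ) (sc : ℕ) (k : ℕ) (ξ : ℝ) :
    HasDerivAt (fun y => d.jet p sc y k) (d.jet p sc ξ (k + 1)) ξ := by
  have hu : HasDerivAt d.uu ((d.hd : ℝ) / d.hn) ξ := by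
    have h := (((hasDerivAt_id' ξ).mul_const (d.hd : ℝ)).div_const (d.hn : ℝ)).sub_const (d.nu : ℝ)
    rw [one_mul] at h
    exact h
  have h1 := ((((hasDerivAt_ev (derN k p) (d.uu ξ)).comp ξ hu).mul_const
    (((d.hd : ℝ) / d.hn) ^ k)).div_const (sc : ℝ))
  have h2 : derN (k + 1) p = der (derN k p) := rfl
  refine HasDerivAt.congr_deriv h1 ?_
  rw [jet, h2, pow_succ]
  ring

theorem pjet_pos (h : d.chkBasic = true) : (0 : ℝ) < d.hn ∧ (0 : ℝ) < d.hd := by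
  obtain ⟨-, h2, h3, -⟩ := basic h
  exact ⟨by exact_mod_cast h2, by exact_mod_cast h3⟩

theorem lo_lt_hi (h : d.chkBasic = true) : d.lo < d.hi := by
  obtain ⟨hn, hd⟩ := pjet_pos h
  unfold lo hi
  exact mul_lt_mul_of_pos_left (by linarith) (div_pos hn hd)

theorem xi_eq (h : d.chkBasic = true) (ξ : ℝ) : ξ = (d.hn : ℝ) / d.hd * (d.nu + d.uu ξ) := by
  obtain ⟨hn, hd⟩ := pjet_pos h
  unfold uu
  field_simp
  ring

theorem uu_abs (h : d.chkBasic = true) {ξ : ℝ} (hξ : ξ ∈ Icc d.lo d.hi) : |d.uu ξ| ≤ 1 := by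
  obtain ⟨hn, hd⟩ := pjet_pos h
  obtain ⟨h1, h2⟩ := hξ
  have e := xi_eq h ξ
  have hp := div_pos hn hd
  unfold lo at h1
  unfold hi at h2
  rw [abs_le]
  constructor
  · have : (d.nu : ℝ) - 1 ≤ d.nu + d.uu ξ := le_of_mul_le_mul_left (h1.trans e.le) hp
    linarith
  · have : (d.nu : ℝ) + d.uu ξ ≤ d.nu + 1 := le_of_mul_le_mul_left (e.symm.le.trans h2) hp
    linarith

theorem xi_nonneg (h : d.chkBasic = true) {ξ : ℝ} (hξ : ξ ∈ Icc d.lo d.hi) : 0 ≤ ξ := by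
  obtain ⟨hn, hd⟩ := pjet_pos h
  have h1 : (1 : ℝ) ≤ d.nu := by exact_mod_cast (basic h).1
  refine le_trans ?_ hξ.1
  exact mul_nonneg (div_pos hn hd).le (by linarith)

theorem one_add_le (h : d.chkBasic = true) {ξ : ℝ} (hξ : ξ ∈ Icc d.lo d.hi) :
    1 + ξ ≤ (d.E : ℝ) / d.hd := by
  obtain ⟨hn, hd⟩ := pjet_pos h
  have h2 := hξ.2
  have e : (d.E : ℝ) / d.hd = 1 + d.hi := by
    unfold E hi
    push_cast
    field_simp
  linarith

theorem uu_lo (h : d.chkBasic = true) : d.uu d.lo = -1 := by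
  obtain ⟨hn, hd⟩ := pjet_pos h
  unfold uu lo
  field_simp
  ring

theorem uu_hi (h : d.chkBasic = true) : d.uu d.hi = 1 := by
  obtain ⟨hn, hd⟩ := pjet_pos h
  unfold uu hi
  field_simp
  ring

theorem jet_zero (d : PD) (p : List ℤ) (sc : ℕ) (ξ : ℝ) : d.jet p sc ξ 0 = ev p (d.uu ξ) / sc := by
  have h2 : derN 0 p = p := rfl
  rw [jet, h2, pow_zero, mul_one]

theorem ev_mx (d : PD) (p : List ℤ) (u : ℝ) : ev (d.mx p) u = (d.nu + u) * ev p u := by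
  have e : ((d.nuZ : ℤ) : ℝ) = d.nu := Int.cast_natCast d.nu
  rw [mx, ev_mulX, e]

theorem pjet_xi (h : d.chkBasic = true) (ξ : ℝ) :
    ξ * ((d.hd : ℝ) / d.hn) = d.nu + d.uu ξ := by
  unfold uu
  ring

theorem jet_D1 (h : d.chkBasic = true) (p : List ℤ) (sc : ℕ) (ξ : ℝ) :
    ξ * d.jet p sc ξ 1 = ev (d.D1 p) (d.uu ξ) / sc := by
  have h2 : derN 1 p = der p := rfl
  rw [jet, h2, D1, ev_mx, ← pjet_xi h]
  ring

theorem jet_D2 (h : d.chkBasic = true) (p : List ℤ) (sc : ℕ) (ξ : ℝ) :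
    ξ ^ 2 * d.jet p sc ξ 2 = ev (d.D2 p) (d.uu ξ) / sc := by
  have h2 : derN 2 p = der (der p) := rfl
  rw [jet, h2, D2, ev_mx, ev_mx, ← pjet_xi h]
  ring

theorem ev_zp (d : PD) (p : List ℤ) (u : ℝ) : ev (d.zp p) u = ev (d.zp [1]) u * ev p u := by
  unfold zp
  cases d.first
  · simp
  · simp [ev_mx]

theorem pjet_der_mx (d : PD) (p : List ℤ) (u : ℝ) :
    ev (der (d.mx p)) u = ev p u + (d.nu + u) * ev (der p) u := by
  have e : ev (d.mx p) = fun u => (d.nu + u) * ev p u := funext fun u => ev_mx d p u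
  have h1 := hasDerivAt_ev (d.mx p) u
  rw [e] at h1
  have h2 := ((hasDerivAt_id' u).const_add (d.nu : ℝ)).mul (hasDerivAt_ev p u)
  rw [one_mul] at h2
  exact h1.unique h2

theorem jet_hD (h : d.chkBasic = true) (p : List ℤ) (sc : ℕ) (ξ : ℝ) :
    ξ * d.jet (d.zp p) sc ξ 1 = ev (d.zp [1]) (d.uu ξ) * (ev (d.hD p) (d.uu ξ) / sc) := by
  rw [jet_D1 h, D1, ev_mx]
  unfold zp hD
  cases d.first
  · simp [D1, ev_mx]
  · simp only [ev_add, D1, ev_mx, pjet_der_mx, ev_cons, ev_nil]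
    push_cast
    ring

theorem z_bounds (h : d.chkBasic = true) {ξ : ℝ} (hξ : ξ ∈ Icc d.lo d.hi) :
    0 ≤ ev (d.zp [1]) (d.uu ξ) ∧ ev (d.zp [1]) (d.uu ξ) ≤ 2 := by
  have hu := abs_le.1 (uu_abs h hξ)
  have h4 := (basic h).2.2.2.1
  unfold zp
  cases hf : d.first
  · simp
  · have h5 : (d.nu : ℝ) = 1 := by exact_mod_cast h4 hf
    simp only [ev_mx, ev_cons, ev_nil, h5]
    push_cast
    constructor <;> linarith [hu.1, hu.2]

theorem Y_eq (h : d.chkBasic = true) (ξ : ℝ) :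
    1 - ξ * d.loc.W ξ 0 = ev d.Yi (d.uu ξ) / (d.hd * PP) := by
  obtain ⟨hn, hd⟩ := pjet_pos h
  have hP : (0 : ℝ) < PP := by
    have : 0 < PP := Nat.two_pow_pos 560
    exact_mod_cast this
  have e1 : d.loc.W ξ 0 = d.jet d.w PP ξ 0 := rfl
  have e2 : ((Int.ofNat (d.hd * PP) : ℤ) : ℝ) = d.hd * PP := by
    rw [Int.ofNat_eq_natCast, Int.cast_natCast, Nat.cast_mul]
  have e3 : ((Int.neg (Int.ofNat d.hn) : ℤ) : ℝ) = -(d.hn : ℝ) := by
    have : Int.neg (Int.ofNat d.hn) = -(d.hn : ℤ) := rfl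
    rw [this, Int.cast_neg, Int.cast_natCast]
  rw [e1, jet_zero, Yi, ev_add, ev_smul, ev_mx, ev_cons, ev_nil, e2, e3, ← pjet_xi h]
  generalize (PP : ℝ) = P at hP ⊢
  field_simp
  ring

theorem U_eq (h : d.chkBasic = true) (ξ : ℝ) :
    d.loc.W ξ 0 + ξ * d.loc.W ξ 1 = ev d.Ui (d.uu ξ) / PP := by
  have e1 : d.loc.W ξ 0 = d.jet d.w PP ξ 0 := rfl
  have e2 : d.loc.W ξ 1 = d.jet d.w PP ξ 1 := rfl
  rw [e1, e2, jet_zero, jet_D1 h, Ui, ev_add, add_div]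

theorem derAll (d : PD) (ξ : ℝ) : DerAll d.loc ξ := by
  exact ⟨fun k _ => d.jet_deriv _ _ k ξ, (d.jet_deriv _ _ 3 ξ).continuousAt, d.jet_deriv _ _ 0 ξ,
    (d.jet_deriv _ _ 1 ξ).continuousAt, (d.jet_deriv _ _ 0 ξ).continuousAt,
    fun _ _ => (d.jet_deriv _ _ 0 ξ).continuousAt, fun _ _ => (d.jet_deriv _ _ 0 ξ).continuousAt,
    fun _ k _ _ => d.jet_deriv _ _ k ξ, fun _ _ => (d.jet_deriv _ _ 2 ξ).continuousAt⟩

theorem derOff (d : PD) (ξ : ℝ) : DerOff d.loc ξ := by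
  exact ⟨d.jet_deriv _ _ 3 ξ, d.jet_deriv _ _ 1 ξ, d.jet_deriv _ _ 0 ξ,
    fun _ _ => d.jet_deriv _ _ 0 ξ, fun _ _ => d.jet_deriv _ _ 0 ξ⟩

theorem pjet_meas (d : PD) (p : List ℤ) (sc k : ℕ) : Measurable fun y => d.jet p sc y k :=
  (continuous_iff_continuousAt.2 fun ξ => (d.jet_deriv p sc k ξ).continuousAt).measurable

theorem meas (d : PD) : Meas d.loc := by
  exact ⟨pjet_meas d _ _ 4, pjet_meas d _ _ 2, pjet_meas d _ _ 1, fun _ _ => pjet_meas d _ _ 1,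
    fun _ _ => pjet_meas d _ _ 1⟩

end Vale.Agent.P264.B.PD
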