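import Vale.Agent.P264.B.Poly
import Vale.Agent.P264.Cert

/-! Packed Taylor models and the check of the Lyapunov matrix inequality.

Plan. `Rep k u t x`: some list `p` has `evZ p (2^(k+1)) = t.V`, `nrm p ≤ t.n`, `len p ≤ t.l` and
`|x - ev p u| ≤ t.e`. `Rep.add`, `Rep.mul`, `Rep.sm` use `add`, `lmul`, `smul` and the lemmas of
Poly.lean (`abs_ev_le` for the error of a product). `Rep.tm`: `ev p u / c` differs from
`ev (dv c (tk M p)) u` by at most `len (tk M p) = M` (each floor division loses less than one,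
induction on the list) plus `nrm (dr M p) / c` (`ev_tk_dr`). `Rep.pos`: `ev_unp`, `chkPos_spec`.
`psd4`: eliminate `a3`, `a2`, `a1` (multiply by the positive pivot, complete the square).
`mainChk_spec`: `ent` (packed) represents `entR` (real) by the three closure lemmas; pass to the
exact values with `Rep.ex`, bound the error terms by `2|xy| ≤ x^2+y^2` (with the weight `z ≤ 2`),
apply `psd4`; `entR_eq` (by `field_simp; ring`) identifies the form with the one of `Cert.main`. -/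

namespace Vale.Agent.P264.B

structure PK where
  V : ℤ
  n : ℕ
  e : ℕ
  l : ℕ

noncomputable def PK.add (a b : PK) : PK :=
  ⟨Int.add a.V b.V, Nat.add a.n b.n, Nat.add a.e b.e, Nat.add a.l (Nat.sub b.l a.l)⟩

noncomputable def PK.mul (a b : PK) : PK :=
  ⟨Int.mul a.V b.V, Nat.mul a.n b.n,
    Nat.add (Nat.add (Nat.mul a.n b.e) (Nat.mul b.n a.e)) (Nat.mul a.e b.e), Nat.add a.l b.l⟩

noncomputable def PK.sm (c : ℤ) (a : PK) : PK :=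
  ⟨Int.mul c a.V, Nat.mul c.natAbs a.n, Nat.mul c.natAbs a.e, a.l⟩

noncomputable def PK.cst (c : ℤ) : PK := ⟨c, c.natAbs, 0, 1⟩

noncomputable def PK.ex (a : PK) : PK := ⟨a.V, a.n, 0, a.l⟩

noncomputable def PK.sub (a b : PK) : PK := a.add (b.sm (Int.negSucc 0))

noncomputable def pack (k : ℕ) (p : List ℤ) (e : ℕ) : PK :=
  ⟨evZ p (Int.ofNat (Nat.pow 2 (Nat.succ k))), nrm p, e, len p⟩

noncomputable def dv (c : ℕ) (p : List ℤ) : List ℤ :=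
  List.rec [] (fun a _ r => Int.ediv a (Int.ofNat c) :: r) p

/-- Taylor model of `ev p u / c` with `M` coefficients. -/
noncomputable def tm (k M c : ℕ) (p : List ℤ) : PK :=
  pack k (dv c (tk M p)) (Nat.add (Nat.add M (Nat.div (nrm (dr M p)) c)) 1)

noncomputable def PK.pos (k M : ℕ) (t : PK) : Bool :=
  Bool.and (Nat.ble (Nat.succ t.n) (Nat.pow 2 k)) (chkPos M (unp k t.l t.V) t.e)

def Rep (k : ℕ) (u : ℝ) (t : PK) (x : ℝ) : Prop :=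
  ∃ p : List ℤ, evZ p (2 ^ (k + 1)) = t.V ∧ nrm p ≤ t.n ∧ len p ≤ t.l ∧ |x - ev p u| ≤ t.e

variable {k : ℕ} {u : ℝ}

theorem pk_V (k : ℕ) (p : List ℤ) (e : ℕ) : evZ p (2 ^ (k + 1)) = (pack k p e).V := by
  show _ = evZ p ((2 ^ (k + 1) : ℕ) : ℤ)
  rw [Nat.cast_pow, Nat.cast_ofNat]

theorem pk_len_tk (M : ℕ) (p : List ℤ) : len (tk M p) = M := by
  induction M generalizing p with
  | zero => rfl
  | succ M ih =>
    cases p with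
    | nil => exact congrArg Nat.succ (ih [])
    | cons a p => exact congrArg Nat.succ (ih p)

theorem pk_dv (hu : |u| ≤ 1) {c : ℕ} (hc : 0 < c) (p : List ℤ) :
    |ev p u / c - ev (dv c p) u| ≤ len p := by
  have hc' : (0 : ℝ) < c := Nat.cast_pos.2 hc
  induction p with
  | nil => simp [dv]
  | cons a p ih =>
    have e : dv c (a :: p) = (a / (c : ℤ)) :: dv c p := rfl
    have h1 : ((c : ℤ) : ℝ) * ((a / (c : ℤ) : ℤ) : ℝ) + ((a % (c : ℤ) : ℤ) : ℝ) = a := by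
      exact_mod_cast Int.mul_ediv_add_emod a c
    have h2 : (0 : ℝ) ≤ ((a % (c : ℤ) : ℤ) : ℝ) := by
      exact_mod_cast Int.emod_nonneg a (by omega)
    have h3 : ((a % (c : ℤ) : ℤ) : ℝ) ≤ ((c : ℤ) : ℝ) := by
      exact_mod_cast (Int.emod_lt_of_pos a (by omega : (0 : ℤ) < c)).le
    rw [Int.cast_natCast] at h1 h3
    have h4 : (a + u * ev p u) / c - (((a / (c : ℤ) : ℤ) : ℝ) + u * ev (dv c p) u) =
        u * (ev p u / c - ev (dv c p) u) + ((a % (c : ℤ) : ℤ) : ℝ) / c := by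
      rw [← h1]
      field_simp
      ring
    rw [e, ev_cons, ev_cons, len_cons, h4, Nat.cast_add, Nat.cast_one]
    refine (abs_add_le _ _).trans (add_le_add ?_ ?_)
    · rw [abs_mul]
      exact (mul_le_of_le_one_left (abs_nonneg _) hu).trans ih
    · rw [abs_of_nonneg (div_nonneg h2 hc'.le), div_le_one hc']
      exact h3

theorem Rep.add {a b : PK} {x y : ℝ} (ha : Rep k u a x) (hb : Rep k u b y) :
    Rep k u (a.add b) (x + y) := by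
  obtain ⟨p, p1, p2, p3, p4⟩ := ha
  obtain ⟨q, q1, q2, q3, q4⟩ := hb
  refine ⟨B.add p q, ?_, (nrm_add p q).trans (Nat.add_le_add p2 q2), ?_, ?_⟩
  · rw [evZ_add, p1, q1]
    rfl
  · rw [len_add]
    show _ ≤ a.l + (b.l - a.l)
    omega
  · show _ ≤ ((a.e + b.e : ℕ) : ℝ)
    rw [ev_add, Nat.cast_add, abs_le] at *
    constructor <;> linarith [p4.1, p4.2, q4.1, q4.2]

theorem Rep.mul {a b : PK} {x y : ℝ} (hu : |u| ≤ 1) (ha : Rep k u a x) (hb : Rep k u b y) :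
    Rep k u (a.mul b) (x * y) := by
  obtain ⟨p, p1, p2, p3, p4⟩ := ha
  obtain ⟨q, q1, q2, q3, q4⟩ := hb
  refine ⟨lmul p q, ?_, (nrm_lmul p q).trans (Nat.mul_le_mul p2 q2),
    (len_lmul p q).trans (Nat.add_le_add p3 q3), ?_⟩
  · rw [evZ_lmul, p1, q1]
    rfl
  · show _ ≤ ((a.n * b.e + b.n * a.e + a.e * b.e : ℕ) : ℝ)
    have h1 : |ev p u| ≤ a.n := (abs_ev_le p hu).trans (Nat.cast_le.2 p2)
    have h2 : |ev q u| ≤ b.n := (abs_ev_le q hu).trans (Nat.cast_le.2 q2)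
    have e : x * y - ev p u * ev q u = ev p u * (y - ev q u) + ev q u * (x - ev p u) +
        (x - ev p u) * (y - ev q u) := by ring
    rw [ev_lmul, e]
    push_cast
    refine (abs_add_three _ _ _).trans ?_
    rw [abs_mul, abs_mul, abs_mul]
    gcongr

theorem Rep.sm {a : PK} {x : ℝ} (c : ℤ) (ha : Rep k u a x) : Rep k u (a.sm c) (c * x) := by
  obtain ⟨p, p1, p2, p3, p4⟩ := ha
  refine ⟨smul c p, ?_, ?_, (len_smul c p).trans_le p3, ?_⟩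
  · rw [evZ_smul, p1]
    rfl
  · rw [nrm_smul]
    exact Nat.mul_le_mul_left _ p2
  · show _ ≤ ((c.natAbs * a.e : ℕ) : ℝ)
    rw [ev_smul, ← mul_sub, abs_mul, Nat.cast_mul, Nat.cast_natAbs, Int.cast_abs]
    gcongr

theorem Rep.cst (c : ℤ) : Rep k u (PK.cst c) c := by
  exact ⟨[c], by simp [PK.cst], by simp [PK.cst], by simp [PK.cst], by simp [PK.cst]⟩

theorem Rep.sub {a b : PK} {x y : ℝ} (ha : Rep k u a x) (hb : Rep k u b y) :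
    Rep k u (a.sub b) (x - y) := by
  have := ha.add (hb.sm (Int.negSucc 0))
  rwa [show ((Int.negSucc 0 : ℤ) : ℝ) = -1 by simp, neg_one_mul, ← sub_eq_add_neg] at this

theorem Rep.ex {a : PK} {x : ℝ} (ha : Rep k u a x) : ∃ y, Rep k u a.ex y ∧ |x - y| ≤ a.e := by
  obtain ⟨p, p1, p2, p3, p4⟩ := ha
  exact ⟨ev p u, ⟨p, p1, p2, p3, by simp [PK.ex]⟩, p4⟩

theorem Rep.pack (p : List ℤ) : Rep k u (pack k p 0) (ev p u) := by
  exact ⟨p, pk_V k p 0, le_rfl, le_rfl, by simp [B.pack]⟩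

theorem Rep.tm (hu : |u| ≤ 1) (M c : ℕ) (hc : 0 < c) (p : List ℤ) :
    Rep k u (tm k M c p) (ev p u / c) := by
  refine ⟨dv c (tk M p), pk_V k _ _, le_rfl, le_rfl, ?_⟩
  show _ ≤ ((M + nrm (dr M p) / c + 1 : ℕ) : ℝ)
  have hc' : (0 : ℝ) < c := Nat.cast_pos.2 hc
  have h1 := pk_dv hu hc (tk M p)
  rw [pk_len_tk] at h1
  have h2 : |u ^ M * ev (dr M p) u / c| ≤ ((nrm (dr M p) / c : ℕ) : ℝ) + 1 := by
    rw [abs_div, abs_of_pos hc', div_le_iff₀ hc', abs_mul, abs_pow]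
    have h3 : (nrm (dr M p) : ℝ) ≤ ((c * (nrm (dr M p) / c + 1) : ℕ) : ℝ) :=
      Nat.cast_le.2 (Nat.lt_mul_div_succ _ hc).le
    rw [Nat.cast_mul, Nat.cast_add, Nat.cast_one, mul_comm] at h3
    exact (mul_le_of_le_one_left (abs_nonneg _) (pow_le_one₀ (abs_nonneg _) hu)).trans
      ((abs_ev_le _ hu).trans h3)
  rw [ev_tk_dr M p u, add_div, Nat.cast_add, Nat.cast_add, Nat.cast_one, abs_le] at *
  constructor <;> linarith [h1.1, h1.2, h2.1, h2.2]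

theorem Rep.pos {t : PK} {x : ℝ} {M : ℕ} (hu : |u| ≤ 1) (ht : Rep k u t x)
    (h : t.pos k M = true) : 0 < x := by
  obtain ⟨p, p1, p2, p3, p4⟩ := ht
  rw [PK.pos, Bool.and_eq_true, Nat.ble_eq] at h
  have h1 : nrm p < 2 ^ k := lt_of_le_of_lt p2 h.1
  have h2 := chkPos_spec M _ _ h.2 hu
  rw [← p1, ev_unp k t.l p h1 p3] at h2
  linarith [(abs_le.1 p4).1]

/-- The norm test used for the residual. -/
theorem Rep.abs_le {t : PK} {x : ℝ} (hu : |u| ≤ 1) (ht : Rep k u t x) (h : t.n < 2 ^ k) :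
    |x| ≤ (nrm (unp k t.l t.V) : ℝ) + t.e := by
  obtain ⟨p, p1, p2, p3, p4⟩ := ht
  have h2 := abs_ev_le (unp k t.l t.V) hu
  rw [show ev (unp k t.l t.V) u = ev p u by rw [← p1, ev_unp k t.l p (p2.trans_lt h) p3]] at h2
  rw [_root_.abs_le] at *
  constructor <;> linarith [h2.1, h2.2, p4.1, p4.2]

/-- The quadratic form with first row weighted by `z`. -/
def form4 (z : ℝ) (m : ℕ → ℝ) (a : ℕ → ℝ) : ℝ :=
  z * m 0 * a 0 ^ 2 + 2 * z * a 0 * (m 1 * a 1 + m 2 * a 2 + m 3 * a 3)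
    + m 4 * a 1 ^ 2 + 2 * m 5 * a 1 * a 2 + 2 * m 6 * a 1 * a 3 + m 7 * a 2 ^ 2
    + 2 * m 8 * a 2 * a 3 + m 9 * a 3 ^ 2

theorem psd4 (z : ℝ) (hz : 0 ≤ z) (m00 m01 m02 m03 m11 m12 m13 m22 m23 m33 : ℝ)
    (p00 p01 p02 p11 p12 p22 s00 s01 s11 : ℝ)
    (e1 : p00 = m33 * m00 - z * (m03 * m03)) (e2 : p01 = m33 * m01 - m03 * m13)
    (e3 : p02 = m33 * m02 - m03 * m23) (e4 : p11 = m33 * m11 - m13 * m13)
    (e5 : p12 = m33 * m12 - m13 * m23) (e6 : p22 = m33 * m22 - m23 * m23)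
    (e7 : s00 = p22 * p00 - z * (p02 * p02)) (e8 : s01 = p22 * p01 - p02 * p12)
    (e9 : s11 = p22 * p11 - p12 * p12)
    (h3 : 0 < m33) (h2 : 0 < p22) (h1 : 0 < s11) (h0 : 0 < s11 * s00 - z * (s01 * s01))
    (a0 a1 a2 a3 : ℝ) :
    0 ≤ z * m00 * a0 ^ 2 + 2 * z * a0 * (m01 * a1 + m02 * a2 + m03 * a3) + m11 * a1 ^ 2
      + 2 * m12 * a1 * a2 + 2 * m13 * a1 * a3 + m22 * a2 ^ 2 + 2 * m23 * a2 * a3
      + m33 * a3 ^ 2 := by
  have k1 : 0 ≤ z * s00 * a0 ^ 2 + 2 * z * s01 * a0 * a1 + s11 * a1 ^ 2 := by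
    refine nonneg_of_mul_nonneg_right ?_ h1
    have : s11 * (z * s00 * a0 ^ 2 + 2 * z * s01 * a0 * a1 + s11 * a1 ^ 2) =
        (s11 * a1 + z * s01 * a0) ^ 2 + z * (s11 * s00 - z * (s01 * s01)) * a0 ^ 2 := by ring
    rw [this]
    positivity
  have k2 : 0 ≤ z * p00 * a0 ^ 2 + 2 * z * a0 * (p01 * a1 + p02 * a2) + p11 * a1 ^ 2
      + 2 * p12 * a1 * a2 + p22 * a2 ^ 2 := by
    refine nonneg_of_mul_nonneg_right ?_ h2
    have : p22 * (z * p00 * a0 ^ 2 + 2 * z * a0 * (p01 * a1 + p02 * a2) + p11 * a1 ^ 2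
        + 2 * p12 * a1 * a2 + p22 * a2 ^ 2) = (p22 * a2 + z * p02 * a0 + p12 * a1) ^ 2 +
        (z * s00 * a0 ^ 2 + 2 * z * s01 * a0 * a1 + s11 * a1 ^ 2) := by
      rw [e7, e8, e9]; ring
    rw [this]
    positivity
  refine nonneg_of_mul_nonneg_right ?_ h3
  have : m33 * (z * m00 * a0 ^ 2 + 2 * z * a0 * (m01 * a1 + m02 * a2 + m03 * a3) + m11 * a1 ^ 2
      + 2 * m12 * a1 * a2 + 2 * m13 * a1 * a3 + m22 * a2 ^ 2 + 2 * m23 * a2 * a3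
      + m33 * a3 ^ 2) = (m33 * a3 + z * m03 * a0 + m13 * a1 + m23 * a2) ^ 2 +
      (z * p00 * a0 ^ 2 + 2 * z * a0 * (p01 * a1 + p02 * a2) + p11 * a1 ^ 2
        + 2 * p12 * a1 * a2 + p22 * a2 ^ 2) := by
    rw [e1, e2, e3, e4, e5, e6]; ring
  rw [this]
  positivity

/-- Inputs: `z`, `Y`, `Y1 = ξ Y'`, `Z = ξ^2 Y1 / z`, the weights (`g0 = z * h0`, `g0d = z * h0d`,
`X1 = ξ^2 g1d`, `X0 = ξ^2 h0d`) and the fluxes (`q i = z * q i`-hat for `i ≤ 2`, `d i = ξ q_i'`). -/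
structure Inp (α : Type) where
  z : α
  Y : α
  Y1 : α
  Z : α
  g1 : α
  g1d : α
  g1dd : α
  h0 : α
  h0d : α
  X1 : α
  X0 : α
  q0 : α
  q1 : α
  q2 : α
  q3 : α
  q4 : α
  q5 : α
  d0 : α
  d1 : α
  d2 : α
  d3 : α
  d4 : α
  d5 : α

structure Ent (α : Type) where
  n00 : α
  n01 : α
  n02 : α
  n03 : α
  n11 : α
  n12 : α
  n13 : α
  n22 : α
  n23 : α
  n33 : α

/-- The entries, generic in the arithmetic. `Y, Y1, Z` carry the scale `Q`, the others the scale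
`S`; `QQ = Q^2`, `one = 2 Q^3 S`. The result is `2 Q^3 S` times the matrix. -/
noncomputable def entG {α : Type} (ad mu : α → α → α) (sm : ℤ → α → α) (cs : ℤ → α)
    (QQ one : ℤ) (i : Inp α) : Ent α :=
  (fun YY g0 u1 =>
    (fun Y3 YW u2 =>
      (fun V0 V1 V2 V3 =>
        (fun fin : α → α → α =>
          { n00 := ad (fin (cs 0) (ad (sm 4 (mu i.Z g0)) (mu i.Y (ad i.X0 (sm 2 i.d0))))) (cs (-one))
            n01 := fin (sm 144 V0)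
              (sm 2 (ad (sm (-1) (mu i.Z u1)) (mu i.Y (ad i.d1 (ad i.q0 i.q1)))))
            n02 := fin (sm 36 V0)
              (sm 2 (ad (sm (-1) (mu i.Z i.g1)) (mu i.Y (ad i.d2 (ad i.q1 (sm 2 i.q2))))))
            n03 := fin (sm 2 V0) (sm 2 (mu i.Y i.q2))
            n11 := ad (fin (sm 288 V1)
              (mu i.Y (ad i.X1 (ad (sm 2 i.d3) (ad (sm 4 (mu i.z i.q1)) (sm 4 i.q3)))))) (cs (-one))
            n12 := fin (ad (sm 36 V1) (sm 144 V2))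
              (sm 2 (mu i.Y (ad i.d4 (ad (mu i.z i.q2) (ad i.q3 (sm 3 i.q4))))))
            n13 := fin (ad (sm 2 V1) (sm 144 V3)) (sm 2 (mu i.Y i.q4))
            n22 := ad (fin (sm 72 V2) (mu i.Y (ad (sm 2 i.d5) (ad (sm 4 i.q4) (sm 8 i.q5)))))
              (cs (-one))
            n23 := fin (ad (sm 2 V2) (sm 36 V3)) (sm 2 (mu i.Y i.q5))
            n33 := ad (sm (-4) V3) (cs (-one)) })
        (fun a b => sm (-1) (ad a (sm QQ b))))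
      (ad (mu Y3 (ad i.h0 i.h0d)) (mu YW i.h0))
      (ad (mu Y3 (ad g0 (sm (-1) u2))) (sm (-1) (mu YW u1)))
      (ad (sm (-2) (mu Y3 u1)) (sm (-1) (mu YW i.g1)))
      (sm (-1) (mu Y3 i.g1)))
    (mu YY i.Y) (sm 2 (mu YY i.Y1)) (ad (sm 6 i.g1) (ad (sm 6 i.g1d) i.g1dd)))
  (mu i.Y i.Y) (mu i.z i.h0) (ad (sm 3 i.g1) i.g1d)

noncomputable def elim (k M : ℕ) (z m00 m01 m02 m03 m11 m12 m13 m22 m23 m33 : PK) : Bool :=
  (fun p00 p01 p02 p11 p12 p22 : PK =>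
    (fun s00 s01 s11 : PK =>
      Bool.and (Bool.and (m33.pos k M) (p22.pos k M))
        (Bool.and (s11.pos k M) (((s11.mul s00).sub (z.mul (s01.mul s01))).pos k M)))
    ((p22.mul p00).sub (z.mul (p02.mul p02))) ((p22.mul p01).sub (p02.mul p12))
    ((p22.mul p11).sub (p12.mul p12)))
  ((m33.mul m00).sub (z.mul (m03.mul m03))) ((m33.mul m01).sub (m03.mul m13))
  ((m33.mul m02).sub (m03.mul m23)) ((m33.mul m11).sub (m13.mul m13))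
  ((m33.mul m12).sub (m13.mul m23)) ((m33.mul m22).sub (m23.mul m23))

noncomputable def dn (a : PK) (e : ℕ) : PK := a.ex.add (PK.cst (Int.neg (Int.ofNat e)))

noncomputable def mainChk (k M Q S : ℕ) (i : Inp PK) : Bool :=
  (fun n : Ent PK =>
    Bool.and (Nat.beq i.z.e 0) (elim k M i.z
      (dn n.n00 (Nat.add (Nat.add n.n00.e n.n01.e) (Nat.add n.n02.e n.n03.e)))
      n.n01.ex n.n02.ex n.n03.ex
      (dn n.n11 (Nat.add (Nat.add n.n11.e (Nat.mul 2 n.n01.e)) (Nat.add n.n12.e n.n13.e)))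
      n.n12.ex n.n13.ex
      (dn n.n22 (Nat.add (Nat.add n.n22.e (Nat.mul 2 n.n02.e)) (Nat.add n.n12.e n.n23.e)))
      n.n23.ex
      (dn n.n33 (Nat.add (Nat.add n.n33.e (Nat.mul 2 n.n03.e)) (Nat.add n.n13.e n.n23.e)))))
  (entG PK.add PK.mul PK.sm PK.cst (Int.ofNat (Nat.mul Q Q))
    (Int.ofNat (Nat.mul 2 (Nat.mul (Nat.mul Q (Nat.mul Q Q)) S))) i)

structure RepI (k : ℕ) (u : ℝ) (Q S : ℝ) (i : Inp PK) (x : Inp ℝ) : Prop where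
  z : Rep k u i.z x.z
  Y : Rep k u i.Y (Q * x.Y)
  Y1 : Rep k u i.Y1 (Q * x.Y1)
  Z : Rep k u i.Z (Q * x.Z)
  g1 : Rep k u i.g1 (S * x.g1)
  g1d : Rep k u i.g1d (S * x.g1d)
  g1dd : Rep k u i.g1dd (S * x.g1dd)
  h0 : Rep k u i.h0 (S * x.h0)
  h0d : Rep k u i.h0d (S * x.h0d)
  X1 : Rep k u i.X1 (S * x.X1)
  X0 : Rep k u i.X0 (S * x.X0)
  q0 : Rep k u i.q0 (S * x.q0)
  q1 : Rep k u i.q1 (S * x.q1)
  q2 : Rep k u i.q2 (S * x.q2)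
  q3 : Rep k u i.q3 (S * x.q3)
  q4 : Rep k u i.q4 (S * x.q4)
  q5 : Rep k u i.q5 (S * x.q5)
  d0 : Rep k u i.d0 (S * x.d0)
  d1 : Rep k u i.d1 (S * x.d1)
  d2 : Rep k u i.d2 (S * x.d2)
  d3 : Rep k u i.d3 (S * x.d3)
  d4 : Rep k u i.d4 (S * x.d4)
  d5 : Rep k u i.d5 (S * x.d5)

/-- The unscaled identity (`Q = S = 1`). -/
theorem entG_id (x : Inp ℝ) (ξ : ℝ) (a q qd : ℕ → ℝ) (hY : x.Y ≠ 0) (hZ : ξ ^ 2 * x.Y1 = x.z * x.Z) (hX1 : x.X1 = ξ ^ 2 * x.g1d)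
    (hX0 : x.X0 = ξ ^ 2 * x.h0d)
    (hq0 : q 0 = x.z * x.q0) (hq1 : q 1 = x.z * x.q1) (hq2 : q 2 = x.z * x.q2)
    (hq3 : q 3 = x.q3) (hq4 : q 4 = x.q4) (hq5 : q 5 = x.q5)
    (hd0 : ξ * qd 0 = x.z * x.d0) (hd1 : ξ * qd 1 = x.z * x.d1) (hd2 : ξ * qd 2 = x.z * x.d2)
    (hd3 : ξ * qd 3 = x.d3) (hd4 : ξ * qd 4 = x.d4) (hd5 : ξ * qd 5 = x.d5) :
    let n := entG (α := ℝ) (· + ·) (· * ·) (fun c x => (c:ℝ) * x) (fun c => (c:ℝ)) 1 2 x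
    x.z * n.n00 * a 0 ^ 2 + 2 * x.z * a 0 * (n.n01 * a 1 + n.n02 * a 2 + n.n03 * a 3) + n.n11 * a 1 ^ 2
      + 2 * n.n12 * a 1 * a 2 + 2 * n.n13 * a 1 * a 3 + n.n22 * a 2 ^ 2 + 2 * n.n23 * a 2 * a 3
      + n.n33 * a 3 ^ 2 = -2 * x.Y * (prod2 ξ x.Y x.Y1 x.g1 x.g1d x.g1dd (x.z * x.h0) (x.z * x.h0d) a + ξ * flux qd a + fluxD q a) - 2 * (x.z * a 0 ^ 2 + a 1 ^ 2 + a 2 ^ 2 + a 3 ^ 2) := by
  have e1 : ξ * flux qd a = x.z * x.d0 * a 0 ^ 2 + 2 * (x.z * x.d1) * a 0 * a 1 + 2 * (x.z * x.d2) * a 0 * a 2 + x.d3 * a 1 ^ 2 + 2 * x.d4 * a 1 * a 2 + x.d5 * a 2 ^ 2 := by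
    rw [← hd0, ← hd1, ← hd2, ← hd3, ← hd4, ← hd5]; unfold flux; ring
  have e2 : x.Y * (2 * ξ ^ 2 * (x.Y1 / x.Y)) = 2 * (x.z * x.Z) := by rw [← hZ]; field_simp
  simp only [entG, e1, prod2, fluxD, Ader, Ahat, sig1, hq0, hq1, hq2, hq3, hq4, hq5, hX1, hX0]
  push_cast
  linear_combination (2 * (-x.g1 * a 2 - (3 * x.g1 + x.g1d) * a 1 + x.z * x.h0 * a 0) * a 0) * e2

theorem pk_dn {a : PK} {y : ℝ} (h : Rep k u a.ex y) (e : ℕ) : Rep k u (dn a e) (y - e) := by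
  have := h.add (Rep.cst (Int.neg (Int.ofNat e)))
  rwa [show ((Int.neg (Int.ofNat e) : ℤ) : ℝ) = -(e : ℝ) from
    (Int.cast_neg (e : ℤ)).trans (by rw [Int.cast_natCast]), ← sub_eq_add_neg] at this

theorem pk_elim {M : ℕ} (hu : |u| ≤ 1) {z m00 m01 m02 m03 m11 m12 m13 m22 m23 m33 : PK}
    {x y00 y01 y02 y03 y11 y12 y13 y22 y23 y33 : ℝ} (hx : 0 ≤ x) (hz : Rep k u z x)
    (h00 : Rep k u m00 y00) (h01 : Rep k u m01 y01) (h02 : Rep k u m02 y02)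
    (h03 : Rep k u m03 y03) (h11 : Rep k u m11 y11) (h12 : Rep k u m12 y12)
    (h13 : Rep k u m13 y13) (h22 : Rep k u m22 y22) (h23 : Rep k u m23 y23)
    (h33 : Rep k u m33 y33) (h : elim k M z m00 m01 m02 m03 m11 m12 m13 m22 m23 m33 = true)
    (a0 a1 a2 a3 : ℝ) :
    0 ≤ x * y00 * a0 ^ 2 + 2 * x * a0 * (y01 * a1 + y02 * a2 + y03 * a3) + y11 * a1 ^ 2
      + 2 * y12 * a1 * a2 + 2 * y13 * a1 * a3 + y22 * a2 ^ 2 + 2 * y23 * a2 * a3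
      + y33 * a3 ^ 2 := by
  have p00 := (h33.mul hu h00).sub (hz.mul hu (h03.mul hu h03))
  have p01 := (h33.mul hu h01).sub (h03.mul hu h13)
  have p02 := (h33.mul hu h02).sub (h03.mul hu h23)
  have p11 := (h33.mul hu h11).sub (h13.mul hu h13)
  have p12 := (h33.mul hu h12).sub (h13.mul hu h23)
  have p22 := (h33.mul hu h22).sub (h23.mul hu h23)
  have s00 := (p22.mul hu p00).sub (hz.mul hu (p02.mul hu p02))
  have s01 := (p22.mul hu p01).sub (p02.mul hu p12)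
  have s11 := (p22.mul hu p11).sub (p12.mul hu p12)
  simp only [elim, Bool.and_eq_true] at h
  exact psd4 x hx _ _ _ _ _ _ _ _ _ _ _ _ _ _ _ _ _ _ _ rfl rfl rfl rfl rfl rfl rfl rfl rfl
    (h33.pos hu h.1.1) (p22.pos hu h.1.2) (s11.pos hu h.2.1)
    (((s11.mul hu s00).sub (hz.mul hu (s01.mul hu s01))).pos hu h.2.2) a0 a1 a2 a3

theorem pk_err1 {x y e : ℝ} (h : |x - y| ≤ e) (a : ℝ) : y * a ^ 2 - e * a ^ 2 ≤ x * a ^ 2 := by
  nlinarith [mul_nonneg (sub_nonneg.2 (abs_le.1 h).1) (sq_nonneg a)]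

theorem pk_err2 {x y e : ℝ} (h : |x - y| ≤ e) (a b : ℝ) :
    2 * y * a * b - e * a ^ 2 - e * b ^ 2 ≤ 2 * x * a * b := by
  nlinarith [mul_nonneg (sub_nonneg.2 (abs_le.1 h).1) (sq_nonneg (a + b)),
    mul_nonneg (sub_nonneg.2 (abs_le.1 h).2) (sq_nonneg (a - b))]

theorem pk_err3 {z x y e : ℝ} (hz : 0 ≤ z) (hz2 : z ≤ 2) (h : |x - y| ≤ e) (a b : ℝ) :
    2 * z * y * a * b - z * e * a ^ 2 - 2 * e * b ^ 2 ≤ 2 * z * x * a * b := by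
  nlinarith [mul_le_mul_of_nonneg_left (pk_err2 h a b) hz,
    mul_nonneg (sub_nonneg.2 hz2) (mul_nonneg ((abs_nonneg _).trans h) (sq_nonneg b))]

/-- Entrywise representation, with a common factor. -/
def RepE (k : ℕ) (u c : ℝ) (n : Ent PK) (N : Ent ℝ) : Prop :=
  Rep k u n.n00 (c * N.n00) ∧ Rep k u n.n01 (c * N.n01) ∧ Rep k u n.n02 (c * N.n02) ∧
    Rep k u n.n03 (c * N.n03) ∧ Rep k u n.n11 (c * N.n11) ∧ Rep k u n.n12 (c * N.n12) ∧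
    Rep k u n.n13 (c * N.n13) ∧ Rep k u n.n22 (c * N.n22) ∧ Rep k u n.n23 (c * N.n23) ∧
    Rep k u n.n33 (c * N.n33)

theorem Rep.of_eq {a : PK} {x y : ℝ} (h : Rep k u a x) (e : x = y) : Rep k u a y := e ▸ h

theorem pk_ent {Q S : ℕ} (hu : |u| ≤ 1) {i : Inp PK} {x : Inp ℝ} (hi : RepI k u Q S i x) :
    RepE k u ((Q : ℝ) ^ 3 * S) (entG PK.add PK.mul PK.sm PK.cst (Int.ofNat (Nat.mul Q Q))
      (Int.ofNat (Nat.mul 2 (Nat.mul (Nat.mul Q (Nat.mul Q Q)) S))) i)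
      (entG (α := ℝ) (· + ·) (· * ·) (fun c x => (c:ℝ) * x) (fun c => (c:ℝ)) 1 2 x) := by
  obtain ⟨h1, h2, h3, h4, h5, h6, h7, h8, h9, h10, h11, h12, h13, h14, h15, h16, h17, h18, h19,
    h20, h21, h22, h23⟩ := hi
  simp only [RepE, entG]
  refine ⟨?_, ?_, ?_, ?_, ?_, ?_, ?_, ?_, ?_, ?_⟩ <;>
  · apply Rep.of_eq
    · repeat' first
        | assumption
        | apply Rep.add
        | apply Rep.mul hu
        | apply Rep.sm
        | apply Rep.cst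
    · simp only [Int.ofNat_eq_natCast, Nat.mul_eq]
      push_cast
      ring

theorem mainChk_spec {M Q S : ℕ} (hQ : 0 < Q) (hS : 0 < S) (hu : |u| ≤ 1) {i : Inp PK}
    {x : Inp ℝ} (hi : RepI k u Q S i x) (h : mainChk k M Q S i = true)
    {ξ vp : ℝ} {q qd : ℕ → ℝ} (hz0 : 0 ≤ x.z) (hz2 : x.z ≤ 2) (hY0 : 0 < x.Y) (hY1 : x.Y ≤ 1)
    (hvp : vp ≤ x.z) (hZ : ξ ^ 2 * x.Y1 = x.z * x.Z) (hX1 : x.X1 = ξ ^ 2 * x.g1d)
    (hX0 : x.X0 = ξ ^ 2 * x.h0d)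
    (hq0 : q 0 = x.z * x.q0) (hq1 : q 1 = x.z * x.q1) (hq2 : q 2 = x.z * x.q2)
    (hq3 : q 3 = x.q3) (hq4 : q 4 = x.q4) (hq5 : q 5 = x.q5)
    (hd0 : ξ * qd 0 = x.z * x.d0) (hd1 : ξ * qd 1 = x.z * x.d1) (hd2 : ξ * qd 2 = x.z * x.d2)
    (hd3 : ξ * qd 3 = x.d3) (hd4 : ξ * qd 4 = x.d4) (hd5 : ξ * qd 5 = x.d5) (a : ℕ → ℝ) :
    prod2 ξ x.Y x.Y1 x.g1 x.g1d x.g1dd (x.z * x.h0) (x.z * x.h0d) a + ξ * flux qd a + fluxD q a
      ≤ -(vp * a 0 ^ 2 + a 1 ^ 2 + a 2 ^ 2 + a 3 ^ 2) := by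
  have hr := pk_ent hu hi
  rw [mainChk, Bool.and_eq_true] at h
  generalize entG PK.add PK.mul PK.sm PK.cst (Int.ofNat (Nat.mul Q Q))
    (Int.ofNat (Nat.mul 2 (Nat.mul (Nat.mul Q (Nat.mul Q Q)) S))) i = n at hr h
  have hid := entG_id x ξ a q qd hY0.ne' hZ hX1 hX0 hq0 hq1 hq2 hq3 hq4 hq5 hd0 hd1 hd2 hd3 hd4 hd5
  simp only at hid
  generalize entG (α := ℝ) (· + ·) (· * ·) (fun c x => (c:ℝ) * x) (fun c => (c:ℝ)) 1 2 x = N
    at hr hid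
  obtain ⟨r00, r01, r02, r03, r11, r12, r13, r22, r23, r33⟩ := hr
  obtain ⟨y00, s00, t00⟩ := r00.ex
  obtain ⟨y01, s01, t01⟩ := r01.ex
  obtain ⟨y02, s02, t02⟩ := r02.ex
  obtain ⟨y03, s03, t03⟩ := r03.ex
  obtain ⟨y11, s11, t11⟩ := r11.ex
  obtain ⟨y12, s12, t12⟩ := r12.ex
  obtain ⟨y13, s13, t13⟩ := r13.ex
  obtain ⟨y22, s22, t22⟩ := r22.ex
  obtain ⟨y23, s23, t23⟩ := r23.ex
  obtain ⟨y33, s33, t33⟩ := r33.ex
  have h1 := pk_elim hu hz0 hi.z (pk_dn s00 _) s01 s02 s03 (pk_dn s11 _) s12 s13 (pk_dn s22 _) s23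
    (pk_dn s33 _) h.2 (a 0) (a 1) (a 2) (a 3)
  simp only [Nat.add_eq, Nat.mul_eq] at h1
  push_cast at h1
  have u00 := mul_le_mul_of_nonneg_left (pk_err1 t00 (a 0)) hz0
  have u01 := pk_err3 hz0 hz2 t01 (a 0) (a 1)
  have u02 := pk_err3 hz0 hz2 t02 (a 0) (a 2)
  have u03 := pk_err3 hz0 hz2 t03 (a 0) (a 3)
  have u11 := pk_err1 t11 (a 1)
  have u12 := pk_err2 t12 (a 1) (a 2)
  have u13 := pk_err2 t13 (a 1) (a 3)
  have u22 := pk_err1 t22 (a 2)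
  have u23 := pk_err2 t23 (a 2) (a 3)
  have u33 := pk_err1 t33 (a 3)
  have hc : (0 : ℝ) < (Q : ℝ) ^ 3 * S := by positivity
  have h2 : 0 ≤ (Q : ℝ) ^ 3 * S * (x.z * N.n00 * a 0 ^ 2 +
      2 * x.z * a 0 * (N.n01 * a 1 + N.n02 * a 2 + N.n03 * a 3) + N.n11 * a 1 ^ 2
      + 2 * N.n12 * a 1 * a 2 + 2 * N.n13 * a 1 * a 3 + N.n22 * a 2 ^ 2 + 2 * N.n23 * a 2 * a 3
      + N.n33 * a 3 ^ 2) := by
    linear_combination h1 + u00 + u01 + u02 + u03 + u11 + u12 + u13 + u22 + u23 + u33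
  have h3 := nonneg_of_mul_nonneg_right h2 hc
  rw [hid] at h3
  generalize prod2 ξ x.Y x.Y1 x.g1 x.g1d x.g1dd (x.z * x.h0) (x.z * x.h0d) a + ξ * flux qd a +
    fluxD q a = P at h3 ⊢
  have h4 : vp * a 0 ^ 2 ≤ x.z * a 0 ^ 2 := mul_le_mul_of_nonneg_right hvp (sq_nonneg _)
  have h5 : 0 ≤ x.z * a 0 ^ 2 + a 1 ^ 2 + a 2 ^ 2 + a 3 ^ 2 := by positivity
  have h6 : P ≤ -(x.z * a 0 ^ 2 + a 1 ^ 2 + a 2 ^ 2 + a 3 ^ 2) := by
    refine le_of_mul_le_mul_left ?_ hY0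
    linear_combination (1 / 2 : ℝ) * h3 + mul_le_mul_of_nonneg_right hY1 h5
  linear_combination h6 + h4

end Vale.Agent.P264.B
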