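import Vale.Agent.P264.B.PW
import Vale.Agent.P264.B.PB

/-! Soundness of `chkMain`, of the whole piece check and of the matching checks.
Plan: apply `mainChk_spec` with `u = uu ξ`, `x.z = ev (zp [1]) u`, `x.Y = 1 - ξ W0`,
`x.Y1 = -ξ (W0 + ξ W1) = ev Y1i u / (hd PP)`, `x.Z = ev (x2z Y1i) u / (hd^3 PP)`,
`x.h0 = ev g0 u / SS`, `x.h0d = ev (hD g0) u / SS`, etc. (`PP = PQ * QQ`; `Rep.tm`, `Rep.pack`).
`vp = ξ/(1+ξ) ≤ z`: if `first`, `ξ = h z` and `h z / (1 + h z) ≤ z` needs `h ≤ 1`, a hypothesis.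
Matching: `uu_hi`, `uu_lo`, `evZ_cast`, clear denominators. -/

open Set

namespace Vale.Agent.P264.B

theorem pm_nat (n : ℕ) : ((Int.ofNat n : ℤ) : ℝ) = n := Int.cast_natCast n

theorem pm_neg (n : ℕ) : ((Int.neg (Int.ofNat n) : ℤ) : ℝ) = -n := by
  change ((-(n : ℤ) : ℤ) : ℝ) = _
  push_cast
  rfl

theorem pm_rep {k : ℕ} {u x y : ℝ} {t : PK} (h : Rep k u t x) (e : x = y) : Rep k u t y := e ▸ h

theorem pm_SS : (0 : ℝ) < SS := by unfold SS; positivity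
theorem pm_QQ : (0 : ℝ) < QQ := by unfold QQ; positivity
theorem pm_PQ : (0 : ℝ) < PQ := by unfold PQ; positivity

theorem pm_PP : (PP : ℝ) = PQ * QQ := by
  have : PP = PQ * QQ := by unfold PP PQ QQ; rw [← pow_add]
  rw [this, Nat.cast_mul]

theorem pm_pack {k : ℕ} {u : ℝ} (p : List ℤ) : Rep k u (pack k p 0) (SS * (ev p u / SS)) :=
  pm_rep (Rep.pack p) (by have := pm_SS; field_simp)

theorem pm_true {d : PD} (hf : d.first = true) (p : List ℤ) (u : ℝ) :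
    ev (d.zp [1]) u = d.nu + u ∧ ev (d.x2z p) u = d.hn * d.hn * ((d.nu + u) * ev p u) := by
  unfold PD.zp PD.x2z
  rw [hf]
  refine ⟨?_, ?_⟩
  · change ev (d.mx [1]) u = _
    rw [PD.ev_mx]
    simp
  · change ev (smul _ (d.mx p)) u = _
    rw [ev_smul, PD.ev_mx, pm_nat, Nat.cast_mul]

theorem pm_false {d : PD} (hf : d.first = false) (p : List ℤ) (u : ℝ) :
    ev (d.zp [1]) u = 1 ∧
      ev (d.x2z p) u = d.hn * d.hn * ((d.nu + u) * ((d.nu + u) * ev p u)) := by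
  unfold PD.zp PD.x2z
  rw [hf]
  refine ⟨?_, ?_⟩
  · change ev [1] u = _
    simp
  · change ev (smul _ (d.mx (d.mx p))) u = _
    rw [ev_smul, PD.ev_mx, PD.ev_mx, pm_nat, Nat.cast_mul]

theorem PD.chkMain_spec {d : PD} (h : d.chkBasic = true) (h1 : d.first = true → d.hn ≤ d.hd)
    {k M N : ℕ} (hm : d.chkMain k M N = true) {ξ : ℝ} (hξ : ξ ∈ Icc d.lo d.hi)
    (hY0 : 0 < 1 - ξ * d.loc.W ξ 0) (hY1 : 1 - ξ * d.loc.W ξ 0 ≤ 1) (a : ℕ → ℝ) :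
    prod2 ξ (1 - ξ * d.loc.W ξ 0) (-ξ * (d.loc.W ξ 0 + ξ * d.loc.W ξ 1)) (d.loc.g1 ξ 0)
        (ξ * d.loc.g1 ξ 1) (ξ ^ 2 * d.loc.g1 ξ 2) (d.loc.g0 ξ 0) (ξ * d.loc.g0 ξ 1) a
        + ξ * flux (d.loc.qd ξ) a + fluxD (d.loc.q ξ) a
      ≤ -(ξ / (1 + ξ) * a 0 ^ 2 + a 1 ^ 2 + a 2 ^ 2 + a 3 ^ 2) := by
  obtain ⟨-, hn1, hd1, -, -⟩ := PD.basic h
  have hn : (0 : ℝ) < d.hn := by exact_mod_cast hn1
  have hd : (0 : ℝ) < d.hd := by exact_mod_cast hd1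
  have hS := pm_SS
  have hQ := pm_QQ
  have hP := pm_PQ
  have hu := PD.uu_abs h hξ
  have hx := PD.xi_eq h ξ
  have hx0 := PD.xi_nonneg h hξ
  have hz := PD.z_bounds h hξ
  have hY := PD.Y_eq h ξ
  have hU := PD.U_eq h ξ
  have hD1 := fun p => PD.jet_D1 h p SS ξ
  have hD2 := fun p => PD.jet_D2 h p SS ξ
  have hhD := fun p => PD.jet_hD h p SS ξ
  have hj := fun p => d.jet_zero p SS ξ
  have hzj : ∀ p, d.jet (d.zp p) SS ξ 0 =
      ev (d.zp [1]) (d.uu ξ) * (ev p (d.uu ξ) / SS) := fun p => by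
    rw [hj, d.ev_zp p, mul_div_assoc]
  have hY1i : -ξ * (d.loc.W ξ 0 + ξ * d.loc.W ξ 1) = ev d.Y1i (d.uu ξ) / (d.hd * PP) := by
    rw [hU, PD.Y1i, ev_smul, PD.ev_mx, pm_neg, pm_PP]
    generalize d.uu ξ = u at hx ⊢
    rw [hx]
    field_simp
  have hx2 : ∀ p, ev (d.x2 p) (d.uu ξ) / ((d.hd ^ 2 : ℕ) : ℝ) =
      SS * (ξ ^ 2 * (ev p (d.uu ξ) / SS)) := fun p => by
    rw [PD.x2, ev_smul, PD.ev_mx, PD.ev_mx, pm_nat]
    generalize d.uu ξ = u at hx ⊢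
    rw [hx]
    push_cast
    field_simp
  have hc1 : 0 < d.hd * PQ := by exact_mod_cast mul_pos hd hP
  have hc2 : 0 < d.hd ^ 2 := pow_pos hd1 2
  have hc3 : 0 < d.hd ^ 3 * PQ := by exact_mod_cast mul_pos (pow_pos hd 3) hP
  let e : List ℤ → ℝ := fun p => ev p (d.uu ξ) / SS
  let x : Inp ℝ :=
    { z := ev (d.zp [1]) (d.uu ξ), Y := 1 - ξ * d.loc.W ξ 0
      Y1 := -ξ * (d.loc.W ξ 0 + ξ * d.loc.W ξ 1)
      Z := ev (d.x2z d.Y1i) (d.uu ξ) / (d.hd ^ 3 * PP)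
      g1 := e d.g1, g1d := e (d.D1 d.g1), g1dd := e (d.D2 d.g1), h0 := e d.g0
      h0d := e (d.hD d.g0), X1 := ξ ^ 2 * e (d.D1 d.g1), X0 := ξ ^ 2 * e (d.hD d.g0)
      q0 := e d.q0, q1 := e d.q1, q2 := e d.q2, q3 := e d.q3, q4 := e d.q4, q5 := e d.q5
      d0 := e (d.hD d.q0), d1 := e (d.hD d.q1), d2 := e (d.hD d.q2), d3 := e (d.D1 d.q3)
      d4 := e (d.D1 d.q4), d5 := e (d.D1 d.q5) }
  have hi : RepI k (d.uu ξ) QQ SS (d.inp k M) x :=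
    { z := Rep.pack _
      Y := pm_rep (Rep.tm hu M _ hc1 d.Yi) (by
        change _ = QQ * (1 - ξ * d.loc.W ξ 0)
        rw [hY, pm_PP]; push_cast; field_simp)
      Y1 := pm_rep (Rep.tm hu M _ hc1 d.Y1i) (by
        change _ = QQ * (-ξ * (d.loc.W ξ 0 + ξ * d.loc.W ξ 1))
        rw [hY1i, pm_PP]; push_cast; field_simp)
      Z := pm_rep (Rep.tm hu M _ hc3 (d.x2z d.Y1i)) (by
        change _ = QQ * (ev (d.x2z d.Y1i) (d.uu ξ) / (d.hd ^ 3 * PP))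
        rw [pm_PP]; push_cast; field_simp)
      g1 := pm_pack _, g1d := pm_pack _, g1dd := pm_pack _, h0 := pm_pack _, h0d := pm_pack _
      X1 := pm_rep (Rep.tm hu 8 _ hc2 _) (hx2 _)
      X0 := pm_rep (Rep.tm hu 8 _ hc2 _) (hx2 _)
      q0 := pm_pack _, q1 := pm_pack _, q2 := pm_pack _, q3 := pm_pack _, q4 := pm_pack _
      q5 := pm_pack _, d0 := pm_pack _, d1 := pm_pack _, d2 := pm_pack _, d3 := pm_pack _
      d4 := pm_pack _, d5 := pm_pack _ }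
  have hvZ : ξ / (1 + ξ) ≤ ev (d.zp [1]) (d.uu ξ) ∧ ξ ^ 2 * (ev d.Y1i (d.uu ξ) / (d.hd * PP)) =
      ev (d.zp [1]) (d.uu ξ) * (ev (d.x2z d.Y1i) (d.uu ξ) / (d.hd ^ 3 * PP)) := by
    have hPP : (0 : ℝ) < PP := by rw [pm_PP]; exact mul_pos hP hQ
    cases hf : d.first
    · obtain ⟨e1, e2⟩ := pm_false hf d.Y1i (d.uu ξ)
      rw [e1, e2]
      refine ⟨(div_le_one (by linarith)).mpr (by linarith), ?_⟩
      generalize d.uu ξ = u at hx ⊢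
      rw [hx]
      field_simp
    · obtain ⟨e1, e2⟩ := pm_true hf d.Y1i (d.uu ξ)
      rw [e1] at hz
      rw [e1, e2]
      refine ⟨?_, ?_⟩
      · have a1 : ξ / (1 + ξ) ≤ ξ := div_le_self hx0 (by linarith)
        have a2 : (d.hn : ℝ) / d.hd ≤ 1 := (div_le_one hd).mpr (by exact_mod_cast h1 hf)
        have a3 := mul_le_mul_of_nonneg_right a2 hz.1
        linarith
      · generalize d.uu ξ = u at hx ⊢
        rw [hx]
        field_simp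
  have key := mainChk_spec (x := x) (ξ := ξ) (vp := ξ / (1 + ξ)) (q := d.loc.q ξ)
    (qd := d.loc.qd ξ) (by exact_mod_cast hQ) (by exact_mod_cast hS) hu hi hm hz.1 hz.2 hY0 hY1
    hvZ.1 (by
      change ξ ^ 2 * (-ξ * (d.loc.W ξ 0 + ξ * d.loc.W ξ 1)) = _
      rw [hY1i]; exact hvZ.2) rfl rfl
    (hzj d.q0) (hzj d.q1) (hzj d.q2) (hj d.q3) (hj d.q4) (hj d.q5)
    (hhD d.q0) (hhD d.q1) (hhD d.q2) (hD1 d.q3) (hD1 d.q4) (hD1 d.q5) a
  have e1 : d.loc.g1 ξ 0 = x.g1 := hj d.g1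
  have e2 : ξ * d.loc.g1 ξ 1 = x.g1d := hD1 d.g1
  have e3 : ξ ^ 2 * d.loc.g1 ξ 2 = x.g1dd := hD2 d.g1
  have e4 : d.loc.g0 ξ 0 = x.z * x.h0 := hzj d.g0
  have e5 : ξ * d.loc.g0 ξ 1 = x.z * x.h0d := hhD d.g0
  rw [e1, e2, e3, e4, e5]
  exact key

theorem PD.chk_basic {d : PD} {k1 k2 M N : ℕ} (h : d.chk k1 k2 M N = true) :
    d.chkBasic = true := by
  simp only [PD.chk, Bool.and_eq_true] at h
  exact h.1.1.1.1.1.1.1

theorem PD.chk_spec {d : PD} {k1 k2 M N : ℕ} (h : d.chk k1 k2 M N = true)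
    (h1 : d.first = true → d.hn ≤ d.hd) : Seg cst d.loc d.lo d.hi (AA d.JJ) := by
  simp only [PD.chk, Bool.and_eq_true] at h
  obtain ⟨⟨⟨⟨⟨⟨⟨h0, hw⟩, hr⟩, hb⟩, ht⟩, hi⟩, hn⟩, hm⟩ := h
  refine ⟨PD.lo_lt_hi h0, fun ξ _ => d.derAll ξ, fun ξ _ => d.derOff ξ, d.meas, fun ξ hξ => ?_,
    PD.chkNeg_spec h0 hn⟩
  have hξ' : ξ ∈ Icc d.lo d.hi := Ico_subset_Icc_self hξ
  obtain ⟨w1, w2, w3, w4⟩ := PD.chkW_spec h0 hw hξ
  obtain ⟨b1, b2, b3, b4, b5, b6⟩ := PD.chkB_spec h0 hb hξ'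
  exact ⟨w1, w2, w3, PD.chkRes_spec h0 hr hξ', ⟨b1.1.le, b1.2⟩, b2, b3, b4,
    fun hx => (PD.chkTail_spec h0 ht hξ hx).1,
    PD.chkMain_spec h0 h1 hm hξ' (by linarith [w2.1]) w2.2, b5,
    fun hx => (PD.chkTail_spec h0 ht hξ hx).2.1, PD.chkI_spec h0 hi hξ b1.1, b6,
    fun hx => (PD.chkTail_spec h0 ht hξ hx).2.2, w4⟩

theorem pm_one (p : List ℤ) : ((evZ p 1 : ℤ) : ℝ) = ev p 1 := by rw [evZ_cast, Int.cast_one]

theorem pm_mt {a b : PD} (ha : a.chkBasic = true) (hb : b.chkBasic = true) (e : a.hi = b.lo)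
    {k : ℕ} {p q : List ℤ} (h : mt a b k p q = true) (sc : ℕ) :
    a.jet p sc a.hi k = b.jet q sc a.hi k := by
  have an : (0 : ℝ) < a.hn := by exact_mod_cast (PD.basic ha).2.1
  have bn : (0 : ℝ) < b.hn := by exact_mod_cast (PD.basic hb).2.1
  have h1 := congrArg (Int.cast : ℤ → ℝ) (of_decide_eq_true h)
  rw [Int.cast_mul, Int.cast_mul, pm_one, evZ_cast, pm_nat, pm_nat] at h1
  push_cast at h1
  unfold PD.jet
  rw [PD.uu_hi ha, e, PD.uu_lo hb]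
  congr 1
  rw [div_pow, div_pow, ← mul_div_assoc, ← mul_div_assoc,
    div_eq_div_iff (by positivity) (by positivity)]
  rw [mul_pow, mul_pow] at h1
  linear_combination h1

theorem chkMatch_spec {a b : PD} (ha : a.chkBasic = true) (hb : b.chkBasic = true)
    (h : chkMatch a b = true) : a.hi = b.lo ∧ Match a.loc b.loc a.hi := by
  simp only [chkMatch, Bool.and_eq_true] at h
  obtain ⟨⟨⟨⟨⟨⟨⟨⟨⟨⟨⟨⟨⟨⟨⟨⟨⟨⟨⟨⟨⟨⟨h0, w0⟩, w1⟩, w2⟩, w3⟩, g0⟩, g1⟩, z0⟩, q0⟩, q1⟩, q2⟩, q3⟩, q4⟩,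
    q5⟩, r0⟩, r1⟩, r2⟩, f0⟩, f1⟩, f2⟩, f3⟩, f4⟩, f5⟩ := h
  have e : a.hi = b.lo := by
    have ad : (0 : ℝ) < a.hd := by exact_mod_cast (PD.basic ha).2.2.1
    have bd : (0 : ℝ) < b.hd := by exact_mod_cast (PD.basic hb).2.2.1
    have h1 := congrArg (Nat.cast : ℕ → ℝ) (Nat.eq_of_beq_eq_true h0)
    rw [Nat.cast_mul, Nat.cast_mul, Nat.cast_mul, Nat.cast_mul, Nat.cast_sub (PD.basic hb).1] at h1
    push_cast at h1
    unfold PD.hi PD.lo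
    field_simp
    linear_combination h1
  refine ⟨e, fun k hk => ?_, fun k hk => ?_, pm_mt ha hb e z0 SS, fun i hi => ?_, fun i hi => ?_,
    fun i k hi hk => ?_⟩
  · interval_cases k
    exacts [pm_mt ha hb e w0 PP, pm_mt ha hb e w1 PP, pm_mt ha hb e w2 PP, pm_mt ha hb e w3 PP]
  · interval_cases k
    exacts [pm_mt ha hb e g0 SS, pm_mt ha hb e g1 SS]
  · interval_cases i
    exacts [pm_mt ha hb e q0 SS, pm_mt ha hb e q1 SS, pm_mt ha hb e q2 SS, pm_mt ha hb e q3 SS,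
      pm_mt ha hb e q4 SS, pm_mt ha hb e q5 SS]
  · interval_cases i
    exacts [pm_mt ha hb e r0 SS, pm_mt ha hb e r1 SS, pm_mt ha hb e r2 SS]
  · interval_cases i <;> interval_cases k
    exacts [pm_mt ha hb e f0 SS, pm_mt ha hb e f1 SS, pm_mt ha hb e f2 SS, pm_mt ha hb e f3 SS,
      pm_mt ha hb e f4 SS, pm_mt ha hb e f5 SS]

theorem pm_mtT {a : PD} {t : TD} (ha : a.chkBasic = true) (e : a.hi = 4096) {k : ℕ}
    (h : mtT a t k = true) : a.loc.W 4096 k = t.loc.W 4096 k := by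
  have an : (0 : ℝ) < a.hn := by exact_mod_cast (PD.basic ha).2.1
  have hPP : (0 : ℝ) < PP := by rw [pm_PP]; exact mul_pos pm_PQ pm_QQ
  have h1 := congrArg (Int.cast : ℤ → ℝ) (of_decide_eq_true h)
  rw [Int.cast_mul, Int.cast_mul, pm_one, pm_one, pm_nat, pm_nat] at h1
  push_cast at h1
  have hu : a.uu 4096 = 1 := e ▸ PD.uu_hi ha
  change ev (derN k a.w) (a.uu 4096) * ((a.hd : ℝ) / a.hn) ^ k / PP =
    ev (t.tj k) ((4096 / 4096) ^ 2) / (PP * 4096 ^ (k + 1))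
  rw [hu, div_self (by norm_num), one_pow, div_pow, ← mul_div_assoc, div_div,
    div_eq_div_iff (mul_pos (pow_pos an k) hPP).ne' (mul_pos hPP (by positivity)).ne']
  linear_combination PP * h1

theorem pm_val {a : PD} (ha : a.chkBasic = true) (e : a.hi = 4096) {p : List ℤ} {c : ℤ}
    (h : decide (evZ p 1 = c) = true) : a.jet p SS 4096 0 = c / SS := by
  have hu : a.uu 4096 = 1 := e ▸ PD.uu_hi ha
  rw [a.jet_zero, hu, ← pm_one, of_decide_eq_true h]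

theorem pm_nil (a : PD) (sc : ℕ) (ξ : ℝ) (k : ℕ) : a.jet [] sc ξ k = 0 := by
  have : derN k [] = [] := by
    induction k with
    | zero => rfl
    | succ k ih =>
      change der (derN k []) = []
      rw [ih]
      rfl
  rw [PD.jet, this, ev_nil, zero_mul, zero_div]

theorem chkMatchT_spec {a : PD} {t : TD} (ha : a.chkBasic = true)
    (h : chkMatchT a t = true) : a.hi = 4096 ∧ Match a.loc t.loc 4096 := by
  simp only [chkMatchT, Bool.and_eq_true] at h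
  obtain ⟨⟨⟨⟨⟨⟨⟨⟨⟨⟨⟨⟨⟨⟨⟨⟨⟨⟨h0, w0⟩, w1⟩, w2⟩, w3⟩, g0⟩, g1⟩, z0⟩, q0⟩, q1⟩, q2⟩, q3⟩, q4⟩,
    q5⟩, r0⟩, r1⟩, r2⟩, f0⟩, f1⟩ := h
  have hS := pm_SS
  have e : a.hi = 4096 := by
    have ad : (0 : ℝ) < a.hd := by exact_mod_cast (PD.basic ha).2.2.1
    have h1 := congrArg (Nat.cast : ℕ → ℝ) (Nat.eq_of_beq_eq_true h0)
    push_cast at h1
    unfold PD.hi
    field_simp
    linear_combination h1
  refine ⟨e, fun k hk => ?_, fun k hk => ?_, ?_, fun i hi => ?_, fun i hi => ?_,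
    fun i k hi hk => ?_⟩
  · interval_cases k
    exacts [pm_mtT ha e w0, pm_mtT ha e w1, pm_mtT ha e w2, pm_mtT ha e w3]
  · interval_cases k
    · refine (pm_val ha e g0).trans ?_
      change _ = (CT : ℝ)
      rw [pm_nat, Nat.cast_mul]
      field_simp
    · have hu : a.uu 4096 = 1 := e ▸ PD.uu_hi ha
      change ev (der a.g1) (a.uu 4096) * ((a.hd : ℝ) / a.hn) ^ 1 / SS = 0
      rw [hu, ← pm_one, of_decide_eq_true g1]
      simp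
  · refine (pm_val ha e z0).trans ?_
    change _ = -(CT : ℝ) / 2
    rw [pm_neg, Nat.cast_mul, CT]
    push_cast
    field_simp
    norm_num
  · interval_cases i
    exacts [pm_val ha e q0, pm_val ha e q1, pm_val ha e q2, pm_val ha e q3, pm_val ha e q4,
      pm_val ha e q5]
  · interval_cases i
    exacts [pm_val ha e r0, pm_val ha e r1, pm_val ha e r2]
  · interval_cases i
    · change a.jet a.f0 SS 4096 k = 0
      rw [of_decide_eq_true f0, pm_nil]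
    · change a.jet a.f1 SS 4096 k = 0
      rw [of_decide_eq_true f1, pm_nil]

end Vale.Agent.P264.B
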