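import Vale.Agent.P264.B.PJet

/-! Soundness of the profile checks `chkW`, `chkRes` and of `chkNeg` on one piece. -/

open Set

namespace Vale.Agent.P264.B.PD

variable {d : PD}

theorem pw_PP : (0 : ℝ) < PP := Nat.cast_pos.2 (by unfold PP; exact Nat.two_pow_pos _)

theorem pw_SS : (0 : ℝ) < SS := Nat.cast_pos.2 (Nat.two_pow_pos 32)

attribute [local irreducible] PP SS

theorem pw_hn (h : d.chkBasic = true) : (0 : ℝ) < d.hn := Nat.cast_pos.2 (basic h).2.1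

theorem pw_hd (h : d.chkBasic = true) : (0 : ℝ) < d.hd := Nat.cast_pos.2 (basic h).2.2.1

theorem pw_bound (h : d.chkBasic = true) {ξ : ℝ} (hξ : ξ ∈ Icc d.lo d.hi) {x N c B : ℝ} {n : ℕ}
    (hc : 0 < c) (hx : |x| ≤ N) (hB : N * (d.E : ℝ) ^ n ≤ B * (c * (d.hd : ℝ) ^ n)) :
    |x / c| * (1 + ξ) ^ n ≤ B := by
  have h0 := xi_nonneg h hξ
  have h1 := pw_hd h
  have h2 := pow_le_pow_left₀ (by linarith) (one_add_le h hξ) n
  rw [abs_div, abs_of_pos hc]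
  calc |x| / c * (1 + ξ) ^ n ≤ N / c * ((d.E : ℝ) / d.hd) ^ n :=
        mul_le_mul (div_le_div_of_nonneg_right hx hc.le) h2 (by positivity)
          (div_nonneg ((abs_nonneg x).trans hx) hc.le)
    _ = N * (d.E : ℝ) ^ n / (c * (d.hd : ℝ) ^ n) := by rw [div_pow, div_mul_div_comm]
    _ ≤ B := by rwa [div_le_iff₀ (by positivity)]

theorem pw_W1 (h : d.chkBasic = true) {k : ℕ} (hw : d.chkW1 k = true) {ξ : ℝ}
    (hξ : ξ ∈ Icc d.lo d.hi) : |d.loc.W ξ k| * (1 + ξ) ^ (k + 1) ≤ 10 ^ 6 := by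
  have h1 := pw_hn h
  have h2 := pw_hd h
  have h3 := pw_PP
  have h4 : ((nrm (derN k d.w) * d.E ^ (k + 1) : ℕ) : ℝ) ≤ (10 ^ 6 * d.hn ^ k * d.hd * PP : ℕ) :=
    Nat.cast_le.2 (Nat.le_of_ble_eq_true hw)
  push_cast at h4
  have e : d.loc.W ξ k = ev (derN k d.w) (d.uu ξ) / (PP * ((d.hn : ℝ) / d.hd) ^ k) := by
    simp only [loc, jet, div_pow]
    field_simp
  rw [e]
  refine pw_bound h hξ (by positivity) (abs_ev_le _ (uu_abs h hξ)) (h4.trans_eq ?_)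
  rw [div_pow]
  field_simp
  ring

theorem chkW_spec (h : d.chkBasic = true) (hw : d.chkW = true) {ξ : ℝ} (hξ : ξ ∈ Ico d.lo d.hi) :
    (∀ k, k ≤ 4 → |d.loc.W ξ k| * (1 + ξ) ^ (k + 1) ≤ 10 ^ 6) ∧
    (1 / 20 ≤ 1 - ξ * d.loc.W ξ 0 ∧ 1 - ξ * d.loc.W ξ 0 ≤ 1) ∧
    |d.loc.W ξ 0 + ξ * d.loc.W ξ 1| * (1 + ξ) ^ 3 ≤ 10 ^ 6 ∧
    (ξ = cst.xs → 1 - ξ * d.loc.W ξ 0 ≤ 1 / 2) := by
  have hξ' : ξ ∈ Icc d.lo d.hi := Ico_subset_Icc_self hξ
  have hu := uu_abs h hξ'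
  have h1 := pw_hn h
  have h2 := pw_hd h
  have h3 := pw_PP
  simp only [chkW, Bool.and_eq_true, Bool.or_eq_true] at hw
  obtain ⟨⟨⟨⟨⟨⟨⟨⟨w0, w1⟩, w2⟩, w3⟩, w4⟩, a1⟩, a2⟩, a3⟩, a4⟩ := hw
  refine ⟨fun k hk => ?_, ⟨?_, ?_⟩, ?_, fun hx => ?_⟩
  · interval_cases k
    exacts [pw_W1 h w0 hξ', pw_W1 h w1 hξ', pw_W1 h w2 hξ', pw_W1 h w3 hξ', pw_W1 h w4 hξ']
  · have b := chkPos_spec _ _ _ a1 hu
    have e : ((Int.neg (Int.ofNat (d.hd * PP)) : ℤ) : ℝ) = -((d.hd : ℝ) * PP) := by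
      rw [show Int.neg (Int.ofNat (d.hd * PP)) = -((d.hd * PP : ℕ) : ℤ) from rfl]
      push_cast
      rfl
    rw [ev_add, ev_smul, ev_cons, ev_nil, e] at b
    rw [Y_eq h, le_div_iff₀ (by positivity)]
    push_cast at b
    linarith
  · have b := chkPos_spec _ _ _ a2 hu
    have e : d.loc.W ξ 0 = ev d.w (d.uu ξ) / PP := jet_zero d d.w PP ξ
    rw [Nat.cast_zero] at b
    have := mul_nonneg (xi_nonneg h hξ') (div_pos b h3).le
    rw [e]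
    linarith
  · have h4 : ((nrm d.Ui * d.E ^ 3 : ℕ) : ℝ) ≤ (10 ^ 6 * d.hd ^ 3 * PP : ℕ) :=
      Nat.cast_le.2 (Nat.le_of_ble_eq_true a3)
    push_cast at h4
    rw [U_eq h]
    exact pw_bound h hξ' h3 (abs_ev_le _ hu) (h4.trans_eq (by ring))
  · have hx' : ξ = 9 / 2 := hx
    rcases a4 with (b | b) | b
    · have h4 : ((2 * (d.hn * (d.nu + 1)) : ℕ) : ℝ) ≤ (9 * d.hd : ℕ) :=
        Nat.cast_le.2 (Nat.le_of_ble_eq_true b)
      have h5 := hξ.2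
      rw [hi, div_mul_eq_mul_div, lt_div_iff₀ h2, hx'] at h5
      push_cast at h4
      linarith
    · have h4 : ((9 * d.hd + 1 : ℕ) : ℝ) ≤ (2 * (d.hn * (d.nu - 1)) : ℕ) :=
        Nat.cast_le.2 (Nat.le_of_ble_eq_true b)
      have h5 := hξ.1
      rw [lo, div_mul_eq_mul_div, div_le_iff₀ h2, hx'] at h5
      push_cast [Nat.cast_sub (basic h).1] at h4
      linarith
    · have b' := chkPos_spec _ _ _ b hu
      have e : ((Int.ofNat (d.hd * PP) : ℤ) : ℝ) = (d.hd : ℝ) * PP := by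
        rw [show Int.ofNat (d.hd * PP) = ((d.hd * PP : ℕ) : ℤ) from rfl]
        push_cast
        rfl
      have e2 : ((Int.negSucc 1 : ℤ) : ℝ) = -2 := by
        rw [show Int.negSucc 1 = -2 from rfl]
        norm_num
      rw [ev_add, ev_smul, ev_cons, ev_nil, e, e2] at b'
      rw [Y_eq h, div_le_iff₀ (by positivity)]
      push_cast at b'
      linarith

theorem pw_S2 (h : d.chkBasic = true) (ξ : ℝ) :
    S2 (d.loc.W ξ) ξ = ((d.hd : ℝ) / d.hn) ^ 2 * ev d.Si (d.uu ξ) / PP := by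
  have h1 := pw_hn h
  have h2 := pw_hd h
  have h3 := pw_PP
  have e := xi_eq h ξ
  have e2 : derN 2 d.w = der (der d.w) := rfl
  have e3 : derN 3 d.w = der (der (der d.w)) := rfl
  have e4 : derN 4 d.w = der (der (der (der d.w))) := rfl
  simp only [S2, loc, jet, Si, ev_add, ev_smul, ev_mx, e2, e3, e4]
  generalize d.uu ξ = u at e ⊢
  subst e
  push_cast
  field_simp

theorem chkRes_spec (h : d.chkBasic = true) {k : ℕ} (hr : d.chkRes k = true) {ξ : ℝ}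
    (hξ : ξ ∈ Icc d.lo d.hi) :
    |-(1 - ξ * d.loc.W ξ 0) ^ 2 * S2 (d.loc.W ξ) ξ - (d.loc.W ξ 0 + ξ * d.loc.W ξ 1) / 2|
      * (1 + ξ) ^ 3 ≤ 1 / 10 ^ 130 := by
  have hu := uu_abs h hξ
  have h1 := pw_hn h
  have h2 := pw_hd h
  have h3 := pw_PP
  simp only [chkRes, Bool.and_eq_true] at hr
  obtain ⟨a1, a2⟩ := hr
  have r := (((((Rep.pack (k := k) (u := d.uu ξ) d.Yi).mul hu (Rep.pack d.Yi)).mul hu
    (Rep.pack d.Si)).sm (Int.negSucc 1)).sub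
      ((Rep.pack d.Ui).sm (Int.ofNat (d.hn ^ 2 * PP ^ 2)))).abs_le hu (Nat.le_of_ble_eq_true a1)
  have h4 := (Nat.cast_le (α := ℝ)).2 (Nat.le_of_ble_eq_true a2)
  have e : ((Int.ofNat (d.hn ^ 2 * PP ^ 2) : ℤ) : ℝ) = (d.hn : ℝ) ^ 2 * (PP : ℝ) ^ 2 := by
    rw [show Int.ofNat (d.hn ^ 2 * PP ^ 2) = ((d.hn ^ 2 * PP ^ 2 : ℕ) : ℤ) from rfl]
    push_cast
    rfl
  have e2 : ((Int.negSucc 1 : ℤ) : ℝ) = -2 := by
    rw [show Int.negSucc 1 = -2 from rfl]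
    norm_num
  rw [← Nat.cast_add] at r
  rw [Nat.cast_mul, Nat.cast_mul] at h4
  generalize ((_ + _ : ℕ) : ℝ) = N at r h4
  rw [e, e2] at r
  push_cast at h4
  have e3 : -(1 - ξ * d.loc.W ξ 0) ^ 2 * S2 (d.loc.W ξ) ξ - (d.loc.W ξ 0 + ξ * d.loc.W ξ 1) / 2 =
      (-2 * (ev d.Yi (d.uu ξ) * ev d.Yi (d.uu ξ) * ev d.Si (d.uu ξ)) -
        (d.hn : ℝ) ^ 2 * (PP : ℝ) ^ 2 * ev d.Ui (d.uu ξ)) / (2 * (d.hn : ℝ) ^ 2 * (PP : ℝ) ^ 3) := by
    rw [Y_eq h, U_eq h, pw_S2 h]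
    field_simp
  rw [e3]
  refine pw_bound h hξ (by positivity) r ?_
  rw [one_div_mul_eq_div, le_div_iff₀ (by positivity)]
  exact h4.trans_eq' (by norm_num)

theorem pw_int (h : d.chkBasic = true) {p : List ℤ} (hp : antiOK p = true) :
    IntervalIntegrable (fun ξ => ev p (d.uu ξ)) MeasureTheory.volume d.lo d.hi ∧
      ∫ ξ in d.lo..d.hi, ev p (d.uu ξ) = (d.hn : ℝ) / d.hd * intg p / LC := by
  have h1 := pw_hn h
  have h2 := pw_hd h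
  have h3 : (0 : ℝ) < LC := Nat.cast_pos.2 (by norm_num [LC])
  have e : der (anti p) = smul (Int.ofNat LC) p := of_decide_eq_true hp
  have e1 : ((Int.ofNat LC : ℤ) : ℝ) = LC := rfl
  have hu : ∀ ξ : ℝ, HasDerivAt d.uu ((d.hd : ℝ) / d.hn) ξ := fun ξ => by
    refine ((((hasDerivAt_id ξ).mul_const (d.hd : ℝ)).div_const (d.hn : ℝ)).sub_const
      (d.nu : ℝ)).congr_deriv ?_
    rw [one_mul]
  have hi : IntervalIntegrable (fun ξ => ev p (d.uu ξ)) MeasureTheory.volume d.lo d.hi :=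
    ((continuous_ev p).comp (continuous_iff_continuousAt.2 fun ξ =>
      (hu ξ).continuousAt)).intervalIntegrable _ _
  refine ⟨hi, ?_⟩
  rw [intervalIntegral.integral_eq_sub_of_hasDerivAt
    (f := fun ξ => (d.hn : ℝ) / d.hd * ev (anti p) (d.uu ξ) / LC) (fun ξ _ => ?_) hi]
  · simp only [uu_lo h, uu_hi h, intg, Int.cast_sub, evZ_cast]
    push_cast
    ring
  · refine ((((hasDerivAt_ev (anti p) _).comp ξ (hu ξ)).const_mul
      ((d.hn : ℝ) / d.hd)).div_const (LC : ℝ)).congr_deriv ?_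
    rw [e, ev_smul, e1]
    field_simp

theorem chkNeg_spec (h : d.chkBasic = true) (hn : d.chkNeg = true) (θ0 θ1 : ℝ) :
    ∫ ξ in d.lo..d.hi, negD d.loc θ0 θ1 ξ ≤ AA d.JJ θ0 θ1 := by
  have h1 := pw_hn h
  have h2 := pw_hd h
  have h3 : (0 : ℝ) < LC := Nat.cast_pos.2 (by norm_num [LC])
  have h4 := pw_SS
  simp only [chkNeg, Bool.and_eq_true] at hn
  obtain ⟨⟨⟨a0, a1⟩, a2⟩, a3⟩ := hn
  obtain ⟨i0, j0⟩ := pw_int h a0
  obtain ⟨i1, j1⟩ := pw_int h a1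
  obtain ⟨i2, j2⟩ := pw_int h a2
  have e : ∀ ξ, negD d.loc θ0 θ1 ξ = (d.hn : ℝ) / d.hd / (SS : ℝ) ^ 3 *
      (θ0 ^ 2 * ev (d.negP d.f0 d.f0) (d.uu ξ) + 2 * θ0 * θ1 * ev (d.negP d.f0 d.f1) (d.uu ξ) +
        θ1 ^ 2 * ev (d.negP d.f1 d.f1) (d.uu ξ)) := fun ξ => by
    have e1 : ξ * (θ0 * d.jet d.f0 SS ξ 1 + θ1 * d.jet d.f1 SS ξ 1) =
        θ0 * (ev (d.D1 d.f0) (d.uu ξ) / SS) + θ1 * (ev (d.D1 d.f1) (d.uu ξ) / SS) := by
      rw [← jet_D1 h, ← jet_D1 h]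
      ring
    have e2 := xi_eq h ξ
    simp only [negD, loc, ff, e1, jet_zero, negP, ev_mx, ev_add, ev_lmul]
    generalize d.uu ξ = u at e2 ⊢
    subst e2
    field_simp
    ring
  obtain ⟨m, hm, hm'⟩ : ∃ m : ℕ, 1024 / d.hd ^ 2 = m ∧ (m : ℝ) = 1024 / (d.hd : ℝ) ^ 2 := by
    refine ⟨_, rfl, ?_⟩
    rw [eq_div_iff (by positivity)]
    exact_mod_cast Nat.eq_of_beq_eq_true a3
  have e3 : ((Int.ofNat (d.hn ^ 2 * m) : ℤ) : ℝ) = (d.hn : ℝ) ^ 2 * m := by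
    rw [show Int.ofNat (d.hn ^ 2 * m) = ((d.hn ^ 2 * m : ℕ) : ℤ) from rfl]
    push_cast
    rfl
  simp only [e]
  rw [intervalIntegral.integral_const_mul, intervalIntegral.integral_add
    ((i0.const_mul _).add (i1.const_mul _)) (i2.const_mul _), intervalIntegral.integral_add
    (i0.const_mul _) (i1.const_mul _), intervalIntegral.integral_const_mul,
    intervalIntegral.integral_const_mul, intervalIntegral.integral_const_mul, j0, j1, j2]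
  simp only [AA, JJ, J, hm, Int.cast_mul, e3, hm']
  refine le_of_eq ?_
  field_simp

end Vale.Agent.P264.B.PD
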