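import Vale.Agent.P264.B.PK
import Vale.Agent.P264.B.Glue

/-! Data of one polynomial piece `ξ = (hn/hd) (nu + u)`, `|u| ≤ 1`, and its checks. -/

open Set

namespace Vale.Agent.P264.B

/-- scale of the profile -/
def PP : ℕ := 2 ^ 560
/-- scale of the weights -/
def SS : ℕ := 2 ^ 32
/-- scale of the truncated profile -/
def QQ : ℕ := 2 ^ 64
/-- `PP / QQ` -/
def PQ : ℕ := 2 ^ 496
def CT : ℕ := 10000
def BB : ℕ := 10 ^ 14

noncomputable def cst : Cst := ⟨37 / 8, 6, 256, CT, 4096, 9 / 2⟩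

structure PD where
  nu : ℕ
  hn : ℕ
  hd : ℕ
  first : Bool
  w : List ℤ
  g1 : List ℤ
  g0 : List ℤ
  q0 : List ℤ
  q1 : List ℤ
  q2 : List ℤ
  q3 : List ℤ
  q4 : List ℤ
  q5 : List ℤ
  r0 : List ℤ
  r1 : List ℤ
  r2 : List ℤ
  f0 : List ℤ
  f1 : List ℤ

noncomputable def derN (k : ℕ) (p : List ℤ) : List ℤ := Nat.rec p (fun _ r => der r) k

namespace PD

variable (d : PD)

noncomputable def uu (ξ : ℝ) : ℝ := ξ * d.hd / d.hn - d.nu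
noncomputable def lo : ℝ := (d.hn : ℝ) / d.hd * (d.nu - 1)
noncomputable def hi : ℝ := (d.hn : ℝ) / d.hd * (d.nu + 1)

/-- `k`-th `ξ`-derivative of `ev p u / sc` -/
noncomputable def jet (p : List ℤ) (sc : ℕ) (ξ : ℝ) (k : ℕ) : ℝ :=
  ev (derN k p) (d.uu ξ) * ((d.hd : ℝ) / d.hn) ^ k / sc

noncomputable def nuZ : ℤ := Int.ofNat d.nu
noncomputable def mx (p : List ℤ) : List ℤ := mulX d.nuZ p
noncomputable def D1 (p : List ℤ) : List ℤ := d.mx (der p)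
noncomputable def D2 (p : List ℤ) : List ℤ := d.mx (d.mx (der (der p)))
/-- multiplication by `z` -/
noncomputable def zp (p : List ℤ) : List ℤ := Bool.rec p (d.mx p) d.first
/-- `ξ (z p)' = z * hD p` -/
noncomputable def hD (p : List ℤ) : List ℤ := Bool.rec (d.D1 p) (add p (d.D1 p)) d.first

noncomputable def qq (i : ℕ) : List ℤ :=
  match i with
  | 0 => d.zp d.q0
  | 1 => d.zp d.q1
  | 2 => d.zp d.q2
  | 3 => d.q3
  | 4 => d.q4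
  | _ => d.q5

noncomputable def rr (i : ℕ) : List ℤ :=
  match i with
  | 0 => d.r0
  | 1 => d.r1
  | _ => d.r2

noncomputable def ff (i : ℕ) : List ℤ :=
  match i with
  | 0 => d.f0
  | _ => d.f1

noncomputable def loc : Loc where
  W ξ k := d.jet d.w PP ξ k
  g1 ξ k := d.jet d.g1 SS ξ k
  g0 ξ k := d.jet (d.zp d.g0) SS ξ k
  q ξ i := d.jet (d.qq i) SS ξ 0
  qd ξ i := d.jet (d.qq i) SS ξ 1
  r i ξ k := d.jet (d.rr i) SS ξ k
  f i ξ k := d.jet (d.ff i) SS ξ k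

/-- `1 + ξ ≤ E / hd` on the piece -/
noncomputable def E : ℕ := d.hd + d.hn * (d.nu + 1)
/-- `1 - ξ W = ev Yi u / (hd PP)` -/
noncomputable def Yi : List ℤ :=
  add [Int.ofNat (d.hd * PP)] (smul (Int.neg (Int.ofNat d.hn)) (d.mx d.w))
/-- `W0 + ξ W1 = ev Ui u / PP` -/
noncomputable def Ui : List ℤ := add d.w (d.D1 d.w)
/-- `S2 W = (hd/hn)^2 ev Si u / PP` -/
noncomputable def Si : List ℤ :=
  (fun w2 => (fun w3 => add (d.mx (add (d.mx (der w3)) (smul 20 w3))) (smul 90 w2)) (der w2))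
    (der (der d.w))
/-- `ξ Y' = ev Y1i u / (hd PP)` -/
noncomputable def Y1i : List ℤ := smul (Int.neg (Int.ofNat d.hn)) (d.mx d.Ui)
/-- multiplication by `hd^2 ξ^2 / z` -/
noncomputable def x2z (p : List ℤ) : List ℤ :=
  smul (Int.ofNat (d.hn * d.hn)) (d.mx (Bool.rec (d.mx p) p d.first))
/-- multiplication by `hd^2 ξ^2` -/
noncomputable def x2 (p : List ℤ) : List ℤ := smul (Int.ofNat (d.hn * d.hn)) (d.mx (d.mx p))

noncomputable def chkBasic : Bool :=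
  Nat.ble 1 d.nu && Nat.ble 1 d.hn && Nat.ble 1 d.hd &&
    (Bool.rec (Nat.ble 2 d.nu) (Nat.beq d.nu 1) d.first)

noncomputable def chkW1 (k : ℕ) : Bool :=
  Nat.ble (nrm (derN k d.w) * d.E ^ (k + 1)) (10 ^ 6 * d.hn ^ k * d.hd * PP)

noncomputable def chkW : Bool :=
  d.chkW1 0 && d.chkW1 1 && d.chkW1 2 && d.chkW1 3 && d.chkW1 4 &&
  chkPos 12 (add (smul 20 d.Yi) [Int.neg (Int.ofNat (d.hd * PP))]) 0 && chkPos 12 d.w 0 &&
  Nat.ble (nrm d.Ui * d.E ^ 3) (10 ^ 6 * d.hd ^ 3 * PP) &&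
  (Nat.ble (2 * (d.hn * (d.nu + 1))) (9 * d.hd) || Nat.ble (9 * d.hd + 1) (2 * (d.hn * (d.nu - 1))) ||
    chkPos 12 (add [Int.ofNat (d.hd * PP)] (smul (Int.negSucc 1) d.Yi)) 0)

/-- `2 hn^2 PP^3 R = -2 Yi^2 Si - hn^2 PP^2 Ui` -/
noncomputable def chkRes (k : ℕ) : Bool :=
  (fun t : PK => Nat.ble (Nat.succ t.n) (Nat.pow 2 k) &&
    Nat.ble ((nrm (unp k t.l t.V) + t.e) * d.E ^ 3 * 10 ^ 130) (2 * d.hn ^ 2 * PP ^ 3 * d.hd ^ 3))
  ((fun y : PK => (((y.mul y).mul (pack k d.Si 0)).sm (Int.negSucc 1)).sub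
      ((pack k d.Ui 0).sm (Int.ofNat (d.hn ^ 2 * PP ^ 2)))) (pack k d.Yi 0))

noncomputable def bnd (p : List ℤ) : Bool := Nat.ble (nrm p) (BB * SS)

/-- `|z * ev p u| / SS ≤ BB ξ / (1 + ξ)` -/
noncomputable def bndz (p : List ℤ) : Bool :=
  Bool.rec (Nat.ble (nrm p * (d.hd + d.hn * (d.nu - 1))) (BB * SS * (d.hn * (d.nu - 1))))
    (Nat.ble (nrm p * (d.hd + 2 * d.hn)) (BB * SS * d.hn)) d.first

noncomputable def chkF (p : List ℤ) : Bool :=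
  Nat.ble (nrm p) SS && Nat.ble (nrm (der p) * d.hd) (SS * d.hn) &&
    Nat.ble (nrm (der (der p)) * d.hd ^ 2) (SS * d.hn ^ 2)

noncomputable def chkB : Bool :=
  chkPos 6 d.g1 SS && bnd d.g1 && bnd (d.D1 d.g1) && bnd (d.D2 d.g1) &&
  d.bndz d.g0 && d.bndz (d.hD d.g0) && d.bndz d.q0 && d.bndz (d.hD d.q0) &&
  d.bndz d.q1 && d.bndz (d.hD d.q1) && d.bndz d.q2 && d.bndz (d.hD d.q2) &&
  bnd d.q3 && bnd (d.D1 d.q3) && bnd d.q4 && bnd (d.D1 d.q4) && bnd d.q5 && bnd (d.D1 d.q5) &&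
  bnd d.r0 && bnd (d.D1 d.r0) && bnd d.r1 && bnd (d.D1 d.r1) && bnd d.r2 && bnd (d.D1 d.r2) &&
  d.chkF d.f0 && d.chkF d.f1

noncomputable def chkTail : Bool :=
  Nat.ble (d.hn * (d.nu + 1)) (256 * d.hd) ||
    (!d.first && decide (d.g1 = [Int.ofNat (CT * SS)]) &&
      decide (d.g0 = [Int.neg (Int.ofNat (5000 * SS))]) && decide (d.r2 = [Int.ofNat (CT * SS)]) &&
      decide (d.f0 = []) && decide (d.f1 = []))

noncomputable def chkI1 (r : List ℤ) : Bool :=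
  chkPos 100 (add (lmul (add (add (d.zp d.g0) (d.D1 r)) (add (smul 2 r) [Int.neg (Int.ofNat SS)]))
    (add d.g1 [Int.neg (Int.ofNat SS)])) (smul (Int.negSucc 0) (lmul r r))) 0

noncomputable def chkI : Bool :=
  (Nat.ble (37 * d.hd) (8 * (d.hn * (d.nu - 1))) || d.chkI1 d.r0) &&
  (Nat.ble (6 * d.hd) (d.hn * (d.nu - 1)) || Nat.ble (8 * (d.hn * (d.nu + 1))) (37 * d.hd) ||
    d.chkI1 d.r1) &&
  (Nat.ble (d.hn * (d.nu + 1)) (6 * d.hd) || d.chkI1 d.r2)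

noncomputable def inp (k M : ℕ) : Inp PK where
  z := pack k (d.zp [1]) 0
  Y := tm k M (d.hd * PQ) d.Yi
  Y1 := tm k M (d.hd * PQ) d.Y1i
  Z := tm k M (d.hd ^ 3 * PQ) (d.x2z d.Y1i)
  g1 := pack k d.g1 0
  g1d := pack k (d.D1 d.g1) 0
  g1dd := pack k (d.D2 d.g1) 0
  h0 := pack k d.g0 0
  h0d := pack k (d.hD d.g0) 0
  X1 := tm k 8 (d.hd ^ 2) (d.x2 (d.D1 d.g1))
  X0 := tm k 8 (d.hd ^ 2) (d.x2 (d.hD d.g0))
  q0 := pack k d.q0 0
  q1 := pack k d.q1 0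
  q2 := pack k d.q2 0
  q3 := pack k d.q3 0
  q4 := pack k d.q4 0
  q5 := pack k d.q5 0
  d0 := pack k (d.hD d.q0) 0
  d1 := pack k (d.hD d.q1) 0
  d2 := pack k (d.hD d.q2) 0
  d3 := pack k (d.D1 d.q3) 0
  d4 := pack k (d.D1 d.q4) 0
  d5 := pack k (d.D1 d.q5) 0

noncomputable def chkMain (k M N : ℕ) : Bool := mainChk k N QQ SS (d.inp k M)

/-- integrand of the energy of the directions `a`, `b`, times `SS^3 hd / hn` -/
noncomputable def negP (a b : List ℤ) : List ℤ :=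
  d.mx (add (lmul d.g1 (lmul (d.D1 a) (d.D1 b))) (lmul (d.zp d.g0) (lmul a b)))

end PD

def LC : ℕ := 720720

noncomputable def antiA (p : List ℤ) : ℕ → List ℤ :=
  List.rec (fun _ => []) (fun a _ ih k => Int.mul a (Int.ofNat (Nat.div LC k)) :: ih (Nat.succ k)) p

noncomputable def anti (p : List ℤ) : List ℤ := 0 :: antiA p 1

noncomputable def antiOK (p : List ℤ) : Bool := decide (der (anti p) = smul (Int.ofNat LC) p)

/-- `LC * ∫ u in -1..1, ev p u` when `antiOK p` -/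
noncomputable def intg (p : List ℤ) : ℤ := evZ (anti p) 1 - evZ (anti p) (-1)

namespace PD

variable (d : PD)

noncomputable def chkNeg : Bool :=
  antiOK (d.negP d.f0 d.f0) && antiOK (d.negP d.f0 d.f1) && antiOK (d.negP d.f1 d.f1) &&
    Nat.beq (1024 / d.hd ^ 2 * d.hd ^ 2) 1024

noncomputable def J (a b : List ℤ) : ℤ :=
  intg (d.negP a b) * Int.ofNat (d.hn ^ 2 * (1024 / d.hd ^ 2))

noncomputable def chk (k1 k2 M N : ℕ) : Bool :=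
  d.chkBasic && d.chkW && d.chkRes k1 && d.chkB && d.chkTail && d.chkI && d.chkNeg &&
    d.chkMain k2 M N

end PD

/-- value of the accumulated energy -/
noncomputable def AA (j : ℤ × ℤ × ℤ) (θ0 θ1 : ℝ) : ℝ :=
  (j.1 * θ0 ^ 2 + 2 * j.2.1 * θ0 * θ1 + j.2.2 * θ1 ^ 2) / (1024 * LC * SS ^ 3)

noncomputable def PD.JJ (d : PD) : ℤ × ℤ × ℤ := (d.J d.f0 d.f0, d.J d.f0 d.f1, d.J d.f1 d.f1)

noncomputable def mt (a b : PD) (k : ℕ) (p q : List ℤ) : Bool :=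
  decide (evZ (derN k p) 1 * Int.ofNat ((a.hd * b.hn) ^ k) =
    evZ (derN k q) (-1) * Int.ofNat ((b.hd * a.hn) ^ k))

/-- `a` is the left neighbour of `b`. -/
noncomputable def chkMatch (a b : PD) : Bool :=
  Nat.beq (a.hn * (a.nu + 1) * b.hd) (b.hn * (b.nu - 1) * a.hd) &&
  mt a b 0 a.w b.w && mt a b 1 a.w b.w && mt a b 2 a.w b.w && mt a b 3 a.w b.w &&
  mt a b 0 a.g1 b.g1 && mt a b 1 a.g1 b.g1 && mt a b 0 (a.zp a.g0) (b.zp b.g0) &&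
  mt a b 0 (a.qq 0) (b.qq 0) && mt a b 0 (a.qq 1) (b.qq 1) && mt a b 0 (a.qq 2) (b.qq 2) &&
  mt a b 0 (a.qq 3) (b.qq 3) && mt a b 0 (a.qq 4) (b.qq 4) && mt a b 0 (a.qq 5) (b.qq 5) &&
  mt a b 0 a.r0 b.r0 && mt a b 0 a.r1 b.r1 && mt a b 0 a.r2 b.r2 &&
  mt a b 0 a.f0 b.f0 && mt a b 1 a.f0 b.f0 && mt a b 2 a.f0 b.f0 &&
  mt a b 0 a.f1 b.f1 && mt a b 1 a.f1 b.f1 && mt a b 2 a.f1 b.f1

/-! Tail `ξ ≥ 4096`, in the variable `σ = (4096/ξ)^2`. -/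

structure TD where
  n : List ℤ
  q0 : ℤ
  q1 : ℤ
  q2 : ℤ
  q3 : ℤ
  q4 : ℤ
  q5 : ℤ
  r0 : ℤ
  r1 : ℤ

namespace TD

variable (t : TD)

noncomputable def tj (k : ℕ) : List ℤ :=
  Nat.rec t.n (fun k r => smul (Int.negSucc 0)
    (add (smul (Int.ofNat (Nat.succ k)) r) (smul 2 (0 :: der r)))) k

noncomputable def qq (i : ℕ) : ℤ :=
  match i with
  | 0 => t.q0
  | 1 => t.q1
  | 2 => t.q2
  | 3 => t.q3
  | 4 => t.q4
  | _ => t.q5

noncomputable def rr (i : ℕ) : ℤ :=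
  match i with
  | 0 => t.r0
  | 1 => t.r1
  | _ => Int.ofNat (CT * SS)

noncomputable def loc : Loc where
  W ξ k := ev (t.tj k) ((4096 / ξ) ^ 2) / (PP * ξ ^ (k + 1))
  g1 _ k := if k = 0 then (CT : ℝ) else 0
  g0 _ k := if k = 0 then -(CT : ℝ) / 2 else 0
  q _ i := (t.qq i : ℝ) / SS
  qd _ _ := 0
  r i _ k := if k = 0 then (t.rr i : ℝ) / SS else 0
  f _ _ _ := 0

noncomputable def Yi : List ℤ := add [Int.ofNat PP] (smul (Int.negSucc 0) t.n)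
noncomputable def Si : List ℤ := add (t.tj 4) (add (smul 20 (t.tj 3)) (smul 90 (t.tj 2)))

noncomputable def chkW : Bool :=
  Nat.ble (nrm (t.tj 0) * 2) (10 ^ 6 * PP) && Nat.ble (nrm (t.tj 1) * 4) (10 ^ 6 * PP) &&
  Nat.ble (nrm (t.tj 2) * 8) (10 ^ 6 * PP) && Nat.ble (nrm (t.tj 3) * 16) (10 ^ 6 * PP) &&
  Nat.ble (nrm (t.tj 4) * 32) (10 ^ 6 * PP) &&
  chkPos 4 (add (smul 20 t.Yi) [Int.neg (Int.ofNat PP)]) 0 && chkPos 4 t.n 0 &&
  Nat.ble (nrm (der t.n) * (16 * 4096 ^ 2)) (10 ^ 6 * PP)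

/-- `PP^3 ξ^3 R = - Yi^2 Si + 4096^2 PP^2 n'` -/
noncomputable def chkRes (k : ℕ) : Bool :=
  (fun s : PK => Nat.ble (Nat.succ s.n) (Nat.pow 2 k) &&
    Nat.ble ((nrm (unp k s.l s.V) + s.e) * 8 * 10 ^ 130) (PP ^ 3))
  ((fun y : PK => ((pack k (der t.n) 0).sm (Int.ofNat (4096 ^ 2 * PP ^ 2))).sub
      ((y.mul y).mul (pack k t.Si 0))) (pack k t.Yi 0))

noncomputable def chkB : Bool :=
  Nat.ble (2 * t.q0.natAbs) (BB * SS) && Nat.ble (2 * t.q1.natAbs) (BB * SS) &&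
  Nat.ble (2 * t.q2.natAbs) (BB * SS) && Nat.ble t.q3.natAbs (BB * SS) &&
  Nat.ble t.q4.natAbs (BB * SS) && Nat.ble t.q5.natAbs (BB * SS) &&
  Nat.ble t.r0.natAbs (BB * SS) && Nat.ble t.r1.natAbs (BB * SS)

noncomputable def inp (k M : ℕ) : Inp PK where
  z := PK.cst 1
  Y := tm k M PQ t.Yi
  Y1 := tm k M PQ (smul 2 (0 :: der t.n))
  Z := tm k M PQ (smul (Int.ofNat (2 * 4096 ^ 2)) (der t.n))
  g1 := PK.cst (Int.ofNat (CT * SS))
  g1d := PK.cst 0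
  g1dd := PK.cst 0
  h0 := PK.cst (Int.neg (Int.ofNat (5000 * SS)))
  h0d := PK.cst 0
  X1 := PK.cst 0
  X0 := PK.cst 0
  q0 := PK.cst t.q0
  q1 := PK.cst t.q1
  q2 := PK.cst t.q2
  q3 := PK.cst t.q3
  q4 := PK.cst t.q4
  q5 := PK.cst t.q5
  d0 := PK.cst 0
  d1 := PK.cst 0
  d2 := PK.cst 0
  d3 := PK.cst 0
  d4 := PK.cst 0
  d5 := PK.cst 0

noncomputable def chk (k1 k2 : ℕ) : Bool :=
  t.chkW && t.chkRes k1 && t.chkB && mainChk k2 8 QQ SS (t.inp k2 4)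

end TD

noncomputable def mtT (a : PD) (t : TD) (k : ℕ) : Bool :=
  decide (evZ (derN k a.w) 1 * Int.ofNat (a.hd ^ k * 4096 ^ (k + 1)) =
    evZ (t.tj k) 1 * Int.ofNat (a.hn ^ k))

/-- `a` is the last piece. -/
noncomputable def chkMatchT (a : PD) (t : TD) : Bool :=
  Nat.beq (a.hn * (a.nu + 1)) (4096 * a.hd) &&
  mtT a t 0 && mtT a t 1 && mtT a t 2 && mtT a t 3 &&
  decide (evZ a.g1 1 = Int.ofNat (CT * SS)) && decide (evZ (der a.g1) 1 = 0) &&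
  decide (evZ (a.zp a.g0) 1 = Int.neg (Int.ofNat (5000 * SS))) &&
  decide (evZ (a.qq 0) 1 = t.q0) && decide (evZ (a.qq 1) 1 = t.q1) &&
  decide (evZ (a.qq 2) 1 = t.q2) && decide (evZ (a.qq 3) 1 = t.q3) &&
  decide (evZ (a.qq 4) 1 = t.q4) && decide (evZ (a.qq 5) 1 = t.q5) &&
  decide (evZ a.r0 1 = t.r0) && decide (evZ a.r1 1 = t.r1) &&
  decide (evZ a.r2 1 = Int.ofNat (CT * SS)) &&
  decide (a.f0 = []) && decide (a.f1 = [])

end Vale.Agent.P264.B
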