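import Mathlib

/-! Integer list polynomials, Kronecker packing and a Bernstein positivity test. -/

namespace Vale.Agent.P264.B

noncomputable def ev (p : List ℤ) (u : ℝ) : ℝ := p.foldr (fun a r => (a : ℝ) + u * r) 0

noncomputable def evZ (p : List ℤ) (X : ℤ) : ℤ :=
  List.rec (0 : ℤ) (fun a _ r => Int.add a (Int.mul X r)) p

noncomputable def nrm (p : List ℤ) : ℕ := List.rec 0 (fun a _ r => Nat.add a.natAbs r) p

noncomputable def add (p : List ℤ) : List ℤ → List ℤ :=
  List.rec (fun q => q)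
    (fun a p' ih q => List.rec (a :: p') (fun b q' _ => Int.add a b :: ih q') q) p

noncomputable def smul (c : ℤ) (p : List ℤ) : List ℤ :=
  List.rec [] (fun a _ r => Int.mul c a :: r) p

noncomputable def derA (p : List ℤ) : ℤ → List ℤ :=
  List.rec (fun _ => []) (fun a _ ih k => Int.mul k a :: ih (Int.add k 1)) p

noncomputable def der (p : List ℤ) : List ℤ := List.rec [] (fun _ p' _ => derA p' 1) p

/-- multiplication by `ν + u` -/
noncomputable def mulX (ν : ℤ) (p : List ℤ) : List ℤ := add (smul ν p) (0 :: p)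

noncomputable def lmul (p q : List ℤ) : List ℤ :=
  List.rec [] (fun a _ r => add (smul a q) (0 :: r)) p

noncomputable def len (p : List ℤ) : ℕ := List.rec 0 (fun _ _ r => Nat.succ r) p

noncomputable def tk (n : ℕ) : List ℤ → List ℤ :=
  Nat.rec (fun _ => []) (fun _ ih p => List.rec (0 :: ih []) (fun a p' _ => a :: ih p') p) n

noncomputable def dr (n : ℕ) : List ℤ → List ℤ :=
  Nat.rec (fun p => p) (fun _ ih p => List.rec [] (fun _ p' _ => ih p') p) n

/-- digits of a natural number in base `2^k`, shifted by `H`. -/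
noncomputable def digs (k H m : ℕ) (n : ℕ) : ℕ → List ℤ :=
  Nat.rec (fun _ => [])
    (fun _ ih N => Int.subNatNat (Nat.land N m) H :: ih (Nat.shiftRight N k)) n

/-- `H * (1 + X + ... + X^(n-1))` -/
noncomputable def off (H X : ℕ) (n : ℕ) : ℕ := Nat.rec 0 (fun _ r => Nat.add H (Nat.mul X r)) n

/-- balanced digits of an integer in base `2^(k+1)` -/
noncomputable def unp (k n : ℕ) (V : ℤ) : List ℤ :=
  digs (Nat.succ k) (Nat.pow 2 k) (Nat.sub (Nat.pow 2 (Nat.succ k)) 1) n
    (Int.toNat (Int.add V (Int.ofNat (off (Nat.pow 2 k) (Nat.pow 2 (Nat.succ k)) n))))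

noncomputable def hv (a J : ℤ) (p : List ℤ) : ℤ × ℤ :=
  List.rec ((0 : ℤ), (1 : ℤ))
    (fun c _ r => Prod.rec (fun v w =>
      (Int.add (Int.mul c (Int.mul w J)) (Int.mul a v), Int.mul w J)) r) p

noncomputable def allNN (p : List ℤ) : Bool :=
  List.rec true (fun a _ r => Int.rec (fun _ => r) (fun _ => false) a) p

/-- Bernstein test of `0 ≤ ev p u` on `[-1,1]`. -/
noncomputable def chkNN (p : List ℤ) : Bool :=
  (fun k => allNN (unp k (Nat.succ (len p))
    (hv (Int.ofNat (Nat.sub (Nat.pow 2 (Nat.succ k)) 1))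
      (Int.ofNat (Nat.add (Nat.pow 2 (Nat.succ k)) 1)) p).1))
    (Nat.add (Nat.log2 (nrm p)) (Nat.add (len p) 1))

/-- test of `e < ev p u` on `[-1,1]`, keeping `M` coefficients. -/
noncomputable def chkPos (M : ℕ) (p : List ℤ) (e : ℕ) : Bool :=
  chkNN (add (tk M p) [Int.negSucc (Nat.add e (nrm (dr M p)))])

@[simp] theorem ev_nil (u : ℝ) : ev [] u = 0 := rfl
@[simp] theorem ev_cons (a : ℤ) (p : List ℤ) (u : ℝ) : ev (a :: p) u = a + u * ev p u := rfl
@[simp] theorem evZ_nil (X : ℤ) : evZ [] X = 0 := rfl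
@[simp] theorem evZ_cons (a : ℤ) (p : List ℤ) (X : ℤ) : evZ (a :: p) X = a + X * evZ p X := rfl
@[simp] theorem nrm_nil : nrm [] = 0 := rfl
@[simp] theorem nrm_cons (a : ℤ) (p : List ℤ) : nrm (a :: p) = a.natAbs + nrm p := rfl
@[simp] theorem add_nil_left (q : List ℤ) : add [] q = q := rfl
@[simp] theorem add_nil_right (p : List ℤ) : add p [] = p := by cases p <;> rfl
@[simp] theorem add_cons (a b : ℤ) (p q : List ℤ) :
    add (a :: p) (b :: q) = (a + b) :: add p q := rfl
@[simp] theorem smul_nil (c : ℤ) : smul c [] = [] := rfl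
@[simp] theorem smul_cons (c a : ℤ) (p : List ℤ) : smul c (a :: p) = (c * a) :: smul c p := rfl
@[simp] theorem lmul_nil (q : List ℤ) : lmul [] q = [] := rfl
@[simp] theorem lmul_cons (a : ℤ) (p q : List ℤ) :
    lmul (a :: p) q = add (smul a q) (0 :: lmul p q) := rfl
@[simp] theorem len_nil : len [] = 0 := rfl
@[simp] theorem len_cons (a : ℤ) (p : List ℤ) : len (a :: p) = len p + 1 := rfl

theorem evZ_cast (p : List ℤ) (X : ℤ) : ((evZ p X : ℤ) : ℝ) = ev p X := by
  induction p with
  | nil => simp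
  | cons a p ih => simp [ih]

theorem ev_add (p q : List ℤ) (u : ℝ) : ev (add p q) u = ev p u + ev q u := by
  induction p generalizing q with
  | nil => simp
  | cons a p ih => cases q with
    | nil => simp
    | cons b q => simp [ih]; ring

theorem ev_smul (c : ℤ) (p : List ℤ) (u : ℝ) : ev (smul c p) u = c * ev p u := by
  induction p with
  | nil => simp
  | cons a p ih => simp [ih]; ring

theorem ev_mulX (ν : ℤ) (p : List ℤ) (u : ℝ) : ev (mulX ν p) u = (ν + u) * ev p u := by
  simp [mulX, ev_add, ev_smul]; ring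

theorem ev_lmul (p q : List ℤ) (u : ℝ) : ev (lmul p q) u = ev p u * ev q u := by
  induction p with
  | nil => simp
  | cons a p ih => simp [ev_add, ev_smul, ih]; ring

theorem evZ_add (p q : List ℤ) (X : ℤ) : evZ (add p q) X = evZ p X + evZ q X := by
  have h := ev_add p q X
  rw [← evZ_cast, ← evZ_cast, ← evZ_cast] at h
  exact_mod_cast h

theorem evZ_smul (c : ℤ) (p : List ℤ) (X : ℤ) : evZ (smul c p) X = c * evZ p X := by
  have h := ev_smul c p X
  rw [← evZ_cast, ← evZ_cast] at h
  exact_mod_cast h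

theorem evZ_lmul (p q : List ℤ) (X : ℤ) : evZ (lmul p q) X = evZ p X * evZ q X := by
  have h := ev_lmul p q X
  rw [← evZ_cast, ← evZ_cast, ← evZ_cast] at h
  exact_mod_cast h

theorem nrm_add (p q : List ℤ) : nrm (add p q) ≤ nrm p + nrm q := by
  induction p generalizing q with
  | nil => simp
  | cons a p ih => cases q with
    | nil => simp
    | cons b q =>
      have h1 := ih q
      have h2 := Int.natAbs_add_le a b
      simp only [add_cons, nrm_cons]; omega

theorem nrm_smul (c : ℤ) (p : List ℤ) : nrm (smul c p) = c.natAbs * nrm p := by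
  induction p with
  | nil => simp
  | cons a p ih => simp [ih, Int.natAbs_mul]; ring

theorem nrm_lmul (p q : List ℤ) : nrm (lmul p q) ≤ nrm p * nrm q := by
  induction p with
  | nil => simp
  | cons a p ih =>
    have h := nrm_add (smul a q) (0 :: lmul p q)
    rw [nrm_smul] at h
    simp only [lmul_cons, nrm_cons, Int.natAbs_zero] at *
    nlinarith

theorem len_add (p q : List ℤ) : len (add p q) = max (len p) (len q) := by
  induction p generalizing q with
  | nil => simp
  | cons a p ih => cases q with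
    | nil => simp
    | cons b q => simp [ih]

theorem len_smul (c : ℤ) (p : List ℤ) : len (smul c p) = len p := by
  induction p with
  | nil => simp
  | cons a p ih => simp [ih]

theorem len_lmul (p q : List ℤ) : len (lmul p q) ≤ len p + len q := by
  induction p with
  | nil => simp
  | cons a p ih => simp only [lmul_cons, len_add, len_smul, len_cons]; omega

theorem abs_ev_le (p : List ℤ) {u : ℝ} (hu : |u| ≤ 1) : |ev p u| ≤ nrm p := by
  induction p with
  | nil => simp
  | cons a p ih =>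
    simp only [ev_cons, nrm_cons, Nat.cast_add, Nat.cast_natAbs, Int.cast_abs]
    calc |(a : ℝ) + u * ev p u| ≤ |(a : ℝ)| + |u| * |ev p u| := by
          rw [← abs_mul]; exact abs_add_le _ _
      _ ≤ |(a : ℝ)| + 1 * nrm p := by gcongr
      _ = _ := by ring

theorem derA_spec (p : List ℤ) (k : ℤ) (u : ℝ) :
    ev (derA p k) u = k * ev p u + u * ev (der p) u := by
  induction p generalizing k with
  | nil => simp [derA, der]
  | cons a p ih =>
    have h1 : derA (a :: p) k = (k * a) :: derA p (k + 1) := rfl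
    have h2 : der (a :: p) = derA p 1 := rfl
    rw [h1, h2, ev_cons, ih, ih]; push_cast; simp; ring

theorem hasDerivAt_ev (p : List ℤ) (u : ℝ) : HasDerivAt (ev p) (ev (der p) u) u := by
  induction p with
  | nil => exact hasDerivAt_const u (0 : ℝ)
  | cons a p ih =>
    have h2 : der (a :: p) = derA p 1 := rfl
    have h : HasDerivAt (fun x => (a : ℝ) + x * ev p x) (1 * ev p u + u * ev (der p) u) u :=
      ((hasDerivAt_id' u).mul ih).const_add (a : ℝ)
    rw [h2, derA_spec]
    exact h.congr_deriv (by push_cast; ring)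

theorem continuous_ev (p : List ℤ) : Continuous (ev p) :=
  continuous_iff_continuousAt.2 fun u => (hasDerivAt_ev p u).continuousAt

theorem ev_tk_dr (n : ℕ) (p : List ℤ) (u : ℝ) : ev p u = ev (tk n p) u + u ^ n * ev (dr n p) u := by
  induction n generalizing p with
  | zero => simp [tk, dr]
  | succ n ih => cases p with
    | nil =>
      have h1 : tk (n + 1) [] = 0 :: tk n [] := rfl
      have h2 : dr (n + 1) [] = [] := rfl
      have h3 := ih []
      have h4 : dr n [] = [] := by cases n <;> rfl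
      rw [h4] at h3
      simp only [ev_nil, mul_zero, add_zero] at h3
      rw [h1, h2]; simp [← h3]
    | cons a p =>
      have h1 : tk (n + 1) (a :: p) = a :: tk n p := rfl
      have h2 : dr (n + 1) (a :: p) = dr n p := rfl
      rw [h1, h2, ev_cons, ev_cons, ih p]; ring

theorem off_succ (H X n : ℕ) : off H X (n + 1) = H + X * off H X n := rfl

theorem digs_spec (k n : ℕ) (p : List ℤ) (hp : nrm p < 2 ^ k) (hl : len p ≤ n) (N : ℕ)
    (hN : (N : ℤ) = evZ p (2 ^ (k + 1)) + off (2 ^ k) (2 ^ (k + 1)) n) (u : ℝ) :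
    ev (digs (k + 1) (2 ^ k) (2 ^ (k + 1) - 1) n N) u = ev p u := by
  induction n generalizing p N with
  | zero =>
    cases p with
    | nil => rfl
    | cons a p => simp at hl
  | succ n ih =>
    have hd : digs (k + 1) (2 ^ k) (2 ^ (k + 1) - 1) (n + 1) N =
        Int.subNatNat (N &&& (2 ^ (k + 1) - 1)) (2 ^ k) ::
          digs (k + 1) (2 ^ k) (2 ^ (k + 1) - 1) n (N >>> (k + 1)) := rfl
    rw [hd, Nat.and_two_pow_sub_one_eq_mod, Nat.shiftRight_eq_div_pow]
    obtain ⟨a, p', ha, hp', hl', hev, hZ⟩ : ∃ (a : ℤ) (p' : List ℤ), a.natAbs < 2 ^ k ∧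
        nrm p' < 2 ^ k ∧ len p' ≤ n ∧ ev p u = a + u * ev p' u ∧
        evZ p (2 ^ (k + 1)) = a + 2 ^ (k + 1) * evZ p' (2 ^ (k + 1)) := by
      cases p with
      | nil => exact ⟨0, [], by simp, hp, by simp, by simp, by simp⟩
      | cons a p =>
        simp only [nrm_cons, len_cons] at hp hl
        exact ⟨a, p, by omega, by omega, by omega, rfl, rfl⟩
    rw [hZ, off_succ] at hN
    push_cast at hN
    have hX : (2 : ℤ) ^ (k + 1) = 2 * 2 ^ k := by ring
    have ha' : |a| < 2 ^ k := by
      have : ((a.natAbs : ℕ) : ℤ) < ((2 ^ k : ℕ) : ℤ) := by exact_mod_cast ha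
      simpa using this
    obtain ⟨ha1, ha2⟩ := abs_lt.1 ha'
    set M : ℤ := evZ p' (2 ^ (k + 1)) + off (2 ^ k) (2 ^ (k + 1)) n with hM
    have hN' : (N : ℤ) = (a + 2 ^ k) + 2 ^ (k + 1) * M := by rw [hN, hM]; ring
    have hpos : (0 : ℤ) < 2 ^ (k + 1) := by positivity
    have hu := (Int.ediv_emod_unique (a := N) (b := 2 ^ (k + 1)) (r := a + 2 ^ k) (q := M) hpos).2
      ⟨hN'.symm, by linarith, by linarith⟩
    have h1 : ((N / 2 ^ (k + 1) : ℕ) : ℤ) = M := by push_cast; exact hu.1
    have h2 : ((N % 2 ^ (k + 1) : ℕ) : ℤ) = a + 2 ^ k := by push_cast; exact hu.2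
    rw [ev_cons, ih p' hp' hl' _ (by rw [h1, hM]), hev, Int.subNatNat_eq_coe, h2]
    push_cast; ring

theorem evZ_off_nonneg (k n : ℕ) (p : List ℤ) (hp : nrm p < 2 ^ k) (hl : len p ≤ n) :
    0 ≤ evZ p (2 ^ (k + 1)) + off (2 ^ k) (2 ^ (k + 1)) n := by
  induction n generalizing p with
  | zero =>
    cases p with
    | nil => simp
    | cons a p => simp at hl
  | succ n ih =>
    cases p with
    | nil => simp
    | cons a p =>
      simp only [nrm_cons, len_cons] at hp hl
      have h := ih p (by omega) (by omega)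
      have ha' : |a| < 2 ^ k := by
        have : ((a.natAbs : ℕ) : ℤ) < ((2 ^ k : ℕ) : ℤ) := by exact_mod_cast (by omega)
        simpa using this
      obtain ⟨ha1, _⟩ := abs_lt.1 ha'
      rw [evZ_cons, off_succ]; push_cast
      have hpos : (0 : ℤ) < 2 ^ (k + 1) := by positivity
      nlinarith [mul_nonneg hpos.le h]

theorem ev_unp (k n : ℕ) (p : List ℤ) (hp : nrm p < 2 ^ k) (hl : len p ≤ n) (u : ℝ) :
    ev (unp k n (evZ p (2 ^ (k + 1)))) u = ev p u := by
  have h0 := evZ_off_nonneg k n p hp hl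
  exact digs_spec k n p hp hl _ (Int.toNat_of_nonneg h0) u

theorem allNN_spec (p : List ℤ) (h : allNN p = true) {s : ℝ} (hs : 0 ≤ s) : 0 ≤ ev p s := by
  induction p with
  | nil => simp
  | cons a p ih =>
    cases a with
    | ofNat m =>
      have h' : allNN p = true := h
      have := ih h'
      rw [ev_cons]
      have : (0 : ℝ) ≤ ((Int.ofNat m : ℤ) : ℝ) := by simp
      positivity
    | negSucc m => exact absurd h (by simp [allNN])

theorem bern_exists (p : List ℤ) : ∃ q w : List ℤ,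
    nrm q ≤ nrm p * 2 ^ len p ∧ nrm w ≤ 2 ^ len p ∧ len q ≤ len p + 1 ∧ len w ≤ len p + 1 ∧
    (∀ X : ℤ, hv (X - 1) (X + 1) p = (evZ q X, evZ w X)) ∧
    ∀ s : ℝ, 0 ≤ s → ev w s = (s + 1) ^ len p ∧
      ev q s = (s + 1) ^ len p * ev p ((s - 1) / (s + 1)) := by
  induction p with
  | nil => exact ⟨[], [1], by simp, by simp, by simp, by simp, fun X => by simp [hv], by simp⟩
  | cons c p ih =>
    obtain ⟨q, w, h1, h2, h3, h4, h5, h6⟩ := ih
    have nX : ∀ (ν : ℤ) (r : List ℤ), ν.natAbs = 1 → nrm (mulX ν r) ≤ 2 * nrm r := by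
      intro ν r hν
      have := nrm_add (smul ν r) (0 :: r)
      rw [nrm_smul, hν] at this
      simp only [nrm_cons, Int.natAbs_zero] at this
      unfold mulX; omega
    have lX : ∀ (ν : ℤ) (r : List ℤ), len (mulX ν r) = len r + 1 := by
      intro ν r; simp [mulX, len_add, len_smul]
    have zX : ∀ (ν : ℤ) (r : List ℤ) (X : ℤ), evZ (mulX ν r) X = (ν + X) * evZ r X := by
      intro ν r X; simp [mulX, evZ_add, evZ_smul]; ring
    refine ⟨add (smul c (mulX 1 w)) (mulX (-1) q), mulX 1 w, ?_, ?_, ?_, ?_, ?_, ?_⟩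
    · have a1 := nrm_add (smul c (mulX 1 w)) (mulX (-1) q)
      have a2 := nX 1 w rfl
      have a3 := nX (-1) q rfl
      rw [nrm_smul] at a1
      simp only [nrm_cons, len_cons, pow_succ]
      nlinarith [Nat.mul_le_mul_left c.natAbs (a2.trans (Nat.mul_le_mul_left 2 h2))]
    · have a2 := nX 1 w rfl
      simp only [len_cons, pow_succ]; omega
    · simp only [len_add, len_smul, lX, len_cons]; omega
    · simp only [lX, len_cons]; omega
    · intro X
      have : hv (X - 1) (X + 1) (c :: p) = (c * ((hv (X - 1) (X + 1) p).2 * (X + 1)) +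
          (X - 1) * (hv (X - 1) (X + 1) p).1, (hv (X - 1) (X + 1) p).2 * (X + 1)) := rfl
      rw [this, h5 X, evZ_add, evZ_smul, zX, zX]
      ext <;> simp <;> ring
    · intro s hs
      obtain ⟨e1, e2⟩ := h6 s hs
      have hs1 : s + 1 ≠ 0 := by positivity
      rw [ev_add, ev_smul, ev_mulX, ev_mulX, e1, e2, ev_cons, len_cons]
      constructor
      · push_cast; ring
      · push_cast; field_simp; ring

theorem chkNN_spec (p : List ℤ) (h : chkNN p = true) {u : ℝ} (hu : |u| ≤ 1) : 0 ≤ ev p u := by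
  obtain ⟨q, w, h1, -, h3, -, h5, h6⟩ := bern_exists p
  set k := Nat.log2 (nrm p) + (len p + 1) with hk
  have hq : nrm q < 2 ^ k := by
    have : nrm p < 2 ^ (Nat.log2 (nrm p) + 1) := Nat.lt_log2_self
    calc nrm q ≤ nrm p * 2 ^ len p := h1
      _ < 2 ^ (Nat.log2 (nrm p) + 1) * 2 ^ len p := by gcongr
      _ = 2 ^ k := by rw [hk]; ring
  have hh : allNN (unp k (len p + 1) (evZ q (2 ^ (k + 1)))) = true := by
    have e1 : (Int.ofNat (Nat.sub (Nat.pow 2 (Nat.succ k)) 1)) = 2 ^ (k + 1) - 1 := by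
      have : 1 ≤ 2 ^ (k + 1) := Nat.one_le_two_pow
      show (((2 ^ (k + 1) - 1 : ℕ)) : ℤ) = _
      push_cast [this]; rfl
    have e2 : (Int.ofNat (Nat.add (Nat.pow 2 (Nat.succ k)) 1)) = 2 ^ (k + 1) + 1 := by
      show (((2 ^ (k + 1) + 1 : ℕ)) : ℤ) = _
      push_cast; rfl
    have h' : allNN (unp k (len p + 1) (hv (Int.ofNat (Nat.sub (Nat.pow 2 (Nat.succ k)) 1))
      (Int.ofNat (Nat.add (Nat.pow 2 (Nat.succ k)) 1)) p).1) = true := h
    rw [e1, e2, h5] at h'
    exact h'
  have key : ∀ v ∈ Set.Ico (-1 : ℝ) 1, 0 ≤ ev p v := by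
    intro v hv'
    have h1v : 0 < 1 - v := by linarith [hv'.2]
    have hs : 0 ≤ (1 + v) / (1 - v) := div_nonneg (by linarith [hv'.1]) h1v.le
    have a := allNN_spec _ hh hs
    rw [ev_unp k _ q hq h3, (h6 _ hs).2] at a
    have e : ((1 + v) / (1 - v) - 1) / ((1 + v) / (1 - v) + 1) = v := by
      field_simp; ring
    rw [e] at a
    exact (mul_nonneg_iff_of_pos_left (by positivity)).1 a
  have hc : IsClosed {v : ℝ | 0 ≤ ev p v} := isClosed_le continuous_const (continuous_ev p)
  have : u ∈ closure (Set.Ico (-1 : ℝ) 1) := by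
    rw [closure_Ico (by norm_num)]; exact abs_le.1 hu
  exact hc.closure_subset_iff.2 key this

theorem chkPos_spec (M : ℕ) (p : List ℤ) (e : ℕ) (h : chkPos M p e = true) {u : ℝ}
    (hu : |u| ≤ 1) : (e : ℝ) < ev p u := by
  have a := chkNN_spec _ h hu
  rw [ev_add] at a
  have b := abs_ev_le (dr M p) hu
  have c : |u ^ M * ev (dr M p) u| ≤ nrm (dr M p) := by
    rw [abs_mul, abs_pow]
    calc _ ≤ 1 * (nrm (dr M p) : ℝ) := by gcongr; exact pow_le_one₀ (abs_nonneg _) hu
      _ = _ := one_mul _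
  have d := ev_tk_dr M p u
  have e1 : ev [Int.negSucc (Nat.add e (nrm (dr M p)))] u = -((e : ℝ) + nrm (dr M p) + 1) := by
    simp [Int.negSucc_eq]
  rw [e1] at a
  linarith [(abs_le.1 c).1]

end Vale.Agent.P264.B
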