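import Vale.Agent.P264.B.Piece

/-! Soundness of the tail check. Plan: `σ = (4096/ξ)^2 ∈ (0,1]` for `ξ ≥ 4096`, `σ' = -2σ/ξ`, so
`d/dξ (F σ / ξ^(k+1)) = -((k+1) F + 2 σ F') / ξ^(k+2)` (definition of `tj`, `hasDerivAt_ev`).
`1 - ξ W0 = ev Yi σ / PP`, `W0 + ξ W1 = -2 σ ev (der n) σ / (PP ξ) = -2 4096^2 ev (der n) σ/(PP ξ^3)`,
`ξ^3 S2 W = ev Si σ / PP`, `1 + ξ ≤ 2 ξ`, `ξ/(1+ξ) ≥ 1/2`. Main inequality: `mainChk_spec` with
`z = 1`, `u = σ` (`Rep.cst`, `Rep.tm`, `PP = PQ * QQ`). Index (only `i = 2` occurs):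
`ct (a1^2 + 3/2 a0^2 + 2 a0 a1) ≥ a0^2 + a1^2`. Measurability: `continuous_ev`, `Measurable.div`.
The integral over `[4096, 4096]` vanishes. -/

open Set

namespace Vale.Agent.P264.B

theorem tail_PP : (0 : ℝ) < PP := Nat.cast_pos.2 (by unfold PP; positivity)

theorem tail_SS : (0 : ℝ) < SS := Nat.cast_pos.2 (by unfold SS; positivity)

theorem tail_PQ : (PP : ℝ) = PQ * QQ := by
  have : PP = PQ * QQ := by unfold PP PQ QQ; rw [← pow_add]
  exact_mod_cast this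

theorem tail_tj (t : TD) (k : ℕ) (u : ℝ) :
    ev (t.tj (k + 1)) u = -((k + 1) * ev (t.tj k) u + 2 * (u * ev (der (t.tj k)) u)) := by
  have e : t.tj (k + 1) = smul (Int.negSucc 0)
    (add (smul (Int.ofNat (k + 1)) (t.tj k)) (smul 2 (0 :: der (t.tj k)))) := rfl
  rw [e, ev_smul, ev_add, ev_smul, ev_smul, ev_cons]
  simp [Int.negSucc_eq]

theorem tail_W (t : TD) (ξ : ℝ) (k : ℕ) :
    t.loc.W ξ k = ev (t.tj k) ((4096 / ξ) ^ 2) / (PP * ξ ^ (k + 1)) := rfl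

theorem tail_der (t : TD) {ξ : ℝ} (hξ : ξ ≠ 0) (k : ℕ) :
    HasDerivAt (fun y => t.loc.W y k) (t.loc.W ξ (k + 1)) ξ := by
  have hP := tail_PP.ne'
  have h1 : HasDerivAt (fun y : ℝ => (4096 / y) ^ 2) (-2 * (4096 / ξ) ^ 2 / ξ) ξ := by
    have h := ((hasDerivAt_const ξ (4096 : ℝ)).fun_div (hasDerivAt_id' ξ) hξ).fun_pow 2
    refine h.congr_deriv ?_
    norm_num
    field_simp
  have h2 := (hasDerivAt_ev (t.tj k) ((4096 / ξ) ^ 2)).comp ξ h1
  have h3 : HasDerivAt (fun y : ℝ => (PP : ℝ) * y ^ (k + 1)) (PP * ((k + 1 : ℕ) * ξ ^ k)) ξ :=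
    (hasDerivAt_pow (k + 1) ξ).const_mul (PP : ℝ)
  have h4 := h2.fun_div h3 (mul_ne_zero hP (pow_ne_zero _ hξ))
  simp only [tail_W]
  refine h4.congr_deriv ?_
  rw [tail_tj]
  simp only [Function.comp]
  generalize ev (t.tj k) ((4096 / ξ) ^ 2) = F
  generalize ev (der (t.tj k)) ((4096 / ξ) ^ 2) = G
  generalize (4096 / ξ) ^ 2 = σ
  push_cast
  field_simp
  ring

theorem tail_bd {x N B P ξ : ℝ} {m : ℕ} (hP : 0 < P) (hξ : 1 ≤ ξ) (hx : |x| ≤ N)
    (h : N * 2 ^ m ≤ B * P) : |x / (P * ξ ^ m)| * (1 + ξ) ^ m ≤ B := by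
  have h0 : 0 < ξ := by linarith
  have h1 : (1 + ξ) ^ m ≤ (2 * ξ) ^ m := pow_le_pow_left₀ (by linarith) (by linarith) m
  have hN : 0 ≤ N := (abs_nonneg _).trans hx
  have hq : 0 < P * ξ ^ m := by positivity
  rw [abs_div, abs_of_pos hq, div_mul_eq_mul_div, div_le_iff₀ hq]
  calc |x| * (1 + ξ) ^ m ≤ N * (2 * ξ) ^ m := by gcongr
    _ = N * 2 ^ m * ξ ^ m := by rw [mul_pow, mul_assoc]
    _ ≤ B * P * ξ ^ m := by gcongr
    _ = _ := by ring

theorem tail_res (t : TD) {k : ℕ} (h : t.chkRes k = true) {u : ℝ} (hu : |u| ≤ 1) :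
    ∃ N : ℝ, |(4096 : ℝ) ^ 2 * PP ^ 2 * ev (der t.n) u - ev t.Yi u * ev t.Yi u * ev t.Si u| ≤ N ∧
      N * 2 ^ 3 ≤ 1 / 10 ^ 130 * PP ^ 3 := by
  have hr := ((Rep.pack (k := k) (u := u) (der t.n)).sm (Int.ofNat (4096 ^ 2 * PP ^ 2))).sub
    (((Rep.pack t.Yi).mul hu (Rep.pack t.Yi)).mul hu (Rep.pack t.Si))
  unfold TD.chkRes at h
  beta_reduce at h
  generalize ((pack k (der t.n) 0).sm (Int.ofNat (4096 ^ 2 * PP ^ 2))).sub
    (((pack k t.Yi 0).mul (pack k t.Yi 0)).mul (pack k t.Si 0)) = s at hr h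
  rw [Bool.and_eq_true, Nat.ble_eq, Nat.ble_eq] at h
  obtain ⟨h1, h2⟩ := h
  have h3 := hr.abs_le hu h1
  have e : ((Int.ofNat (4096 ^ 2 * PP ^ 2) : ℤ) : ℝ) = 4096 ^ 2 * PP ^ 2 := by
    rw [Int.ofNat_eq_natCast, Int.cast_natCast, Nat.cast_mul, Nat.cast_pow, Nat.cast_pow,
      Nat.cast_ofNat]
  rw [e] at h3
  refine ⟨_, h3, ?_⟩
  have h4 : (((nrm (unp k s.l s.V) + s.e) * 8 * 10 ^ 130 : ℕ) : ℝ) ≤ ((PP ^ 3 : ℕ) : ℝ) :=
    Nat.cast_le.2 h2
  rw [Nat.cast_mul, Nat.cast_mul, Nat.cast_add, Nat.cast_pow, Nat.cast_pow, Nat.cast_ofNat,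
    Nat.cast_ofNat] at h4
  rw [one_div, inv_mul_eq_div, le_div_iff₀ (by positivity)]
  calc _ = ((nrm (unp k s.l s.V) : ℝ) + s.e) * 8 * 10 ^ 130 := by ring
    _ ≤ _ := h4

theorem tail_q {a : ℤ} {c : ℕ} (h : c * a.natAbs ≤ BB * SS) :
    c * |(a : ℝ) / SS| ≤ 10 ^ 14 := by
  have h1 : ((c * a.natAbs : ℕ) : ℝ) ≤ ((BB * SS : ℕ) : ℝ) := Nat.cast_le.2 h
  have h2 : (BB : ℝ) = 10 ^ 14 := by unfold BB; norm_num
  rw [Nat.cast_mul, Nat.cast_mul, Nat.cast_natAbs, Int.cast_abs, h2] at h1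
  rw [abs_div, abs_of_pos tail_SS, ← mul_div_assoc, div_le_iff₀ tail_SS]
  exact h1

theorem tail_q1 {a : ℤ} (h : a.natAbs ≤ BB * SS) : |(a : ℝ) / SS| ≤ 10 ^ 14 := by
  have := tail_q (c := 1) (a := a) (by rwa [one_mul])
  rwa [Nat.cast_one, one_mul] at this

theorem tail_q2 {a : ℤ} (h : 2 * a.natAbs ≤ BB * SS) : |(a : ℝ) / SS| ≤ 10 ^ 14 * (1 / 2) := by
  have := tail_q (c := 2) (a := a) h
  rw [Nat.cast_ofNat] at this
  linarith

theorem tail_cst {k : ℕ} {u x : ℝ} (c : ℤ) (h : (c : ℝ) = x) : Rep k u (PK.cst c) x :=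
  h ▸ Rep.cst c

theorem tail_tm {k M : ℕ} {u x : ℝ} (hu : |u| ≤ 1) (p : List ℤ) (h : x = ev p u / PP) :
    Rep k u (tm k M PQ p) (QQ * x) := by
  have hQ : 0 < PQ := by unfold PQ; positivity
  have hQ' : (PQ : ℝ) ≠ 0 := (Nat.cast_pos.2 hQ).ne'
  have hQ2 : (QQ : ℝ) ≠ 0 := (Nat.cast_pos.2 (by unfold QQ; positivity)).ne'
  have e : (QQ : ℝ) * x = ev p u / PQ := by rw [h, tail_PQ]; field_simp
  rw [e]
  exact Rep.tm hu M PQ hQ p

theorem tail_pt {t : TD} {k1 k2 : ℕ} (h : t.chk k1 k2 = true) {ξ : ℝ} (hξ : 4096 ≤ ξ) :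
    Pt cst t.loc ξ := by
  simp only [TD.chk, TD.chkW, TD.chkB, Bool.and_eq_true, Nat.ble_eq] at h
  obtain ⟨⟨⟨⟨⟨⟨⟨⟨⟨⟨w0, w1⟩, w2⟩, w3⟩, w4⟩, y1⟩, y2⟩, y3⟩, hres⟩,
    ⟨⟨⟨⟨⟨⟨⟨q0, q1⟩, q2⟩, q3⟩, q4⟩, q5⟩, r0⟩, r1⟩⟩, hmain⟩ := h
  have h0 : 0 < ξ := by linarith
  have hne := h0.ne'
  have h1 : 1 ≤ ξ := by linarith
  have hP := tail_PP
  have hP' := hP.ne'
  have hS := tail_SS.ne'
  have hC : (CT : ℝ) = 10000 := by unfold CT; norm_num
  have hu : |(4096 / ξ) ^ 2| ≤ 1 := by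
    rw [abs_of_nonneg (sq_nonneg _)]
    exact pow_le_one₀ (by positivity) ((div_le_one h0).2 hξ)
  have hv : 1 / 2 ≤ ξ / (1 + ξ) := by
    rw [le_div_iff₀ (by linarith)]; linarith
  have hv1 : ξ / (1 + ξ) ≤ 1 := (div_le_one (by linarith)).2 (by linarith)
  have e0 : t.tj 0 = t.n := rfl
  have eYi : ev t.Yi ((4096 / ξ) ^ 2) = PP - ev t.n ((4096 / ξ) ^ 2) := by
    unfold TD.Yi
    rw [ev_add, ev_smul, ev_cons, ev_nil, Int.ofNat_eq_natCast, Int.cast_natCast,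
      show Int.negSucc 0 = -1 from rfl, Int.cast_neg, Int.cast_one]
    ring
  have eY : 1 - ξ * t.loc.W ξ 0 = ev t.Yi ((4096 / ξ) ^ 2) / PP := by
    rw [tail_W, e0, eYi, zero_add, pow_one, sub_div, div_self hP', mul_div_assoc', mul_comm _ ξ,
      mul_div_mul_left _ _ hne]
  have eU : t.loc.W ξ 0 + ξ * t.loc.W ξ 1 =
      -(2 * 4096 ^ 2 * ev (der t.n) ((4096 / ξ) ^ 2)) / (PP * ξ ^ 3) := by
    rw [tail_W, tail_W, tail_tj, e0]
    generalize ev t.n ((4096 / ξ) ^ 2) = F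
    generalize ev (der t.n) ((4096 / ξ) ^ 2) = G
    push_cast
    field_simp
    ring
  have eS : S2 (t.loc.W ξ) ξ = ev t.Si ((4096 / ξ) ^ 2) / (PP * ξ ^ 3) := by
    unfold S2 TD.Si
    rw [tail_W, tail_W, tail_W, ev_add, ev_add, ev_smul, ev_smul]
    push_cast
    field_simp
    ring
  have bY : 1 / 20 ≤ 1 - ξ * t.loc.W ξ 0 ∧ 1 - ξ * t.loc.W ξ 0 ≤ 1 := by
    have a1 := chkPos_spec _ _ _ y1 hu
    have a2 := chkPos_spec _ _ _ y2 hu
    rw [ev_add, ev_smul] at a1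
    have a3 : ev [Int.neg (Int.ofNat PP)] ((4096 / ξ) ^ 2) = -(PP : ℝ) := by
      have : Int.neg (Int.ofNat PP) = -(PP : ℤ) := rfl
      rw [this, ev_cons, ev_nil, Int.cast_neg, Int.cast_natCast, mul_zero, add_zero]
    rw [a3] at a1
    push_cast at a1 a2
    rw [eY, le_div_iff₀ hP, div_le_one hP]
    constructor <;> linarith
  have g10 : t.loc.g1 ξ 0 = 10000 := hC
  have g11 : t.loc.g1 ξ 1 = 0 := rfl
  have g12 : t.loc.g1 ξ 2 = 0 := rfl
  have g00 : t.loc.g0 ξ 0 = -5000 := by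
    show -(CT : ℝ) / 2 = _
    rw [hC]; norm_num
  have g01 : t.loc.g0 ξ 1 = 0 := rfl
  have eqd : ∀ i, t.loc.qd ξ i = 0 := fun _ => rfl
  have er1 : ∀ i, t.loc.r i ξ 1 = 0 := fun _ => rfl
  have eCS : ((Int.ofNat (CT * SS) : ℤ) : ℝ) = SS * 10000 := by
    rw [Int.ofNat_eq_natCast, Int.cast_natCast, Nat.cast_mul, hC, mul_comm]
  have er2 : t.loc.r 2 ξ 0 = 10000 := by
    show ((Int.ofNat (CT * SS) : ℤ) : ℝ) / SS = _
    rw [eCS]; field_simp
  have hq0 : ∀ i, i ≤ 2 → |t.loc.q ξ i| ≤ 10 ^ 14 * (1 / 2) := by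
    intro i hi
    interval_cases i
    exacts [tail_q2 q0, tail_q2 q1, tail_q2 q2]
  refine
    { bW := fun k hk => ?_
      bY := bY
      bY1 := ?_
      res := ?_
      bg1 := ?_
      bg0 := ?_
      bq := fun i hi => ⟨?_, by rw [eqd]; norm_num⟩
      bq0 := fun i hi => ⟨(hq0 i hi).trans (by gcongr), by rw [eqd]; simp; positivity⟩
      tail := fun _ => ⟨rfl, rfl, rfl, rfl, rfl⟩
      main := fun a => ?_
      br := fun i hi => ⟨?_, by rw [er1]; norm_num⟩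
      rtail := fun _ => ⟨er2.trans hC.symm, rfl⟩
      index := fun i hi a0 a1 => ?_
      bf := fun i k _ _ => by
        show |(0 : ℝ)| ≤ 1
        norm_num
      ftail := fun _ _ _ _ => rfl
      bYs := fun e => ?_ }
  · rw [tail_W]
    refine tail_bd hP h1 (abs_ev_le _ hu) ?_
    have : nrm (t.tj k) * 2 ^ (k + 1) ≤ 10 ^ 6 * PP := by
      interval_cases k
      exacts [w0, w1, w2, w3, w4]
    exact_mod_cast this
  · rw [eU]
    refine tail_bd (N := 2 * 4096 ^ 2 * nrm (der t.n)) hP h1 ?_ ?_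
    · rw [abs_neg, abs_mul, abs_of_pos (by positivity)]
      gcongr
      exact abs_ev_le _ hu
    · have : ((nrm (der t.n) * (16 * 4096 ^ 2) : ℕ) : ℝ) ≤ ((10 ^ 6 * PP : ℕ) : ℝ) :=
        Nat.cast_le.2 y3
      push_cast at this
      linarith
  · obtain ⟨N, a1, a2⟩ := tail_res t hres hu
    have e : -(1 - ξ * t.loc.W ξ 0) ^ 2 * S2 (t.loc.W ξ) ξ - (t.loc.W ξ 0 + ξ * t.loc.W ξ 1) / 2 =
        ((4096 : ℝ) ^ 2 * PP ^ 2 * ev (der t.n) ((4096 / ξ) ^ 2) - ev t.Yi ((4096 / ξ) ^ 2) *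
          ev t.Yi ((4096 / ξ) ^ 2) * ev t.Si ((4096 / ξ) ^ 2)) / (PP ^ 3 * ξ ^ 3) := by
      rw [eY, eS, eU]
      generalize ev t.Yi ((4096 / ξ) ^ 2) = F
      generalize ev t.Si ((4096 / ξ) ^ 2) = H
      generalize ev (der t.n) ((4096 / ξ) ^ 2) = G
      field_simp
      ring
    rw [e]
    exact tail_bd (pow_pos hP 3) h1 a1 a2
  · rw [g10, g11, g12]; norm_num
  · rw [g00, g01, mul_zero, abs_zero, abs_neg, abs_of_pos (by norm_num)]
    constructor <;> linarith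
  · rcases le_or_gt i 2 with h2 | h2
    · exact (hq0 i h2).trans (by norm_num)
    · interval_cases i
      exacts [tail_q1 q3, tail_q1 q4, tail_q1 q5]
  · have hqS : ∀ a : ℤ, (a : ℝ) = SS * ((a : ℝ) / SS) := fun a => by field_simp
    have hi : RepI k2 ((4096 / ξ) ^ 2) QQ SS (t.inp k2 4)
        { z := 1, Y := 1 - ξ * t.loc.W ξ 0, Y1 := -ξ * (t.loc.W ξ 0 + ξ * t.loc.W ξ 1)
          Z := ξ ^ 2 * (-ξ * (t.loc.W ξ 0 + ξ * t.loc.W ξ 1))
          g1 := t.loc.g1 ξ 0, g1d := ξ * t.loc.g1 ξ 1, g1dd := ξ ^ 2 * t.loc.g1 ξ 2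
          h0 := t.loc.g0 ξ 0, h0d := ξ * t.loc.g0 ξ 1
          X1 := ξ ^ 2 * (ξ * t.loc.g1 ξ 1), X0 := ξ ^ 2 * (ξ * t.loc.g0 ξ 1)
          q0 := t.loc.q ξ 0, q1 := t.loc.q ξ 1, q2 := t.loc.q ξ 2, q3 := t.loc.q ξ 3
          q4 := t.loc.q ξ 4, q5 := t.loc.q ξ 5
          d0 := ξ * t.loc.qd ξ 0, d1 := ξ * t.loc.qd ξ 1, d2 := ξ * t.loc.qd ξ 2
          d3 := ξ * t.loc.qd ξ 3, d4 := ξ * t.loc.qd ξ 4, d5 := ξ * t.loc.qd ξ 5 } :=
      { z := tail_cst _ Int.cast_one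
        Y := tail_tm hu _ eY
        Y1 := tail_tm hu _ (by
          rw [eU, ev_smul, ev_cons]
          generalize ev (der t.n) ((4096 / ξ) ^ 2) = G
          push_cast
          field_simp
          ring)
        Z := tail_tm hu _ (by
          rw [eU, ev_smul, Int.ofNat_eq_natCast]
          generalize ev (der t.n) ((4096 / ξ) ^ 2) = G
          push_cast
          field_simp
          ring)
        g1 := tail_cst _ (by rw [g10, eCS])
        g1d := tail_cst _ (by rw [g11]; simp)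
        g1dd := tail_cst _ (by rw [g12]; simp)
        h0 := tail_cst _ (by
          have : Int.neg (Int.ofNat (5000 * SS)) = -((5000 * SS : ℕ) : ℤ) := rfl
          rw [g00, this]; push_cast; ring)
        h0d := tail_cst _ (by rw [g01]; simp)
        X1 := tail_cst _ (by rw [g11]; simp)
        X0 := tail_cst _ (by rw [g01]; simp)
        q0 := tail_cst _ (hqS _)
        q1 := tail_cst _ (hqS _)
        q2 := tail_cst _ (hqS _)
        q3 := tail_cst _ (hqS _)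
        q4 := tail_cst _ (hqS _)
        q5 := tail_cst _ (hqS _)
        d0 := tail_cst _ (by simp only [eqd, mul_zero, Int.cast_zero])
        d1 := tail_cst _ (by simp only [eqd, mul_zero, Int.cast_zero])
        d2 := tail_cst _ (by simp only [eqd, mul_zero, Int.cast_zero])
        d3 := tail_cst _ (by simp only [eqd, mul_zero, Int.cast_zero])
        d4 := tail_cst _ (by simp only [eqd, mul_zero, Int.cast_zero])
        d5 := tail_cst _ (by simp only [eqd, mul_zero, Int.cast_zero]) }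
    have key := mainChk_spec (ξ := ξ) (vp := ξ / (1 + ξ)) (q := t.loc.q ξ) (qd := t.loc.qd ξ)
      (by unfold QQ; positivity) (by unfold SS; positivity) hu hi hmain zero_le_one one_le_two
      (lt_of_lt_of_le (by norm_num) bY.1) bY.2 hv1 (one_mul _).symm rfl rfl
      (one_mul _).symm (one_mul _).symm (one_mul _).symm rfl rfl rfl
      (one_mul _).symm (one_mul _).symm (one_mul _).symm rfl rfl rfl a
    simp only [one_mul] at key
    exact key
  · interval_cases i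
    · exact tail_q1 r0
    · exact tail_q1 r1
    · rw [er2]; norm_num
  · have hi2 : i = 2 := by
      rcases hi with ⟨_, h2⟩ | ⟨_, _, h2⟩ | ⟨h2, _⟩
      · exact absurd (show ξ < 37 / 8 from h2) (by linarith)
      · exact absurd (show ξ < 6 from h2) (by linarith)
      · exact h2
    rw [hi2, g10, g00, er1, er2]
    nlinarith [sq_nonneg (5 * a1 + 6 * a0), sq_nonneg a0, sq_nonneg a1]
  · exact absurd (show ξ = 9 / 2 from e) (by linarith)

theorem TD.chk_spec {t : TD} {k1 k2 : ℕ} (h : t.chk k1 k2 = true) :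
    Good cst t.loc 4096 ∅ (fun _ _ => 0) := by
  have hne : ∀ ξ : ℝ, 4096 ≤ ξ → ξ ≠ 0 := fun ξ hξ => by linarith
  refine ⟨le_refl (4096 : ℝ), fun ξ hξ => ?_, fun ξ hξ _ => ?_, ?_, fun ξ hξ => tail_pt h hξ,
    fun θ0 θ1 => (intervalIntegral.integral_same (a := (4096 : ℝ))).le⟩
  · exact
      { dW := fun k _ => tail_der t (hne ξ hξ) k
        cW := (tail_der t (hne ξ hξ) 3).continuousAt
        dg1 := hasDerivAt_const ξ (CT : ℝ)
        cg1 := continuousAt_const (y := (0 : ℝ))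
        cg0 := continuousAt_const (y := -(CT : ℝ) / 2)
        cq := fun i _ => continuousAt_const (y := (t.qq i : ℝ) / SS)
        cr := fun i _ => continuousAt_const (y := (t.rr i : ℝ) / SS)
        df := fun _ _ _ _ => hasDerivAt_const ξ (0 : ℝ)
        cf := fun _ _ => continuousAt_const (y := (0 : ℝ)) }
  · exact
      { dW := tail_der t (hne ξ hξ) 3
        dg1 := hasDerivAt_const ξ (0 : ℝ)
        dg0 := hasDerivAt_const ξ (-(CT : ℝ) / 2)
        dq := fun i _ => hasDerivAt_const ξ ((t.qq i : ℝ) / SS)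
        dr := fun i _ => hasDerivAt_const ξ ((t.rr i : ℝ) / SS) }
  · exact
      { mW := ((continuous_ev (t.tj 4)).measurable.comp
          ((measurable_const.div measurable_id).pow_const 2)).div
          (measurable_const.mul (measurable_id.pow_const (4 + 1)))
        mg1 := measurable_const (a := (0 : ℝ))
        mg0 := measurable_const (a := (0 : ℝ))
        mq := fun _ _ => measurable_const (a := (0 : ℝ))
        mr := fun _ _ => measurable_const (a := (0 : ℝ)) }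

end Vale.Agent.P264.B
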