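import Vale.Agent.P264.B.PM
import Vale.Agent.P264.B.Tail

/-! Gluing the pieces from the right to the left. -/

namespace Vale.Agent.P264.B

noncomputable def addJ (i j : ℤ × ℤ × ℤ) : ℤ × ℤ × ℤ :=
  (Int.add i.1 j.1, Int.add i.2.1 j.2.1, Int.add i.2.2 j.2.2)

theorem AA_add (i j : ℤ × ℤ × ℤ) :
    (fun θ0 θ1 => AA i θ0 θ1 + AA j θ0 θ1) = AA (addJ i j) := by
  funext θ0 θ1
  change _ = (((i.1 + j.1 : ℤ) : ℝ) * θ0 ^ 2 + 2 * ((i.2.1 + j.2.1 : ℤ) : ℝ) * θ0 * θ1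
    + ((i.2.2 + j.2.2 : ℤ) : ℝ) * θ1 ^ 2) / (1024 * LC * SS ^ 3)
  unfold AA
  push_cast
  ring

/-- Everything right of the left end of `a` is certified, with energy `j`. -/
def Acc (a : PD) (j : ℤ × ℤ × ℤ) : Prop :=
  a.chkBasic = true ∧
    ∃ L Bk, Good cst L a.lo Bk (AA j) ∧ ∀ L', Match L' a.loc a.lo → Match L' L a.lo

theorem Acc.last {a : PD} {t : TD} {k1 k2 M N k3 k4 : ℕ} (ha : a.chk k1 k2 M N = true)
    (h1 : a.first = true → a.hn ≤ a.hd) (ht : t.chk k3 k4 = true) (hm : chkMatchT a t = true) :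
    Acc a a.JJ := by
  have hb := PD.chk_basic ha
  have hs := PD.chk_spec ha h1
  obtain ⟨e, m⟩ := chkMatchT_spec hb hm
  rw [e] at hs
  obtain ⟨Bk, g⟩ := Good.step hs (TD.chk_spec ht) m
  simp only [add_zero] at g
  exact ⟨hb, _, Bk, g, fun L' m' => m'.glue hs.lt⟩

theorem Acc.step {a b : PD} {j : ℤ × ℤ × ℤ} {k1 k2 M N : ℕ} (ha : a.chk k1 k2 M N = true)
    (h1 : a.first = true → a.hn ≤ a.hd) (hm : chkMatch a b = true) (h : Acc b j) :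
    Acc a (addJ a.JJ j) := by
  have hb := PD.chk_basic ha
  have hs := PD.chk_spec ha h1
  obtain ⟨hb', L, Bk, g, mm⟩ := h
  obtain ⟨e, m⟩ := chkMatch_spec hb hb' hm
  rw [e] at hs m
  obtain ⟨Bk', g'⟩ := Good.step hs g (mm _ m)
  rw [AA_add] at g'
  exact ⟨hb, _, Bk', g', fun L' m' => m'.glue hs.lt⟩

noncomputable def chkA (j : ℤ × ℤ × ℤ) : Bool :=
  decide (j.1 + Int.ofNat (1024 * LC * SS ^ 3 + j.2.1.natAbs) ≤ 0) &&
    decide (j.2.2 + Int.ofNat (1024 * LC * SS ^ 3 + j.2.1.natAbs) ≤ 0)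

theorem chkA_spec {j : ℤ × ℤ × ℤ} (h : chkA j = true) (θ0 θ1 : ℝ) :
    AA j θ0 θ1 ≤ -(θ0 ^ 2 + θ1 ^ 2) := by
  simp only [chkA, Bool.and_eq_true, decide_eq_true_eq] at h
  have hT : (0 : ℝ) < 1024 * LC * SS ^ 3 := by
    have := pm_SS
    have : (0 : ℝ) < LC := by unfold LC; positivity
    positivity
  have key : ∀ x : ℤ, x + Int.ofNat (1024 * LC * SS ^ 3 + j.2.1.natAbs) ≤ 0 →
      (x : ℝ) + (1024 * LC * SS ^ 3 + |(j.2.1 : ℝ)|) ≤ 0 := fun x hx => by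
    have h1 : ((x + Int.ofNat (1024 * LC * SS ^ 3 + j.2.1.natAbs) : ℤ) : ℝ) ≤ ((0 : ℤ) : ℝ) :=
      Int.cast_le.2 hx
    rw [Int.cast_add, pm_nat, Nat.cast_add, Nat.cast_natAbs, Int.cast_abs, Int.cast_zero,
      Nat.cast_mul, Nat.cast_mul, Nat.cast_pow, Nat.cast_ofNat] at h1
    exact h1
  have a1 := key _ h.1
  have a2 := key _ h.2
  unfold AA
  rw [div_le_iff₀ hT]
  generalize (1024 * LC * SS ^ 3 : ℝ) = T at *
  generalize (j.1 : ℝ) = x at *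
  generalize (j.2.2 : ℝ) = y at *
  generalize (j.2.1 : ℝ) = z at *
  have b1 : 2 * z * θ0 * θ1 ≤ |z| * (θ0 ^ 2 + θ1 ^ 2) := by
    rcases abs_cases z with ⟨e, hz⟩ | ⟨e, hz⟩ <;> rw [e]
    · nlinarith [mul_nonneg hz (sq_nonneg (θ0 - θ1))]
    · nlinarith [mul_nonneg (neg_nonneg.2 hz.le) (sq_nonneg (θ0 + θ1))]
  nlinarith [mul_nonneg (neg_nonneg.2 a1) (sq_nonneg θ0),
    mul_nonneg (neg_nonneg.2 a2) (sq_nonneg θ1)]

theorem Acc.cert {a : PD} {j : ℤ × ℤ × ℤ} (h : Acc a j) (h1 : a.nu = 1) (hj : chkA j = true) :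
    Nonempty Cert := by
  obtain ⟨_, L, Bk, g, _⟩ := h
  have e : a.lo = 0 := by simp [PD.lo, h1]
  rw [e] at g
  refine g.cert (chkA_spec hj) ?_ ?_ ?_ ?_ ?_ ?_ ?_ ?_ <;> norm_num [cst, CT]

end Vale.Agent.P264.B
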